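import Vale.Agent.P088.H393.Est2

/-!
# P088, row EST, part 3: the complex geometric optics solution solves the equation
-/

open MeasureTheory Set
open scoped ContDiff Matrix

noncomputable section

namespace Vale.Agent.P088.LR.H393

open Vale.Agent.P088.LR

variable {n : ℕ}

theorem norm_ex (ξ x : V n) : ‖ex ξ x‖ = 1 := by
  unfold ex
  have h : 2 * (Real.pi : ℂ) * Complex.I * ((∑ j, ξ j * x j : ℝ) : ℂ) =
      ((2 * Real.pi * ∑ j, ξ j * x j : ℝ) : ℂ) * Complex.I := by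
    push_cast
    ring
  rw [h, Complex.norm_exp_ofReal_mul_I]

theorem Es_summable {c : Ix n → ℂ} (hc : RD c) (θ x : V n) :
    Summable fun k => c k * ex (fr θ k) x := by
  refine Summable.of_norm ?_
  have : ∀ k, ‖c k * ex (fr θ k) x‖ = ‖c k‖ := fun k => by rw [norm_mul, norm_ex, mul_one]
  simp_rw [this]
  exact sn hc

theorem norm_Es_le {c : Ix n → ℂ} (hc : RD c) (θ x : V n) : ‖Es θ c x‖ ≤ nm 0 c := by
  unfold Es
  have h : ∀ k, ‖c k * ex (fr θ k) x‖ = ‖c k‖ := fun k => by rw [norm_mul, norm_ex, mul_one]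
  refine (norm_tsum_le_tsum_norm ?_).trans (le_of_eq ?_)
  · simp_rw [h]
    exact sn hc
  · simp_rw [h]
    exact (nm_zero_eq c).symm

theorem Es_add {c d : Ix n → ℂ} (hc : RD c) (hd : RD d) (θ x : V n) :
    Es θ (fun k => c k + d k) x = Es θ c x + Es θ d x := by
  unfold Es
  rw [← (Es_summable hc θ x).tsum_add (Es_summable hd θ x)]
  exact tsum_congr fun k => by ring

theorem Es_const_mul (a : ℂ) (c : Ix n → ℂ) (θ x : V n) :
    Es θ (fun k => a * c k) x = a * Es θ c x := by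
  unfold Es
  rw [← tsum_mul_left]
  exact tsum_congr fun k => by ring

theorem Es_sum {ι : Type*} [Fintype ι] {d : ι → Ix n → ℂ} (hd : ∀ i, RD (d i)) (θ x : V n) :
    Es θ (fun k => ∑ i, d i k) x = ∑ i, Es θ (d i) x := by
  unfold Es
  rw [← Summable.tsum_finsetSum (fun i _ => Es_summable (hd i) θ x)]
  exact tsum_congr fun k => by rw [Finset.sum_mul]

theorem Es_zero (θ x : V n) : Es θ (fun _ => 0) x = 0 := by
  unfold Es
  simp

/-- The linear form `z · x`. -/
def LL (z : Fin n → ℂ) : V n →L[ℝ] ℂ :=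
  ∑ j, z j • (Complex.ofRealCLM.comp (ContinuousLinearMap.proj (R := ℝ) (φ := fun _ => ℝ) j))

theorem LL_apply (z : Fin n → ℂ) (x : V n) : LL z x = ∑ j, z j * (x j : ℂ) := by
  unfold LL
  simp

theorem LL_single (z : Fin n → ℂ) (i : Fin n) : LL z (Pi.single i 1) = z i := by
  rw [LL_apply, Finset.sum_eq_single i]
  · simp
  · intro j _ hj
    simp [Pi.single_eq_of_ne hj]
  · simp

/-- `e^{z·x}`. -/
def EE (z : Fin n → ℂ) (x : V n) : ℂ := Complex.exp (LL z x)

theorem EE_contDiff (z : Fin n → ℂ) : ContDiff ℝ ∞ (EE z) := by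
  unfold EE
  exact (LL z).contDiff.cexp

theorem EE_hasFDerivAt (z : Fin n → ℂ) (x : V n) :
    HasFDerivAt (EE z) (EE z x • LL z) x := by
  unfold EE
  exact (LL z).hasFDerivAt.cexp

theorem pd_EE (z : Fin n → ℂ) (i : Fin n) (x : V n) : pd i (EE z) x = z i * EE z x := by
  unfold pd
  rw [(EE_hasFDerivAt z x).fderiv, smul_apply, LL_single, smul_eq_mul,
    mul_comm]

theorem abs_le_wt (k : Ix n) (i : Fin n) : |(k i : ℝ)| ≤ wt k - 1 := by
  have : |(k i : ℝ)| ≤ ∑ j, |(k j : ℝ)| :=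
    Finset.single_le_sum (f := fun j => |(k j : ℝ)|) (fun _ _ => abs_nonneg _)
      (Finset.mem_univ i)
  unfold wt
  linarith

theorem rd_fr {Φ : Ix n → ℂ} (hΦ : RD Φ) (θ : V n) (i : Fin n) :
    RD fun k => 2 * Real.pi * Complex.I * ((fr θ k i : ℝ) : ℂ) * Φ k := by
  intro m
  refine Summable.of_nonneg_of_le (fun k => ?_) (fun k => ?_)
    ((hΦ (m + 1)).mul_left (2 * Real.pi * (1 + |θ i|)))
  · have := one_le_wt k
    positivity
  · have h1 := one_le_wt k
    have h2 := abs_le_wt k i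
    have h3 : |fr θ k i| ≤ (1 + |θ i|) * wt k := by
      unfold fr
      have := abs_add_le (k i : ℝ) (θ i)
      nlinarith [abs_nonneg (θ i)]
    have hpi := Real.pi_pos
    rw [norm_mul, norm_mul, norm_mul, norm_mul, Complex.norm_I, Complex.norm_real,
      Complex.norm_real, Real.norm_of_nonneg hpi.le, Real.norm_eq_abs]
    have h4 : ‖(2 : ℂ)‖ = 2 := by simp
    rw [h4]
    calc wt k ^ m * (2 * Real.pi * 1 * |fr θ k i| * ‖Φ k‖)
        = (wt k ^ m * (2 * Real.pi) * ‖Φ k‖) * |fr θ k i| := by ring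
      _ ≤ (wt k ^ m * (2 * Real.pi) * ‖Φ k‖) * ((1 + |θ i|) * wt k) :=
          mul_le_mul_of_nonneg_left h3 (by positivity)
      _ = _ := by ring

/-- The derivative of `e^{z·x} (a + Es θ Φ)`. -/
theorem pd_EE_mul (hA1 : RowA1) (z : Fin n → ℂ) (θ : V n) (a : ℂ) {Φ : Ix n → ℂ} (hΦ : RD Φ)
    (i : Fin n) (x : V n) :
    pd i (fun x => EE z x * (a + Es θ Φ x)) x =
      EE z x * (z i * a + Es θ (fun k =>
        (2 * Real.pi * Complex.I * ((fr θ k i : ℝ) : ℂ) + z i) * Φ k) x) := by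
  have h1 := EE_hasFDerivAt z x
  have h2 : HasFDerivAt (Es θ Φ) (fderiv ℝ (Es θ Φ) x) x :=
    ((hA1 θ Φ hΦ).1.differentiable (by simp)).differentiableAt.hasFDerivAt
  have h3 := h1.mul (h2.const_add a)
  have h4 := (hA1 θ Φ hΦ).2 i x
  have h5 : Es θ (fun k => (2 * Real.pi * Complex.I * ((fr θ k i : ℝ) : ℂ) + z i) * Φ k) x =
      pd i (Es θ Φ) x + z i * Es θ Φ x := by
    rw [h4, ← Es_const_mul, ← Es_add (rd_fr hΦ θ i) (rd_const_mul hΦ (z i))]
    congr 1
    funext k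
    ring
  rw [h5]
  unfold pd at h4 ⊢
  have h6 : fderiv ℝ (fun x => EE z x * (a + Es θ Φ x)) x = _ := h3.fderiv
  rw [h6, add_apply, smul_apply, smul_apply, smul_apply, LL_single]
  simp only [smul_eq_mul]
  ring

theorem pd_congr {f g : V n → ℂ} {x : V n} (i : Fin n) (h : f =ᶠ[nhds x] g) :
    pd i f x = pd i g x := by
  unfold pd
  rw [h.fderiv_eq]

/-- The solution `W`. -/
def WW (ξ q : Ix n) (c : Ix n → ℂ) (x : V n) : ℂ := EE (zp ξ q) x * (1 + Es (th q) c x)

theorem WW_contDiff (hA1 : RowA1) (ξ q : Ix n) {c : Ix n → ℂ} (hc : RD c) :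
    ContDiff ℝ ∞ (WW ξ q c) :=
  (EE_contDiff _).mul (contDiff_const.add (hA1 (th q) c hc).1)

theorem pd_WW (hA1 : RowA1) (ξ q : Ix n) {c : Ix n → ℂ} (hc : RD c) (y : Fin n → Ix n → ℂ)
    (hyc : ∀ i k, y i k = lam ξ q k i * c k) (j : Fin n) (x : V n) :
    pd j (WW ξ q c) x = EE (zp ξ q) x * (zp ξ q j + Es (th q) (y j) x) := by
  have h := pd_EE_mul hA1 (zp ξ q) (th q) 1 hc j x
  have h2 : (fun k => (2 * Real.pi * Complex.I * ((fr (th q) k j : ℝ) : ℂ) + zp ξ q j) * c k)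
      = y j := by
    funext k
    rw [hyc]
    rfl
  rw [h2, mul_one] at h
  exact h

theorem isOpen_cube : IsOpen (cube n) := by
  have : cube n = ⋂ j, {x : V n | 0 < x j ∧ x j < 1} := by
    ext x
    simp [cube]
  rw [this]
  refine isOpen_iInter_of_finite fun j => ?_
  exact (isOpen_lt continuous_const (continuous_apply j)).inter
    (isOpen_lt (continuous_apply j) continuous_const)

theorem one_add_ent (s : MF n) (i j : Fin n) (x : V n) :
    (s x i j : ℂ) = (if i = j then 1 else 0) + ent s i j x := by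
  unfold ent
  rw [Matrix.one_apply]
  split_ifs <;> simp

/-- `div (s ∇ W) = 0` on the cube. -/
theorem dv_WW (hA1 : RowA1) (hA2 : RowA2) {ξ q : Ix n} (hq : q ≠ 0)
    (hqx : ∑ j, q j * ξ j = 0) (s : MF n) (h g : Fin n → Fin n → Ix n → ℂ)
    (hh : ∀ i j, RD (h i j)) (hg : ∀ i j, RD (g i j))
    (e0 : ∀ i j, ∀ x ∈ cube n, ent s i j x = Es 0 (h i j) x)
    (e1 : ∀ i j, ∀ x ∈ cube n, ent s i j x = Es (th q) (g i j) x)
    (y : Fin n → Ix n → ℂ) {c : Ix n → ℂ} (hy : ∀ i, RD (y i)) (hc : RD c)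
    (hyc : ∀ i k, y i k = lam ξ q k i * c k)
    (heq : ∀ k, pp ξ q k * c k + ∑ r, lam ξ q k r *
        ∑ m, (zp ξ q m * g r m k + cv (h r m) (y m) k) = 0) :
    ∀ x ∈ cube n, dv s (WW ξ q c) x = 0 := by
  set F : Fin n → Ix n → ℂ := fun i k =>
    ∑ m, (zp ξ q m * g i m k + cv (h i m) (y m) k) with hF
  have hcv : ∀ i m, RD (cv (h i m) (y m)) := fun i m => (hA2 0 0 _ _ (hh i m) (hy m)).1
  have hFRD : ∀ i, RD (F i) := fun i =>
    rd_sum (fun m => rd_add (rd_const_mul (hg i m) (zp ξ q m)) (hcv i m))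
  have hΦ : ∀ i, RD fun k => y i k + F i k := fun i => rd_add (hy i) (hFRD i)
  -- the flux on the cube
  have flux : ∀ i, ∀ x ∈ cube n, (∑ j, (s x i j : ℂ) * pd j (WW ξ q c) x) =
      EE (zp ξ q) x * (zp ξ q i + Es (th q) (fun k => y i k + F i k) x) := by
    intro i x hx
    have h1 : Es (th q) (F i) x = ∑ m, (zp ξ q m * ent s i m x + ent s i m x * Es (th q) (y m) x) := by
      have h2 : Es (th q) (F i) x = ∑ m, Es (th q) (fun k => zp ξ q m * g i m k +
          cv (h i m) (y m) k) x :=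
        Es_sum (fun m => rd_add (rd_const_mul (hg i m) (zp ξ q m)) (hcv i m)) (th q) x
      rw [h2]
      refine Finset.sum_congr rfl fun m _ => ?_
      rw [Es_add (rd_const_mul (hg i m) (zp ξ q m)) (hcv i m), Es_const_mul, ← e1 i m x hx]
      have h3 := (hA2 0 (th q) _ _ (hh i m) (hy m)).2.2.1 x
      rw [zero_add, ← e0 i m x hx] at h3
      rw [h3]
    rw [Es_add (hy i) (hFRD i), h1]
    have h4 : ∀ j, (s x i j : ℂ) * pd j (WW ξ q c) x = EE (zp ξ q) x *
        ((if i = j then (zp ξ q j + Es (th q) (y j) x) else 0) +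
          (zp ξ q j * ent s i j x + ent s i j x * Es (th q) (y j) x)) := by
      intro j
      rw [pd_WW hA1 ξ q hc y hyc, one_add_ent]
      split_ifs <;> ring
    rw [Finset.sum_congr rfl fun j _ => h4 j, ← Finset.mul_sum, Finset.sum_add_distrib,
      Finset.sum_ite_eq]
    simp only [Finset.mem_univ, if_true]
    ring
  intro x hx
  unfold dv
  have h5 : ∀ i, pd i (fun y => ∑ j, (s y i j : ℂ) * pd j (WW ξ q c) y) x =
      EE (zp ξ q) x * (zp ξ q i ^ 2 + Es (th q) (fun k => lam ξ q k i * (y i k + F i k)) x) := by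
    intro i
    have h6 : (fun y => ∑ j, (s y i j : ℂ) * pd j (WW ξ q c) y) =ᶠ[nhds x]
        fun x => EE (zp ξ q) x * (zp ξ q i + Es (th q) (fun k => y i k + F i k) x) := by
      filter_upwards [isOpen_cube.mem_nhds hx] with z hz
      exact flux i z hz
    have h7 := pd_EE_mul hA1 (zp ξ q) (th q) (zp ξ q i) (hΦ i) i x
    rw [pd_congr i h6, h7, sq]
    rfl
  rw [Finset.sum_congr rfl fun i _ => h5 i, ← Finset.mul_sum, Finset.sum_add_distrib,
    zp_sq hq hqx, zero_add]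
  have h8 : ∀ i, RD fun k => lam ξ q k i * (y i k + F i k) := by
    intro i
    have := rd_add (rd_fr (hΦ i) (th q) i) (rd_const_mul (hΦ i) (zp ξ q i))
    refine (iff_of_eq (congrArg RD ?_)).mp this
    funext k
    unfold lam
    ring
  rw [← Es_sum h8]
  have h9 : (fun k => ∑ i, lam ξ q k i * (y i k + F i k)) = fun _ => 0 := by
    funext k
    rw [← heq k]
    unfold pp
    rw [Finset.sum_mul, ← Finset.sum_add_distrib]
    refine Finset.sum_congr rfl fun i _ => ?_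
    rw [hyc i k]
    ring
  rw [h9, Es_zero, mul_zero]

end Vale.Agent.P088.LR.H393
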