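import Vale.Agent.P088.H393.UEsf6
import Vale.Agent.P088.H535.USmk
import Vale.Agent.P088.H442.CFScale
import Vale.Agent.P088.H292.UEsfS

/-!
# P088, stage J, row ESFU: bounds of the coefficients
-/

open MeasureTheory Set Filter Topology
open scoped ContDiff Matrix

noncomputable section

namespace Vale.Agent.P088.LR.U.H393

open CF H158

variable {n N : ℕ}

/-! ## Bounds in `C^k` -/

theorem clc_add {k : ℕ} {a b : ℝ} {P Q : MC n N} (hP : SmC P) (hQ : SmC Q) (h1 : ClC k a P)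
    (h2 : ClC k b Q) : ClC k (a + b) fun x => P x + Q x := fun α β =>
  H535.cl_add (hP α β) (hQ α β) (h1 α β) (h2 α β)

theorem clc_sub {k : ℕ} {a b : ℝ} {P Q : MC n N} (hP : SmC P) (hQ : SmC Q) (h1 : ClC k a P)
    (h2 : ClC k b Q) : ClC k (a + b) fun x => P x - Q x := by
  intro α β l hl x
  have e : iteratedFDeriv ℝ l (fun x => (P x - Q x) α β) x =
      iteratedFDeriv ℝ l (fun x => P x α β) x - iteratedFDeriv ℝ l (fun x => Q x α β) x :=
    iteratedFDeriv_sub_apply (((hP α β).of_le (by exact_mod_cast le_top)).contDiffAt)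
      (((hQ α β).of_le (by exact_mod_cast le_top)).contDiffAt)
  rw [e]
  exact (norm_sub_le _ _).trans (add_le_add (h1 α β l hl x) (h2 α β l hl x))

theorem clc_mul {k : ℕ} {a b : ℝ} {P Q : MC n N} (hP : SmC P) (hQ : SmC Q) (h1 : ClC k a P)
    (h2 : ClC k b Q) : ClC k (N * (2 ^ k * (a * b))) fun x => P x * Q x := by
  intro α β
  have h := H535.cl_sum (Finset.univ : Finset (Fin N)) (k := k) (a := 2 ^ k * (a * b))
    (f := fun c x => P x α c * Q x c β) (fun c => (hP α c).mul (hQ c β))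
    fun c => H535.cl_mul (hP α c) (hQ c β) (h1 α c) (h2 c β)
  simp only [Finset.card_univ, Fintype.card_fin] at h
  simp only [Matrix.mul_apply]
  exact h

theorem clc_pdm {k : ℕ} {a : ℝ} {P : MC n N} (hP : SmC P) (h : ClC (k + 1) a P) (i : Fin n) :
    ClC k a (pdm i P) := fun α β => H776.cl_pd (hP α β) (h α β) i

theorem clc_mono {k k' : ℕ} {a b : ℝ} {P : MC n N} (h : ClC k a P) (hk : k' ≤ k) (hab : a ≤ b) :
    ClC k' b P := fun α β => H535.cl_le (h α β) hk hab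

theorem clc_one {k : ℕ} : ClC k 1 (fun _ : V n => (1 : Matrix (Fin N) (Fin N) ℂ)) := by
  intro α β l _ x
  rcases Nat.eq_zero_or_pos l with rfl | hl
  · rw [norm_iteratedFDeriv_zero]
    show ‖(1 : Matrix (Fin N) (Fin N) ℂ) α β‖ ≤ 1
    rcases eq_or_ne α β with rfl | h
    · rw [Matrix.one_apply_eq, norm_one]
    · rw [Matrix.one_apply_ne h, norm_zero]
      exact zero_le_one
  · have e : iteratedFDeriv ℝ l (fun _ : V n => (1 : Matrix (Fin N) (Fin N) ℂ) α β) x = 0 := by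
      rw [iteratedFDeriv_const_of_ne (by omega)]
      rfl
    rw [e, norm_zero]
    exact zero_le_one

theorem smc_one : SmC (fun _ : V n => (1 : Matrix (Fin N) (Fin N) ℂ)) := fun _ _ => contDiff_const

/-- `P` near `1` is bounded by `1 + b` -/
theorem clc_near {k : ℕ} {b : ℝ} {P : MC n N} (hP : SmC P) (h : ClC k b fun x => P x - 1) :
    ClC k (b + 1) P := by
  have h1 := clc_add (P := fun x => P x - 1) (Q := fun _ => 1)
    (fun α β => (hP α β).sub (smc_one α β)) smc_one h clc_one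
  have e : (fun x => P x - 1 + 1) = P := by
    funext x
    exact sub_add_cancel _ _
  rw [e] at h1
  exact h1

theorem pdm_near {P : MC n N} (hP : SmC P) (i : Fin n) :
    pdm i P = pdm i (fun x => P x - 1) := by
  funext x
  ext α β
  simp only [pdm, Matrix.of_apply]
  have h1 := pd_sub (dfa (hP α β) x) (dfa (smc_one (n := n) α β) x) i
  rw [pd_const, sub_zero] at h1
  exact h1.symm

/-- the cut-off times an entry -/
theorem cl_ce {k : ℕ} {Bχ a : ℝ} (hχ : Cl k Bχ (chi442 : V n → ℝ)) {P : MC n N} (hP : SmC P)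
    (h : ClC k a P) (α β : Fin N) : Cl k (2 ^ k * (Bχ * a)) (ce chi442 P α β) := by
  have h1 : Cl k Bχ (fun x : V n => ((chi442 x : ℝ) : ℂ)) := H650.cl_ofReal chi_smooth442 hχ
  exact H535.cl_mul (H650.ofReal_contDiff chi_smooth442) (hP α β) h1 (h α β)

/-! ## Bounds of coefficients -/

/-- smooth, supported in the core, coefficients bounded in `ℓ¹` -/
def Nb (K : ℝ) (f : V n → ℂ) : Prop :=
  ContDiff ℝ ∞ f ∧ (∀ x ∉ core n, f x = 0) ∧ nm 0 (cf 0 f) ≤ K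

/-- the content of `RowA3` used here -/
def A3c (n : ℕ) (C₃ : ℝ) : Prop := ∀ (f : V n → ℂ), ContDiff ℝ ∞ f →
    tsupport f ⊆ cube n → ∀ θ : V n, (∀ j, |θ j| ≤ 1) → RD (cf θ f) ∧
    (∀ x ∈ cube n, f x = Es θ (cf θ f) x) ∧ ∀ B, Cl (0 + n + 1) B f → nm 0 (cf θ f) ≤ C₃ * B

theorem rd_cf {C₃ : ℝ} (h3 : A3c n C₃) {f : V n → ℂ} (hf : ContDiff ℝ ∞ f)
    (h0 : ∀ x ∉ core n, f x = 0) : RD (cf 0 f) :=
  (h3 f hf (H650.supp_of h0) 0 (fun j => by simp)).1

theorem nb_add {C₃ : ℝ} (h3 : A3c n C₃) {f g : V n → ℂ} {K L : ℝ} (hf : Nb K f) (hg : Nb L g) :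
    Nb (K + L) fun x => f x + g x := by
  refine ⟨hf.1.add hg.1, fun x hx => by
    show f x + g x = 0
    rw [hf.2.1 x hx, hg.2.1 x hx, add_zero], ?_⟩
  rw [H650.cf_add hf.1.continuous hg.1.continuous hf.2.1 hg.2.1]
  exact (H650.nm_add_le (rd_cf h3 hf.1 hf.2.1) (rd_cf h3 hg.1 hg.2.1)).trans
    (add_le_add hf.2.2 hg.2.2)

theorem nb_sum {C₃ : ℝ} (h3 : A3c n C₃) {m : ℕ} {f : Fin m → V n → ℂ} {K : ℝ}
    (hf : ∀ i, Nb K (f i)) : Nb (m * K) fun x => ∑ i, f i x := by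
  refine ⟨ContDiff.sum fun i _ => (hf i).1,
    fun x hx => Finset.sum_eq_zero fun i _ => (hf i).2.1 x hx, ?_⟩
  rw [H650.cf_sum Finset.univ (fun i _ => (hf i).1.continuous) fun i _ => (hf i).2.1]
  refine (H650.nm_sum_le Finset.univ fun i _ => H127.sum_of_rd (rd_cf h3 (hf i).1
    (hf i).2.1)).trans ?_
  calc ∑ i, nm 0 (cf 0 (f i)) ≤ ∑ _i : Fin m, K := Finset.sum_le_sum fun i _ => (hf i).2.2
    _ = _ := by simp

theorem nb_mul (hA2 : RowA2) {C₃ : ℝ} (h3 : A3c n C₃) {f g : V n → ℂ} {K L : ℝ} (hf : Nb K f)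
    (hg : Nb L g) : Nb (K * L) fun x => f x * g x := by
  refine ⟨hf.1.mul hg.1, fun x hx => by
    show f x * g x = 0
    rw [hf.2.1 x hx, zero_mul], ?_⟩
  obtain ⟨-, -, -, h4⟩ := H650.nm_cf_mul hA2 h3 hf.1 hg.1 hf.2.1 hg.2.1
  exact h4.trans (mul_le_mul hf.2.2 hg.2.2 (H650.nm_nonneg _ _)
    ((H650.nm_nonneg _ _).trans hf.2.2))

theorem nb_neg {f : V n → ℂ} {K : ℝ} (hf : Nb K f) : Nb K fun x => -f x := by
  refine ⟨hf.1.neg, fun x hx => by
    show -f x = 0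
    rw [hf.2.1 x hx, neg_zero], ?_⟩
  have e : cf 0 (fun x => -f x) = fun k => -cf 0 f k := by
    funext k
    simp only [cf, ft, neg_mul, integral_neg]
  have e2 : nm 0 (fun k => -cf 0 f k) = nm 0 (cf 0 f) := by
    unfold nm
    simp only [norm_neg]
  rw [e, e2]
  exact hf.2.2

theorem nb_cl {C₃ : ℝ} (h3 : A3c n C₃) {f : V n → ℂ} (hf : ContDiff ℝ ∞ f)
    (h0 : ∀ x ∉ core n, f x = 0) {B : ℝ} (h : Cl (0 + n + 1) B f) : Nb (C₃ * B) f :=
  ⟨hf, h0, (h3 f hf (H650.supp_of h0) 0 (fun j => by simp)).2.2 B h⟩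

/-- sum of the weights -/
def SW' (n : ℕ) : ℝ := ∑' k : Ix n, (wt k ^ (n + 1))⁻¹

theorem SW'_nonneg (n : ℕ) : 0 ≤ SW' n :=
  tsum_nonneg fun k => inv_nonneg.2 (pow_pos (H776.wt_pos k) _).le

theorem nb_dec {f : V n → ℂ} (hf : ContDiff ℝ ∞ f) (h0 : ∀ x ∉ core n, f x = 0) {a : ℝ}
    (h : ∀ ζ : V n, wr ζ ^ (n + 1) * ‖ft f ζ‖ ≤ a) : Nb (a * SW' n) f :=
  ⟨hf, h0, H650.nm_cf_le h⟩

theorem dec_mono {f : V n → ℂ} {a : ℝ} (h : ∀ ζ : V n, wr ζ ^ (n + 2) * ‖ft f ζ‖ ≤ a) (ζ : V n) :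
    wr ζ ^ (n + 1) * ‖ft f ζ‖ ≤ a := by
  refine le_trans ?_ (h ζ)
  exact mul_le_mul_of_nonneg_right (pow_le_pow_right₀ (H650.wr_one ζ) (by omega)) (norm_nonneg _)

/-- the entries of `g · (χ X)` with `g = 0` off `Ω` -/
theorem nb_prod (hA2 : RowA2) {C₃ : ℝ} (h3 : A3c n C₃) {Ω : Set (V n)} (hΩ : Ω ⊆ core n)
    (hχ : ∀ x ∈ Ω, chi442 x = 1) {g X : MC n N} (hX : SmC X) (hg0 : ∀ x ∉ Ω, g x = 0)
    {K L : ℝ} (hg : ∀ a b, Nb K fun x => g x a b) (hL : ∀ a b, Nb L (ce chi442 X a b))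
    (a b : Fin N) : Nb (N * (K * L)) fun x => (g x * X x) a b := by
  have h1 := nb_sum h3 (f := fun c x => g x a c * ce chi442 X c b x)
    fun c => nb_mul hA2 h3 (hg a c) (hL c b)
  have e : (fun x => ∑ c, g x a c * ce chi442 X c b x) = fun x => (g x * X x) a b := by
    funext x
    rw [Matrix.mul_apply]
    refine Finset.sum_congr rfl fun c _ => ?_
    by_cases hx : x ∈ Ω
    · rw [ce, hχ x hx, Complex.ofReal_one, one_mul]
    · rw [hg0 x hx, Matrix.zero_apply, zero_mul, zero_mul]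
  rw [e] at h1
  exact h1

end Vale.Agent.P088.LR.U.H393
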