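import Vale.Agent.P088.H198.Defs

/-!
# P088, row EST, part 1: the symbol
-/

open MeasureTheory Set
open scoped ContDiff Matrix

noncomputable section

namespace Vale.Agent.P088.LR.H393

open Vale.Agent.P088.LR

variable {n : ℕ}

theorem real_sym {A B D X Q R : ℝ} (hA : 0 ≤ A) (hX : 1 ≤ X) (hQ : 1 ≤ Q)
    (hB : B = Real.pi ^ 2 * X ^ 2) (hD : Real.pi ^ 2 * X / Q ≤ |D|)
    (hR : 0 ≤ R) (h : R ^ 2 = (B - A) ^ 2 + 4 * D ^ 2) : A + B ≤ 3 * (X * Q) * R := by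
  have hXQ : 1 ≤ X * Q := by nlinarith
  have hRD : 2 * |D| ≤ R := by
    by_contra hh
    push Not at hh
    nlinarith [sq_abs D, abs_nonneg D, sq_nonneg (B - A)]
  by_cases h2 : 2 * B ≤ A
  · have hRA : A - B ≤ R := by
      by_contra hh
      push Not at hh
      nlinarith [sq_nonneg D, sq_nonneg (B - A)]
    have h3 : A + B ≤ 3 * R := by linarith
    nlinarith
  · push Not at h2
    have hpi : 0 < Real.pi ^ 2 := by positivity
    have h4 : Real.pi ^ 2 * X ≤ |D| * Q := by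
      rw [div_le_iff₀ (by linarith)] at hD
      exact hD
    have h5 : Real.pi ^ 2 * X * X ≤ |D| * Q * X := by
      apply mul_le_mul_of_nonneg_right h4 (by linarith)
    have h6 : 2 * |D| * (X * Q) ≤ R * (X * Q) := by
      apply mul_le_mul_of_nonneg_right hRD (by positivity)
    have h7 : A + B ≤ 3 * B := by linarith
    have h8 : 0 ≤ B := by rw [hB]; positivity
    nlinarith

/-- Euclidean length of an integer vector. -/
def nX (ξ : Ix n) : ℝ := √(∑ j, (ξ j : ℝ) ^ 2)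

theorem nX_sq (ξ : Ix n) : nX ξ ^ 2 = ∑ j, (ξ j : ℝ) ^ 2 :=
  Real.sq_sqrt (Finset.sum_nonneg fun _ _ => sq_nonneg _)

theorem nX_nonneg (ξ : Ix n) : 0 ≤ nX ξ := Real.sqrt_nonneg _

theorem one_le_nX {ξ : Ix n} (h : ξ ≠ 0) : 1 ≤ nX ξ := by
  obtain ⟨j, hj⟩ := Function.ne_iff.mp h
  have h1 : (1 : ℝ) ≤ (ξ j : ℝ) ^ 2 := by
    have : (1 : ℤ) ≤ (ξ j) ^ 2 := by
      have h2 : 0 < (ξ j) ^ 2 := by
        have : ξ j ≠ 0 := by simpa using hj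
        positivity
      omega
    exact_mod_cast this
  have h2 : (ξ j : ℝ) ^ 2 ≤ ∑ j, (ξ j : ℝ) ^ 2 :=
    Finset.single_le_sum (f := fun j => (ξ j : ℝ) ^ 2) (fun _ _ => sq_nonneg _)
      (Finset.mem_univ j)
  exact Real.one_le_sqrt.mpr (h1.trans h2)

theorem abs_le_nX (ξ : Ix n) (j : Fin n) : |(ξ j : ℝ)| ≤ nX ξ := by
  have h2 : (ξ j : ℝ) ^ 2 ≤ ∑ j, (ξ j : ℝ) ^ 2 :=
    Finset.single_le_sum (f := fun j => (ξ j : ℝ) ^ 2) (fun _ _ => sq_nonneg _)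
      (Finset.mem_univ j)
  exact Real.abs_le_sqrt h2

theorem one_le_wt (ξ : Ix n) : 1 ≤ wt ξ := by
  unfold wt
  have : 0 ≤ ∑ j, |(ξ j : ℝ)| := Finset.sum_nonneg fun _ _ => abs_nonneg _
  linarith

theorem nX_le_wt (ξ : Ix n) : nX ξ ≤ wt ξ := by
  unfold nX
  rw [Real.sqrt_le_left (by linarith [one_le_wt ξ])]
  have h1 : ∀ j, |(ξ j : ℝ)| ≤ wt ξ := fun j => by
    have : |(ξ j : ℝ)| ≤ ∑ j, |(ξ j : ℝ)| :=
      Finset.single_le_sum (f := fun j => |(ξ j : ℝ)|) (fun _ _ => abs_nonneg _)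
        (Finset.mem_univ j)
    unfold wt
    linarith
  have h0 : (0 : ℝ) ≤ ∑ j, |(ξ j : ℝ)| := Finset.sum_nonneg fun _ _ => abs_nonneg _
  calc ∑ j, (ξ j : ℝ) ^ 2 ≤ ∑ j, |(ξ j : ℝ)| * wt ξ := by
        apply Finset.sum_le_sum
        intro j _
        have := h1 j
        nlinarith [sq_abs (ξ j : ℝ), abs_nonneg (ξ j : ℝ)]
    _ = (∑ j, |(ξ j : ℝ)|) * wt ξ := by rw [Finset.sum_mul]
    _ ≤ wt ξ ^ 2 := by
        have : ∑ j, |(ξ j : ℝ)| ≤ wt ξ := by unfold wt; linarith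
        nlinarith [one_le_wt ξ]

/-- The shift. -/
def th (q : Ix n) : V n := fun j => (q j : ℝ) / (2 * nX q ^ 2)

theorem th_le {q : Ix n} (hq : q ≠ 0) (j : Fin n) : |th q j| ≤ 1 := by
  unfold th
  have h1 := one_le_nX hq
  have h2 := abs_le_nX q j
  rw [abs_div, abs_of_nonneg (show (0 : ℝ) ≤ 2 * nX q ^ 2 by positivity),
    div_le_one (by positivity)]
  nlinarith

/-- The real part of the complex frequency. -/
def et (ξ q : Ix n) : V n := fun j => Real.pi * nX ξ / nX q * q j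

/-- The two complex frequencies. -/
def ze (ξ q : Ix n) (j : Fin n) : ℂ := -(Complex.I * Real.pi * ξ j) + (et ξ q j : ℂ)

def zp (ξ q : Ix n) (j : Fin n) : ℂ := -(Complex.I * Real.pi * ξ j) - (et ξ q j : ℂ)

def lam (ξ q : Ix n) (k : Ix n) (j : Fin n) : ℂ :=
  2 * Real.pi * Complex.I * ((fr (th q) k j : ℝ) : ℂ) + zp ξ q j

def pp (ξ q : Ix n) (k : Ix n) : ℂ := ∑ j, lam ξ q k j ^ 2

theorem et_sq {ξ q : Ix n} (hq : q ≠ 0) : ∑ j, et ξ q j ^ 2 = Real.pi ^ 2 * nX ξ ^ 2 := by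
  unfold et
  have h1 := one_le_nX hq
  simp_rw [mul_pow]
  rw [← Finset.mul_sum, ← nX_sq q]
  have : nX q ≠ 0 := by linarith
  field_simp

theorem et_xi {ξ q : Ix n} (hqx : ∑ j, q j * ξ j = 0) : ∑ j, (ξ j : ℝ) * et ξ q j = 0 := by
  unfold et
  have h : ∑ j, (q j : ℝ) * ξ j = 0 := by exact_mod_cast hqx
  calc ∑ j, (ξ j : ℝ) * (Real.pi * nX ξ / nX q * q j)
      = (Real.pi * nX ξ / nX q) * ∑ j, (q j : ℝ) * ξ j := by
        rw [Finset.mul_sum]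
        exact Finset.sum_congr rfl fun j _ => by ring
    _ = 0 := by rw [h, mul_zero]

theorem abs_et_le {ξ q : Ix n} (hq : q ≠ 0) (j : Fin n) : |et ξ q j| ≤ Real.pi * nX ξ := by
  unfold et
  have h1 := one_le_nX hq
  have h2 := abs_le_nX q j
  have h3 := nX_nonneg ξ
  have hpi := Real.pi_pos
  rw [abs_mul, abs_of_nonneg (show (0 : ℝ) ≤ Real.pi * nX ξ / nX q by positivity), div_mul_eq_mul_div,
    div_le_iff₀ (by linarith)]
  exact mul_le_mul_of_nonneg_left h2 (by positivity)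

theorem ze_add (ξ q : Ix n) (j : Fin n) :
    ze ξ q j + zp ξ q j = -(2 * Real.pi * Complex.I * ξ j) := by
  unfold ze zp
  ring

theorem ze_sq {ξ q : Ix n} (hq : q ≠ 0) (hqx : ∑ j, q j * ξ j = 0) : ∑ j, ze ξ q j ^ 2 = 0 := by
  have h1 : ∑ j, (et ξ q j : ℂ) ^ 2 = Real.pi ^ 2 * nX ξ ^ 2 := by
    exact_mod_cast congrArg (fun r : ℝ => (r : ℂ)) (et_sq (ξ := ξ) hq)
  have h2 : ∑ j, (ξ j : ℂ) * (et ξ q j : ℂ) = 0 := by
    exact_mod_cast congrArg (fun r : ℝ => (r : ℂ)) (et_xi hqx)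
  have h3 : ∑ j, (ξ j : ℂ) ^ 2 = (nX ξ : ℂ) ^ 2 := by
    exact_mod_cast congrArg (fun r : ℝ => (r : ℂ)) (nX_sq ξ).symm
  calc ∑ j, ze ξ q j ^ 2 = ∑ j, (-(Real.pi : ℂ) ^ 2 * (ξ j : ℂ) ^ 2
        - 2 * Complex.I * Real.pi * ((ξ j : ℂ) * (et ξ q j : ℂ)) + (et ξ q j : ℂ) ^ 2) := by
        refine Finset.sum_congr rfl fun j _ => ?_
        unfold ze
        linear_combination (Real.pi : ℂ) ^ 2 * (ξ j : ℂ) ^ 2 * Complex.I_sq
    _ = 0 := by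
        rw [Finset.sum_add_distrib, Finset.sum_sub_distrib, ← Finset.mul_sum, ← Finset.mul_sum,
          h1, h2, h3]
        ring

theorem zp_sq {ξ q : Ix n} (hq : q ≠ 0) (hqx : ∑ j, q j * ξ j = 0) : ∑ j, zp ξ q j ^ 2 = 0 := by
  have h1 : ∑ j, (et ξ q j : ℂ) ^ 2 = Real.pi ^ 2 * nX ξ ^ 2 := by
    exact_mod_cast congrArg (fun r : ℝ => (r : ℂ)) (et_sq (ξ := ξ) hq)
  have h2 : ∑ j, (ξ j : ℂ) * (et ξ q j : ℂ) = 0 := by
    exact_mod_cast congrArg (fun r : ℝ => (r : ℂ)) (et_xi hqx)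
  have h3 : ∑ j, (ξ j : ℂ) ^ 2 = (nX ξ : ℂ) ^ 2 := by
    exact_mod_cast congrArg (fun r : ℝ => (r : ℂ)) (nX_sq ξ).symm
  calc ∑ j, zp ξ q j ^ 2 = ∑ j, (-(Real.pi : ℂ) ^ 2 * (ξ j : ℂ) ^ 2
        + 2 * Complex.I * Real.pi * ((ξ j : ℂ) * (et ξ q j : ℂ)) + (et ξ q j : ℂ) ^ 2) := by
        refine Finset.sum_congr rfl fun j _ => ?_
        unfold zp
        linear_combination (Real.pi : ℂ) ^ 2 * (ξ j : ℂ) ^ 2 * Complex.I_sq
    _ = 0 := by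
        rw [Finset.sum_add_distrib, Finset.sum_add_distrib, ← Finset.mul_sum, ← Finset.mul_sum,
          h1, h2, h3]
        ring

theorem norm_ze_le {ξ q : Ix n} (hq : q ≠ 0) (j : Fin n) : ‖ze ξ q j‖ ≤ 2 * Real.pi * nX ξ := by
  unfold ze
  refine (norm_add_le _ _).trans ?_
  have h1 := abs_et_le (ξ := ξ) hq j
  have h2 := abs_le_nX ξ j
  have hpi := Real.pi_pos
  rw [norm_neg, norm_mul, norm_mul, Complex.norm_I, Complex.norm_real, Complex.norm_real,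
    Real.norm_of_nonneg hpi.le, Complex.norm_intCast, Real.norm_eq_abs]
  nlinarith

theorem norm_zp_le {ξ q : Ix n} (hq : q ≠ 0) (j : Fin n) : ‖zp ξ q j‖ ≤ 2 * Real.pi * nX ξ := by
  unfold zp
  refine (norm_sub_le _ _).trans ?_
  have h1 := abs_et_le (ξ := ξ) hq j
  have h2 := abs_le_nX ξ j
  have hpi := Real.pi_pos
  rw [norm_neg, norm_mul, norm_mul, Complex.norm_I, Complex.norm_real, Complex.norm_real,
    Real.norm_of_nonneg hpi.le, Complex.norm_intCast, Real.norm_eq_abs]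
  nlinarith

/-- The real vector in `lam = i κ - η`. -/
def ka (ξ q k : Ix n) (j : Fin n) : ℝ := 2 * Real.pi * (k j + th q j) - Real.pi * ξ j

theorem lam_eq (ξ q k : Ix n) (j : Fin n) :
    lam ξ q k j = Complex.I * (ka ξ q k j : ℂ) - (et ξ q j : ℂ) := by
  unfold lam zp ka fr
  push_cast
  ring

theorem norm_lam_sq (ξ q k : Ix n) (j : Fin n) :
    ‖lam ξ q k j‖ ^ 2 = ka ξ q k j ^ 2 + et ξ q j ^ 2 := by
  rw [lam_eq, ← Complex.normSq_eq_norm_sq, Complex.normSq_apply]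
  simp
  ring

theorem pp_eq (ξ q k : Ix n) : pp ξ q k =
    ((∑ j, et ξ q j ^ 2 - ∑ j, ka ξ q k j ^ 2 : ℝ) : ℂ) +
      ((-(2 * ∑ j, ka ξ q k j * et ξ q j) : ℝ) : ℂ) * Complex.I := by
  unfold pp
  push_cast
  rw [Finset.mul_sum, ← Finset.sum_neg_distrib, ← Finset.sum_sub_distrib, Finset.sum_mul,
    ← Finset.sum_add_distrib]
  refine Finset.sum_congr rfl fun j _ => ?_
  rw [lam_eq]
  linear_combination (ka ξ q k j : ℂ) ^ 2 * Complex.I_sq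

theorem norm_pp_sq (ξ q k : Ix n) : ‖pp ξ q k‖ ^ 2 =
    (∑ j, et ξ q j ^ 2 - ∑ j, ka ξ q k j ^ 2) ^ 2 + 4 * (∑ j, ka ξ q k j * et ξ q j) ^ 2 := by
  rw [pp_eq, ← Complex.normSq_eq_norm_sq, Complex.normSq_add_mul_I]
  ring

theorem ka_et {ξ q : Ix n} (hq : q ≠ 0) (hqx : ∑ j, q j * ξ j = 0) (k : Ix n) :
    ∑ j, ka ξ q k j * et ξ q j =
      Real.pi ^ 2 * nX ξ / nX q * (2 * ((∑ j, k j * q j : ℤ) : ℝ) + 1) := by
  have h1 := one_le_nX hq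
  have h : ∑ j, (q j : ℝ) * ξ j = 0 := by exact_mod_cast hqx
  have h0 : nX q ≠ 0 := by linarith
  calc ∑ j, ka ξ q k j * et ξ q j
      = ∑ j, (2 * Real.pi * (Real.pi * nX ξ / nX q) * ((k j : ℝ) * q j)
        + 2 * Real.pi * (Real.pi * nX ξ / nX q) * ((q j : ℝ) ^ 2 / (2 * nX q ^ 2))
        - Real.pi * (Real.pi * nX ξ / nX q) * ((q j : ℝ) * ξ j)) := by
        refine Finset.sum_congr rfl fun j _ => ?_
        unfold ka et th
        ring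
    _ = 2 * Real.pi * (Real.pi * nX ξ / nX q) * ((∑ j, k j * q j : ℤ) : ℝ)
        + 2 * Real.pi * (Real.pi * nX ξ / nX q) * (1 / 2) := by
        rw [Finset.sum_sub_distrib, Finset.sum_add_distrib, ← Finset.mul_sum, ← Finset.mul_sum,
          ← Finset.mul_sum, h, mul_zero, sub_zero, ← Finset.sum_div, ← nX_sq q]
        push_cast
        congr 2
        field_simp
    _ = _ := by ring

theorem le_abs_ka_et {ξ q : Ix n} (hq : q ≠ 0) (hqx : ∑ j, q j * ξ j = 0) (k : Ix n) :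
    Real.pi ^ 2 * nX ξ / nX q ≤ |∑ j, ka ξ q k j * et ξ q j| := by
  rw [ka_et hq hqx]
  have h1 := one_le_nX hq
  have h3 := nX_nonneg ξ
  have h0 : (0 : ℝ) ≤ Real.pi ^ 2 * nX ξ / nX q := by positivity
  rw [abs_mul, abs_of_nonneg h0]
  have h2 : (1 : ℝ) ≤ |2 * ((∑ j, k j * q j : ℤ) : ℝ) + 1| := by
    have : (1 : ℤ) ≤ |2 * (∑ j, k j * q j : ℤ) + 1| := by
      apply Int.one_le_abs
      omega
    exact_mod_cast this
  nlinarith

theorem sum_lam_le {ξ q : Ix n} (hξ : ξ ≠ 0) (hq : q ≠ 0) (hqx : ∑ j, q j * ξ j = 0) (k : Ix n) :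
    ∑ j, ‖lam ξ q k j‖ ^ 2 ≤ 3 * (nX ξ * nX q) * ‖pp ξ q k‖ := by
  have h := real_sym (A := ∑ j, ka ξ q k j ^ 2) (B := ∑ j, et ξ q j ^ 2)
    (D := ∑ j, ka ξ q k j * et ξ q j) (X := nX ξ) (Q := nX q) (R := ‖pp ξ q k‖)
    (Finset.sum_nonneg fun _ _ => sq_nonneg _) (one_le_nX hξ) (one_le_nX hq) (et_sq hq)
    (le_abs_ka_et hq hqx k) (norm_nonneg _) (norm_pp_sq ξ q k)
  simp_rw [norm_lam_sq]
  rw [Finset.sum_add_distrib]
  exact h

theorem one_le_sum_lam {ξ q : Ix n} (hξ : ξ ≠ 0) (hq : q ≠ 0) (k : Ix n) :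
    1 ≤ ∑ j, ‖lam ξ q k j‖ ^ 2 := by
  simp_rw [norm_lam_sq]
  rw [Finset.sum_add_distrib, et_sq hq]
  have h1 := one_le_nX hξ
  have h2 : (0 : ℝ) ≤ ∑ j, ka ξ q k j ^ 2 := Finset.sum_nonneg fun _ _ => sq_nonneg _
  have h3 : (1 : ℝ) ≤ Real.pi ^ 2 := by nlinarith [Real.pi_gt_three]
  nlinarith [sq_nonneg (nX ξ)]

theorem pp_ne {ξ q : Ix n} (hξ : ξ ≠ 0) (hq : q ≠ 0) (hqx : ∑ j, q j * ξ j = 0) (k : Ix n) :
    pp ξ q k ≠ 0 := by
  intro h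
  have h1 := sum_lam_le hξ hq hqx k
  rw [h, norm_zero, mul_zero] at h1
  linarith [one_le_sum_lam hξ hq k]

/-- The multiplier bound. -/
theorem lam_mul_le {ξ q : Ix n} (hξ : ξ ≠ 0) (hq : q ≠ 0) (hqx : ∑ j, q j * ξ j = 0) (k : Ix n)
    (i j : Fin n) : ‖lam ξ q k i / pp ξ q k * lam ξ q k j‖ ≤ 3 * (nX ξ * nX q) := by
  have hp : 0 < ‖pp ξ q k‖ := norm_pos_iff.mpr (pp_ne hξ hq hqx k)
  have h1 := sum_lam_le hξ hq hqx k
  have h2 : ∀ i, ‖lam ξ q k i‖ ^ 2 ≤ ∑ j, ‖lam ξ q k j‖ ^ 2 := fun i =>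
    Finset.single_le_sum (f := fun j => ‖lam ξ q k j‖ ^ 2) (fun _ _ => sq_nonneg _)
      (Finset.mem_univ i)
  have h3 : ‖lam ξ q k i‖ * ‖lam ξ q k j‖ ≤ ∑ j, ‖lam ξ q k j‖ ^ 2 := by
    nlinarith [h2 i, h2 j, sq_nonneg (‖lam ξ q k i‖ - ‖lam ξ q k j‖)]
  rw [norm_mul, norm_div, div_mul_eq_mul_div, div_le_iff₀ hp]
  exact h3.trans h1

/-- `c` is controlled by `lam c`. -/
theorem norm_le_of_lam {ξ q : Ix n} (hξ : ξ ≠ 0) (hq : q ≠ 0) (k : Ix n) (c : ℂ) :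
    ‖c‖ ≤ ∑ j, ‖lam ξ q k j * c‖ := by
  have h1 := one_le_sum_lam hξ hq k
  have h2 : 1 ≤ ∑ j, ‖lam ξ q k j‖ := by
    by_contra hh
    push Not at hh
    have h3 : ∀ j, ‖lam ξ q k j‖ ≤ ∑ j, ‖lam ξ q k j‖ := fun j =>
      Finset.single_le_sum (f := fun j => ‖lam ξ q k j‖) (fun _ _ => norm_nonneg _)
        (Finset.mem_univ j)
    have h4 : ∑ j, ‖lam ξ q k j‖ ^ 2 ≤ ∑ j, ‖lam ξ q k j‖ := by
      apply Finset.sum_le_sum
      intro j _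
      nlinarith [h3 j, norm_nonneg (lam ξ q k j)]
    linarith
  simp_rw [norm_mul]
  rw [← Finset.sum_mul]
  nlinarith [norm_nonneg c]

end Vale.Agent.P088.LR.H393
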