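import Vale.Agent.P088.H442.Defs3
import Vale.Agent.P088.H393.Est1

/-!
# P088, row CF_SYM
-/

open MeasureTheory Set
open scoped ContDiff Matrix

noncomputable section

namespace Vale.Agent.P088.LR.CF.H393

open Vale.Agent.P088.LR Vale.Agent.P088.LR.CF

variable {n : ℕ}

theorem nr_sq (ξ : V n) : nr ξ ^ 2 = ∑ j, ξ j ^ 2 :=
  Real.sq_sqrt (Finset.sum_nonneg fun _ _ => sq_nonneg _)

theorem nr_nonneg (ξ : V n) : 0 ≤ nr ξ := Real.sqrt_nonneg _

theorem abs_le_nr (ξ : V n) (j : Fin n) : |ξ j| ≤ nr ξ := by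
  have h2 : ξ j ^ 2 ≤ ∑ j, ξ j ^ 2 :=
    Finset.single_le_sum (f := fun j => ξ j ^ 2) (fun _ _ => sq_nonneg _) (Finset.mem_univ j)
  exact Real.abs_le_sqrt h2

/-- Real part of the frequency. -/
def re0 (e : ℝ) (i₀ : Fin n) (ξ : V n) (j : Fin n) : ℝ :=
  if j = i₀ then e * Real.pi * nr ξ else 0

/-- Imaginary part of `λ`. -/
def im0 (i₀ : Fin n) (ξ : V n) (k : Ix n) (j : Fin n) : ℝ :=
  2 * Real.pi * fr (th0 i₀) k j - Real.pi * ξ j

theorem lmz_eq (e : ℝ) (i₀ : Fin n) (ξ : V n) (k : Ix n) (j : Fin n) :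
    lmz i₀ (zs e i₀ ξ) k j = (re0 e i₀ ξ j : ℂ) + (im0 i₀ ξ k j : ℂ) * Complex.I := by
  unfold lmz zs re0 im0
  apply Complex.ext
  · simp
  · simp
    ring

theorem sum_re0_sq (e : ℝ) (he : e = 1 ∨ e = -1) (i₀ : Fin n) (ξ : V n) :
    ∑ j, re0 e i₀ ξ j ^ 2 = Real.pi ^ 2 * nr ξ ^ 2 := by
  unfold re0
  rw [Finset.sum_eq_single i₀]
  · rw [if_pos rfl]
    rcases he with h | h <;> rw [h] <;> ring
  · intro j _ hj
    rw [if_neg hj]
    ring
  · simp

theorem sum_re0_mul (e : ℝ) (i₀ : Fin n) (ξ f : V n) :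
    ∑ j, f j * re0 e i₀ ξ j = f i₀ * (e * Real.pi * nr ξ) := by
  unfold re0
  rw [Finset.sum_eq_single i₀]
  · rw [if_pos rfl]
  · intro j _ hj
    rw [if_neg hj, mul_zero]
  · simp

theorem sum_sq_eq (a b : V n) : ∑ j, ((a j : ℂ) + (b j : ℂ) * Complex.I) ^ 2 =
    ((∑ j, a j ^ 2 - ∑ j, b j ^ 2 : ℝ) : ℂ) + ((2 * ∑ j, b j * a j : ℝ) : ℂ) * Complex.I := by
  push_cast
  rw [Finset.mul_sum, ← Finset.sum_sub_distrib, Finset.sum_mul, ← Finset.sum_add_distrib]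
  refine Finset.sum_congr rfl fun j _ => ?_
  linear_combination (b j : ℂ) ^ 2 * Complex.I_sq

theorem im0_self (i₀ : Fin n) (ξ : V n) (k : Ix n) (h : ξ i₀ = 0) :
    im0 i₀ ξ k i₀ = Real.pi * ((2 * k i₀ + 1 : ℤ) : ℝ) := by
  unfold im0 fr th0
  rw [h, Pi.single_eq_same]
  push_cast
  ring

/-- (CF_SYM). -/
theorem sym : RowSYM := by
  intro n i₀ e ξ he h0 hX
  have hpi := Real.pi_gt_three
  have hz : ∀ j, zs e i₀ ξ j = (re0 e i₀ ξ j : ℂ) + ((-(Real.pi * ξ j) : ℝ) : ℂ) * Complex.I := by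
    intro j
    unfold zs re0
    apply Complex.ext <;> simp
  refine ⟨?_, ?_, ?_⟩
  · simp_rw [hz]
    rw [sum_sq_eq (fun j => re0 e i₀ ξ j) (fun j => -(Real.pi * ξ j)), sum_re0_sq e he,
      sum_re0_mul e i₀ ξ (fun j => -(Real.pi * ξ j)), h0]
    have : ∑ j, (-(Real.pi * ξ j)) ^ 2 = Real.pi ^ 2 * nr ξ ^ 2 := by
      rw [nr_sq, Finset.mul_sum]
      exact Finset.sum_congr rfl fun j _ => by ring
    rw [this]
    simp
  · intro j
    rw [hz]
    refine (norm_add_le _ _).trans ?_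
    rw [norm_mul, Complex.norm_I, Complex.norm_real, Complex.norm_real, Real.norm_eq_abs,
      Real.norm_eq_abs, abs_neg, abs_mul, abs_of_pos Real.pi_pos]
    have h1 := abs_le_nr ξ j
    have h2 : |re0 e i₀ ξ j| ≤ Real.pi * nr ξ := by
      unfold re0
      split_ifs
      · rw [abs_mul, abs_mul, abs_of_pos Real.pi_pos, abs_of_nonneg (nr_nonneg ξ)]
        rcases he with h | h <;> rw [h] <;> simp
      · rw [abs_zero]
        exact mul_nonneg Real.pi_pos.le (nr_nonneg ξ)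
    nlinarith
  · intro k
    set A : ℝ := ∑ j, im0 i₀ ξ k j ^ 2 with hA
    set B : ℝ := Real.pi ^ 2 * nr ξ ^ 2 with hB
    set D : ℝ := ∑ j, im0 i₀ ξ k j * re0 e i₀ ξ j with hD
    set P : ℝ := ‖∑ j, lmz i₀ (zs e i₀ ξ) k j ^ 2‖ with hP
    have hA0 : 0 ≤ A := Finset.sum_nonneg fun _ _ => sq_nonneg _
    have hP0 : 0 ≤ P := norm_nonneg _
    have hPsq : P ^ 2 = (B - A) ^ 2 + 4 * D ^ 2 := by
      rw [hP]
      simp_rw [lmz_eq]
      rw [sum_sq_eq, sum_re0_sq e he, ← Complex.normSq_eq_norm_sq, Complex.normSq_add_mul_I]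
      ring
    have hDabs : Real.pi ^ 2 * nr ξ ≤ |D| := by
      rw [hD, sum_re0_mul, im0_self i₀ ξ k h0, abs_mul, abs_mul, abs_mul, abs_mul,
        abs_of_pos Real.pi_pos, abs_of_nonneg (nr_nonneg ξ)]
      have h1 : (1 : ℝ) ≤ |((2 * k i₀ + 1 : ℤ) : ℝ)| := by
        have : (1 : ℤ) ≤ |2 * k i₀ + 1| := by
          apply Int.one_le_abs
          omega
        exact_mod_cast this
      have h2 : |e| = 1 := by rcases he with h | h <;> rw [h] <;> simp
      rw [h2]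
      have h3 : 0 ≤ Real.pi ^ 2 * nr ξ := by positivity
      nlinarith
    have hlam : ∀ i, ‖lmz i₀ (zs e i₀ ξ) k i‖ ^ 2 = re0 e i₀ ξ i ^ 2 + im0 i₀ ξ k i ^ 2 := by
      intro i
      rw [lmz_eq, ← Complex.normSq_eq_norm_sq, Complex.normSq_add_mul_I]
    have hsum : ∀ i, ‖lmz i₀ (zs e i₀ ξ) k i‖ ^ 2 ≤ A + B := by
      intro i
      rw [hlam, hA, hB, ← sum_re0_sq e he i₀ ξ, ← Finset.sum_add_distrib]
      have := Finset.single_le_sum (f := fun j => im0 i₀ ξ k j ^ 2 + re0 e i₀ ξ j ^ 2)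
        (fun _ _ => add_nonneg (sq_nonneg _) (sq_nonneg _)) (Finset.mem_univ i)
      linarith
    have hkey : A + B ≤ 3 * (nr ξ * 1) * P := by
      refine Vale.Agent.P088.LR.H393.real_sym hA0 hX le_rfl hB ?_ hP0 hPsq
      rw [div_one]
      exact hDabs
    have hPD : 2 * |D| ≤ P := by
      by_contra hh
      push Not at hh
      nlinarith [sq_abs D, abs_nonneg D, sq_nonneg (B - A)]
    have hpi2 : 9 ≤ Real.pi ^ 2 := by nlinarith
    have hB1 : 1 ≤ B := by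
      rw [hB]
      nlinarith
    have hPX : 2 * (Real.pi ^ 2 * nr ξ) ≤ P := by linarith
    refine ⟨?_, ⟨i₀, ?_⟩, ?_, ?_⟩
    · nlinarith
    · have h1 := hlam i₀
      have h2 : re0 e i₀ ξ i₀ ^ 2 = B := by
        unfold re0
        rw [if_pos rfl, hB]
        rcases he with h | h <;> rw [h] <;> ring
      by_contra hh
      push Not at hh
      nlinarith [norm_nonneg (lmz i₀ (zs e i₀ ξ) k i₀), sq_nonneg (im0 i₀ ξ k i₀)]
    · intro i
      have h1 := hsum i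
      by_contra hh
      push Not at hh
      have h2 : 9 * P ^ 2 < A + B := by nlinarith
      have h3 : 3 * B < 9 * P ^ 2 := by
        have h5 : B ≤ (Real.pi ^ 2 * nr ξ) ^ 2 := by
          rw [hB, mul_pow]
          have : Real.pi ^ 2 ≤ (Real.pi ^ 2) ^ 2 := by nlinarith
          exact mul_le_mul_of_nonneg_right this (sq_nonneg _)
        have h6 : (Real.pi ^ 2 * nr ξ) ^ 2 * 4 ≤ P ^ 2 := by nlinarith
        nlinarith
      have h4 : A - B ≤ P := by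
        by_contra h7
        push Not at h7
        nlinarith [sq_nonneg D]
      nlinarith [norm_nonneg (lmz i₀ (zs e i₀ ξ) k i)]
    · intro i m
      have h1 := hsum i
      have h2 := hsum m
      nlinarith [sq_nonneg (‖lmz i₀ (zs e i₀ ξ) k i‖ - ‖lmz i₀ (zs e i₀ ξ) k m‖)]

end Vale.Agent.P088.LR.CF.H393
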