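import Vale.Agent.P088.H393.Cgo
import Vale.Agent.P088.H501.A12
import Vale.Agent.P088.H776.A3
import Vale.Agent.P088.H884.A4
import Vale.Agent.P088.H102.Neu
import Vale.Agent.P088.H127.Est
import Vale.Agent.P088.H129.Core

/-!
# P088: rows EST and CORE, unconditional
-/

namespace Vale.Agent.P088.LR.H393

open Vale.Agent.P088.LR

theorem a4 : RowA4 := Vale.Agent.P088.H884.a4 H501.rowA2 Vale.Agent.P088.H776.rowA3

theorem cgo' : RowCGO :=
  cgo H501.rowA1 H501.rowA2 Vale.Agent.P088.H776.rowA3 a4 Vale.Agent.P088.H102.neu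

theorem est : RowEST := H127.est_of_cgo Vale.Agent.P088.H776.rowA3 cgo'

theorem core : RowCORE := Vale.Agent.P088.LR.core_row Vale.Agent.P088.H776.rowA3 est

end Vale.Agent.P088.LR.H393
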