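import Vale.Agent.P088.H393.CGM4

/-!
# P088, stage J, row CGM (5): the literal statement
-/

open MeasureTheory Set
open scoped ContDiff Matrix

noncomputable section

namespace Vale.Agent.P088.LR.CF.H393

open Vale.Agent.P088.LR Vale.Agent.P088.LR.CF
open Vale.Agent.P088.LR.H393

variable {n N : ℕ}

/-- bound of `c₀` -/
theorem fin_c0M (hA2 : RowA2) {m : ℕ} {i₀ : Fin n} {β : Fin N} {X C C3 C4 B A : ℝ}
    {z : Fin n → ℂ} {H : Fin n → Fin n → Fin N → Fin N → V n → ℂ}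
    {Λ₀ Λ : Fin n → Fin N → Fin N → V n → ℂ} {y₀ r : Fin n → Fin N → Ix n → ℂ}
    (S : Sy X (lmz i₀ z) (fun k => ∑ j, lmz i₀ z k j ^ 2))
    (hpX : ∀ k, X ≤ ‖∑ j, lmz i₀ z k j ^ 2‖) (hzn : ∀ j, ‖z j‖ ≤ 2 * Real.pi * X)
    (hb : 0 ≤ C3 * B) (D : DM m i₀ β X C C3 C4 B A z H Λ₀ Λ y₀ r) (a : Fin N) :
    nm m (cM (lmz i₀ z) (fun k => ∑ j, lmz i₀ z k j ^ 2) z β (fun _ _ _ _ _ => 0)
      (fun _ _ _ _ _ => 0) (fun j a b => cf 0 (Λ₀ j a b))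
      (fun j a b => cf (th0 i₀) (Λ₀ j a b)) y₀ a) ≤
      2 * Real.pi * (n * N * (C3 * B)) + 1 / X * (n * N * ((C3 * B) * (C * X * B))) := by
  have hX0 : 0 ≤ X := by linarith [S.hX]
  have hpi0 := Real.pi_pos
  have hzt := fun J => zt_le (β := β) (z := z) (by positivity) hzn J
  have h := c0G S hpX (zt z β) hzt (fun J : Fin n × Fin N => cf (th0 i₀) (Λ₀ J.1 a J.2))
    (fun J => cv (cf 0 (Λ₀ J.1 a J.2)) (y₀ J.1 J.2))
    (fun J => (D.rM1 J.1 a J.2).1)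
    (fun J => (hA2 0 0 _ _ (D.rM0 J.1 a J.2).1 (D.ry₀ J.1 J.2)).1) m (C3 * B)
    ((C3 * B) * (C * X * B)) (fun J => D.n1 J.1 a J.2)
    (fun J => ((hA2 0 0 _ _ (D.rM0 J.1 a J.2).1 (D.ry₀ J.1 J.2)).2.2.2 m).trans
      (mul_le_mul (D.n0 J.1 a J.2) (D.ny₀ J.1 J.2) (nmm_nonneg m _) hb))
    (s := cM (lmz i₀ z) (fun k => ∑ j, lmz i₀ z k j ^ 2) z β (fun _ _ _ _ _ => 0)
      (fun _ _ _ _ _ => 0) (fun j a b => cf 0 (Λ₀ j a b))
      (fun j a b => cf (th0 i₀) (Λ₀ j a b)) y₀ a) (fun k => by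
      rw [cM]
      unfold RV RG
      simp only [cv_zero_left, mul_zero, add_zero, Finset.sum_const_zero, zero_add])
  rw [card_J] at h
  exact h

/-- bound of `c - c₀` -/
theorem fin_cdM (hA2 : RowA2) {m : ℕ} {i₀ : Fin n} {β : Fin N} {X C C3 C4 B A : ℝ}
    {z : Fin n → ℂ} {H : Fin n → Fin n → Fin N → Fin N → V n → ℂ}
    {Λ₀ Λ : Fin n → Fin N → Fin N → V n → ℂ} {y₀ r : Fin n → Fin N → Ix n → ℂ}
    (S : Sy X (lmz i₀ z) (fun k => ∑ j, lmz i₀ z k j ^ 2))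
    (hpX : ∀ k, X ≤ ‖∑ j, lmz i₀ z k j ^ 2‖) (hzn : ∀ j, ‖z j‖ ≤ 2 * Real.pi * X)
    (hA : 0 ≤ A) (hb : 0 ≤ C3 * B) (hR : C * X ^ 2 * A ≤ X)
    (D : DM m i₀ β X C C3 C4 B A z H Λ₀ Λ y₀ r) (a : Fin N) :
    nm 0 (fun k => cM (lmz i₀ z) (fun k => ∑ j, lmz i₀ z k j ^ 2) z β
      (fun i j a b => cf 0 (H i j a b)) (fun i j a b => cf (th0 i₀) (H i j a b))
      (fun j a b => cf 0 (Λ j a b)) (fun j a b => cf (th0 i₀) (Λ j a b))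
      (fun i a k => y₀ i a k + r i a k) a k -
      cM (lmz i₀ z) (fun k => ∑ j, lmz i₀ z k j ^ 2) z β (fun _ _ _ _ _ => 0)
      (fun _ _ _ _ _ => 0) (fun j a b => cf 0 (Λ₀ j a b))
      (fun j a b => cf (th0 i₀) (Λ₀ j a b)) y₀ a k) ≤
      3 * (2 * Real.pi * X) * (n * (n * N) * (C4 * A)) + 3 * (n * (n * N) * (A * (2 * X))) +
      2 * Real.pi * (n * N * (C4 * A)) +
      1 / X * (n * N * ((C3 * B + A) * (C * X ^ 2 * A) + A * X)) := by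
  have hX0 : 0 ≤ X := by linarith [S.hX]
  have hpi0 := Real.pi_pos
  have hzt := fun J => zt_le (β := β) (z := z) (by positivity) hzn J
  have hy : ∀ (J : Fin n × Fin N), RD fun k => y₀ J.1 J.2 k + r J.1 J.2 k := fun J =>
    rd_add (D.ry₀ J.1 J.2) (D.rr J.1 J.2)
  have rQ : ∀ (J : Fin n × Fin N), RD fun k => cv (cf 0 (Λ J.1 a J.2)) (r J.1 J.2) k +
      cv (fun k => cf 0 (Λ J.1 a J.2) k - cf 0 (Λ₀ J.1 a J.2) k) (y₀ J.1 J.2) k := fun J =>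
    rd_add (hA2 0 0 _ _ (D.rL0 J.1 a J.2).1 (D.rr J.1 J.2)).1
      (hA2 0 0 _ _ (D.rνd J.1 a J.2) (D.ry₀ J.1 J.2)).1
  have h := cdG S hpX (zt z β) hzt (fun m (J : Fin n × Fin N) => cf (th0 i₀) (H m J.1 a J.2))
    (fun m J => cv (cf 0 (H m J.1 a J.2)) (fun k => y₀ J.1 J.2 k + r J.1 J.2 k))
    (fun J k => cf (th0 i₀) (Λ J.1 a J.2) k - cf (th0 i₀) (Λ₀ J.1 a J.2) k)
    (fun J k => cv (cf 0 (Λ J.1 a J.2)) (r J.1 J.2) k +
      cv (fun k => cf 0 (Λ J.1 a J.2) k - cf 0 (Λ₀ J.1 a J.2) k) (y₀ J.1 J.2) k)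
    (fun m J => (D.rH1 m J.1 a J.2).1)
    (fun m J => (hA2 0 0 _ _ (D.rH0 m J.1 a J.2).1 (hy J)).1) (fun J => D.rμd J.1 a J.2) rQ
    (C4 * A) (A * (2 * X)) ((C3 * B + A) * (C * X ^ 2 * A) + A * X)
    (fun m J => D.nH1 m J.1 a J.2) (fun m J => by
      refine ((hA2 0 0 _ _ (D.rH0 m J.1 a J.2).1 (hy J)).2.2.2 0).trans
        (mul_le_mul (D.nH m J.1 a J.2) ?_ (nmm_nonneg 0 _) hA)
      have h1 := nm_add_le (D.ry₀ J.1 J.2) (D.rr J.1 J.2)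
      have h2 := D.my₀ J.1 J.2
      have h3 := D.nr' J.1 J.2
      linarith) (fun J => D.nμd J.1 a J.2) (fun J => by
      refine (nm_add_le (hA2 0 0 _ _ (D.rL0 J.1 a J.2).1 (D.rr J.1 J.2)).1
        (hA2 0 0 _ _ (D.rνd J.1 a J.2) (D.ry₀ J.1 J.2)).1).trans (add_le_add ?_ ?_)
      · exact ((hA2 0 0 _ _ (D.rL0 J.1 a J.2).1 (D.rr J.1 J.2)).2.2.2 0).trans
          (mul_le_mul (D.nν J.1 a J.2) (D.nr' J.1 J.2) (nmm_nonneg 0 _) (by linarith))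
      · exact ((hA2 0 0 _ _ (D.rνd J.1 a J.2) (D.ry₀ J.1 J.2)).2.2.2 0).trans
          (mul_le_mul (D.nνd J.1 a J.2) (D.my₀ J.1 J.2) (nmm_nonneg 0 _) hA))
    (s := fun k => cM (lmz i₀ z) (fun k => ∑ j, lmz i₀ z k j ^ 2) z β
      (fun i j a b => cf 0 (H i j a b)) (fun i j a b => cf (th0 i₀) (H i j a b))
      (fun j a b => cf 0 (Λ j a b)) (fun j a b => cf (th0 i₀) (Λ j a b))
      (fun i a k => y₀ i a k + r i a k) a k -
      cM (lmz i₀ z) (fun k => ∑ j, lmz i₀ z k j ^ 2) z β (fun _ _ _ _ _ => 0)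
      (fun _ _ _ _ _ => 0) (fun j a b => cf 0 (Λ₀ j a b))
      (fun j a b => cf (th0 i₀) (Λ₀ j a b)) y₀ a k) (fun k => by
      have c2 : ∀ (J : Fin n × Fin N),
          cv (cf 0 (Λ J.1 a J.2)) (fun k => y₀ J.1 J.2 k + r J.1 J.2 k) k =
          cv (cf 0 (Λ J.1 a J.2)) (y₀ J.1 J.2) k + cv (cf 0 (Λ J.1 a J.2)) (r J.1 J.2) k :=
        fun J => cv_add hA2 (D.rL0 J.1 a J.2).1 (D.ry₀ J.1 J.2) (D.rr J.1 J.2) k
      have c3 : ∀ (J : Fin n × Fin N),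
          cv (fun k => cf 0 (Λ J.1 a J.2) k - cf 0 (Λ₀ J.1 a J.2) k) (y₀ J.1 J.2) k =
          cv (cf 0 (Λ J.1 a J.2)) (y₀ J.1 J.2) k - cv (cf 0 (Λ₀ J.1 a J.2)) (y₀ J.1 J.2) k :=
        fun J => cv_sub_left hA2 (D.rL0 J.1 a J.2).1 (D.rM0 J.1 a J.2).1 (D.ry₀ J.1 J.2) k
      rw [cM, cM]
      unfold RV RG
      simp only [cv_zero_left, mul_zero, add_zero, Finset.sum_const_zero, zero_add]
      rw [← sub_div]
      congr 1
      have d2 : ∑ J : Fin n × Fin N, (zt z β J * cf (th0 i₀) (Λ J.1 a J.2) k +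
          cv (cf 0 (Λ J.1 a J.2)) (fun k => y₀ J.1 J.2 k + r J.1 J.2 k) k) =
          ∑ J : Fin n × Fin N, (zt z β J * cf (th0 i₀) (Λ₀ J.1 a J.2) k +
            cv (cf 0 (Λ₀ J.1 a J.2)) (y₀ J.1 J.2) k) +
          ∑ J : Fin n × Fin N, (zt z β J * (cf (th0 i₀) (Λ J.1 a J.2) k -
            cf (th0 i₀) (Λ₀ J.1 a J.2) k) + (cv (cf 0 (Λ J.1 a J.2)) (r J.1 J.2) k +
            cv (fun k => cf 0 (Λ J.1 a J.2) k - cf 0 (Λ₀ J.1 a J.2) k) (y₀ J.1 J.2) k)) := by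
        rw [← Finset.sum_add_distrib]
        exact Finset.sum_congr rfl fun J _ => by rw [c2 J, c3 J]; ring
      rw [d2]
      ring)
  rw [card_J] at h
  exact h

/-- (J_CGO, vector valued). -/
theorem cgm (hS : RowSYM) (hA1 : RowA1) (hA2 : RowA2) (hA3 : RowA3) (hA4 : RowA4)
    (hNEU : RowNEU) : RowCGM := by
  intro n N m
  obtain ⟨C3, hC3, h3⟩ := hA3 n m
  obtain ⟨C4, hC4, h4⟩ := hA4 n
  have hpi := Real.pi_pos
  have hn0 : (0 : ℝ) ≤ n := Nat.cast_nonneg n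
  have hN0 : (0 : ℝ) ≤ N := Nat.cast_nonneg N
  have hC0 : 0 < K1 n N Real.pi C3 C4 := by unfold K1; positivity
  have hC'0 : 0 < K2 n N Real.pi C3 C4 (K1 n N Real.pi C3 C4) := by
    unfold K2; positivity
  refine ⟨K2 n N Real.pi C3 C4 (K1 n N Real.pi C3 C4), hC'0, ?_⟩
  intro i₀ β e ξ he h0 hX H Λ₀ Λ sH sΛ₀ sΛ zH zΛ₀ zΛ B A hb hAH hAΛ hCb hCA
  obtain ⟨hz, hzn, hsy⟩ := hS i₀ e ξ he h0 hX
  have S := sy_of hS he h0 hX
  have hpX : ∀ k, nr ξ ≤ ‖∑ j, lmz i₀ (zs e i₀ ξ) k j ^ 2‖ := fun k => (hsy k).1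
  have hb0 : 0 ≤ B := (norm_nonneg _).trans (hb i₀ β β 0 (Nat.zero_le _) 0)
  have hA0 : 0 ≤ A := (nmm_nonneg 0 _).trans (hAH i₀ i₀ β β)
  have hX0 : 0 ≤ nr ξ := by linarith
  obtain ⟨hCC, ar1, ar2, ar3, ar4⟩ := arithM2 hn0 hN0 hC3.le hC4.le hpi.le hC0.le hb0 hA0 hX
    hCb hCA
  obtain ⟨y₀, r, D⟩ := coefsM hS hA2 hNEU hC3 hC4 h3 h4 β he h0 hX sH sΛ₀ sΛ zH zΛ₀ zΛ hb hAH
    hAΛ ar1 ar2
  have hL' : ∀ k j, lmz i₀ (zs e i₀ ξ) k j =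
      2 * Real.pi * Complex.I * ((fr (th0 i₀) k j : ℝ) : ℂ) + zs e i₀ ξ j := fun k j => rfl
  have s1 := sol_closeM hA1 hA2 hz (th0 i₀) S hL' β (fun _ _ _ _ _ => 0) Λ₀
    (fun _ _ _ _ _ => 0)
    (fun _ _ _ _ _ => 0) (fun j a b => cf 0 (Λ₀ j a b)) (fun j a b => cf (th0 i₀) (Λ₀ j a b))
    (fun _ _ _ _ => rd_zero)
    (fun _ _ _ _ => rd_zero) (fun j a b => (D.rM0 j a b).1) (fun j a b => (D.rM1 j a b).1)
    (fun _ _ _ _ x _ => (Es_zero 0 x).symm) (fun _ _ _ _ x _ => (Es_zero (th0 i₀) x).symm)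
    (fun j a b => (D.rM0 j a b).2) (fun j a b => (D.rM1 j a b).2) y₀ D.ry₀ (by
      intro i a k
      rw [D.ey₀ i a k]
      unfold RV RG
      simp only [cv_zero_left, mul_zero, add_zero, Finset.sum_const_zero, zero_add])
  have s2 := sol_closeM hA1 hA2 hz (th0 i₀) S hL' β H Λ (fun i j a b => cf 0 (H i j a b))
    (fun i j a b => cf (th0 i₀) (H i j a b)) (fun j a b => cf 0 (Λ j a b))
    (fun j a b => cf (th0 i₀) (Λ j a b))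
    (fun i j a b => (D.rH0 i j a b).1) (fun i j a b => (D.rH1 i j a b).1)
    (fun j a b => (D.rL0 j a b).1)
    (fun j a b => (D.rL1 j a b).1) (fun i j a b => (D.rH0 i j a b).2)
    (fun i j a b => (D.rH1 i j a b).2)
    (fun j a b => (D.rL0 j a b).2) (fun j a b => (D.rL1 j a b).2)
    (fun i a k => y₀ i a k + r i a k)
    (fun i a => rd_add (D.ry₀ i a) (D.rr i a)) D.er
  have hR : K1 n N Real.pi C3 C4 * nr ξ ^ 2 * A ≤ nr ξ := by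
    have := mul_le_mul_of_nonneg_left ar2 hX0
    calc K1 n N Real.pi C3 C4 * nr ξ ^ 2 * A = nr ξ * (K1 n N Real.pi C3 C4 * nr ξ * A) := by
          ring
      _ ≤ nr ξ * 1 := this
      _ = _ := mul_one _
  refine ⟨y₀, fun i a k => y₀ i a k + r i a k, _, _, _, _, s1, s2, fun i a => ?_,
    fun i a => ?_, fun a => ?_, fun a => ?_⟩
  · refine (D.ny₀ i a).trans ?_
    exact mul_le_mul_of_nonneg_right (mul_le_mul_of_nonneg_right hCC hX0) hb0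
  · have : (fun k => y₀ i a k + r i a k - y₀ i a k) = r i a := by
      funext k
      ring
    rw [this]
    refine (D.nr' i a).trans ?_
    exact mul_le_mul_of_nonneg_right (mul_le_mul_of_nonneg_right hCC (by positivity)) hA0
  · exact (fin_c0M hA2 S hpX hzn (by positivity) D a).trans ar3
  · exact (fin_cdM hA2 S hpX hzn hA0 (by positivity) hR D a).trans ar4

end Vale.Agent.P088.LR.CF.H393
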