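import Vale.Agent.P088.H393.UEsf7
import Vale.Agent.P088.H106.UEsfB

/-!
# P088, stage J, row ESFU: end
-/

open MeasureTheory Set Filter Topology
open scoped ContDiff Matrix

noncomputable section

namespace Vale.Agent.P088.LR.U.H393

open CF H158

variable {n N : ℕ}

theorem chi_core {x : V n} (hx : x ∉ core n) : chi442 x = 0 :=
  chi_zero442 fun h => hx (bal_subset_core442 h)

theorem ce_zero {P : MC n N} {α β : Fin N} {x : V n} (hx : x ∉ core n) :
    ce chi442 P α β x = 0 := by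
  rw [ce, chi_core hx, Complex.ofReal_zero, zero_mul]

theorem ce_cd {P : MC n N} (hP : SmC P) (α β : Fin N) : ContDiff ℝ ∞ (ce chi442 P α β) :=
  (H650.ofReal_contDiff chi_smooth442).mul (hP α β)

theorem nb_ce {C₃ : ℝ} (h3 : A3c n C₃) {k : ℕ} (hk : 0 + n + 1 ≤ k) {Bχ a : ℝ}
    (hχ : Cl k Bχ (chi442 : V n → ℝ)) {P : MC n N} (hP : SmC P) (h : ClC k a P) (α β : Fin N) :
    Nb (C₃ * (2 ^ k * (Bχ * a))) (ce chi442 P α β) :=
  nb_cl h3 (ce_cd hP α β) (fun _ hx => ce_zero hx) (H535.cl_le (cl_ce hχ hP h α β) hk le_rfl)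

/-- the Λ difference -/
theorem lw_eq (χ : V n → ℝ) (τ τi : MC n N) (κ : Fin n → MC n N) (h : Fin n → Fin n → MC n N)
    (q : Fin n → MC n N) (j : Fin n) (α β : Fin N) :
    (fun x => LW χ τ τi κ h q j α β x - LW0 χ τ τi κ j α β x) = fun x =>
      (∑ i, (h j i x * (τi x * pdm i τ x * τi x)) β α) + -((q j x * τi x) β α) := by
  funext x
  rw [LW, add_sub_cancel_left, Matrix.sub_mul, Matrix.sub_apply, Finset.sum_mul,
    Matrix.sum_apply, sub_eq_add_neg]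
  refine congrArg₂ (· + ·) (Finset.sum_congr rfl fun i _ => ?_) rfl
  rw [Matrix.mul_assoc (h j i x), Matrix.mul_assoc (h j i x)]

theorem cbd (hA2 : RowA2) (hA3 : RowA3) : RowCbd := by
  intro n N
  obtain ⟨C₃, hC₃, h3⟩ := hA3 n 0
  obtain ⟨Bχ, hBχ, hχc⟩ := chi_cl442 n (n + 2 + n + 1)
  have hS := SW'_nonneg n
  set K : ℕ := n + 2 + n + 1 with hK
  set T1 : ℝ := C₃ * (2 ^ K * (Bχ * 2)) with hT1
  set T2 : ℝ := C₃ * (2 ^ K * (Bχ * (N * (2 ^ K * ((N * (2 ^ K * (2 * 1))) * 2))))) with hT2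
  set c1 : ℝ := 2 ^ K * (Bχ * (N * (2 ^ K * (2 * 2)))) with hc1
  set c3 : ℝ := N * (SW' n * T1) with hc3
  set c4 : ℝ := n * (N * (SW' n * T2)) + N * (SW' n * T1) with hc4
  have p1 : 0 ≤ T1 := by positivity
  have p2 : 0 ≤ T2 := by positivity
  have p3 : 0 ≤ c1 := by positivity
  have p4 : 0 ≤ c3 := by positivity
  have p5 : 0 ≤ c4 := by positivity
  refine ⟨chi442, c1 + c3 + c4 + 1, chi_smooth442, fun x hx => chi_one442 hx,
    fun x hx => chi_core hx, by positivity, ?_⟩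
  intro Ω τ τi κ h q B a b hb hb1 hτ hτi hκ hh hq
  have hΩ : Ω ⊆ core n := B.sub.trans bls_sub
  have hχ : ∀ x ∈ Ω, chi442 x = 1 := fun x hx => chi_one442 (B.sub hx)
  have hKn : 0 + n + 1 ≤ K := by omega
  have sτ' : SmC fun x => τ x - 1 := fun α β => (B.sτ α β).sub (smc_one α β)
  have ip : ∀ j, ClC K b (pdm j τ) := fun j => by
    rw [pdm_near B.sτ j]
    exact clc_pdm sτ' hτ j
  have sp : ∀ j, SmC (pdm j τ) := fun j => H292.ES.sm_pdm B.sτ j
  have iκ : ∀ j, ClC K b (κ j) := fun j => clc_mono (hκ j) (by omega) le_rfl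
  have ii : ClC K 2 τi := by
    have h1 := clc_near B.si hτi
    exact clc_mono h1 (by omega) (by linarith)
  have a1 : ∀ j, ClC K (N * (2 ^ K * (2 * (b + b)))) (PU τ τi κ j) := fun j =>
    clc_mul B.si (H292.ES.sm_add (sp j) (B.sκ j)) ii (clc_add (sp j) (B.sκ j) (ip j) (iκ j))
  have a2 : ∀ j, ClC K (N * (2 ^ K * ((b + b) * 2))) (PW τ τi κ j) := fun j =>
    clc_mul (H292.ES.sm_sub (sp j) (B.sκ j)) B.si (clc_sub (sp j) (B.sκ j) (ip j) (iκ j)) ii
  have sPU : ∀ j, SmC (PU τ τi κ j) := fun j =>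
    H292.ES.sm_mul B.si (H292.ES.sm_add (sp j) (B.sκ j))
  have sPW : ∀ j, SmC (PW τ τi κ j) := fun j =>
    H292.ES.sm_mul (H292.ES.sm_sub (sp j) (B.sκ j)) B.si
  have sX : ∀ i, SmC fun x => τi x * pdm i τ x * τi x := fun i =>
    H292.ES.sm_mul (H292.ES.sm_mul B.si (sp i)) B.si
  have iX : ∀ i, ClC K (N * (2 ^ K * ((N * (2 ^ K * (2 * 1))) * 2)))
      fun x => τi x * pdm i τ x * τi x := fun i =>
    clc_mul (H292.ES.sm_mul B.si (sp i)) B.si
      (clc_mul B.si (sp i) ii (clc_mono (ip i) le_rfl hb1)) ii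
  have L1 : ∀ α β, Nb T1 (ce chi442 τi α β) := fun α β => nb_ce h3 hKn hχc B.si ii α β
  have L2 : ∀ i α β, Nb T2 (ce chi442 (fun x => τi x * pdm i τ x * τi x) α β) := fun i α β =>
    nb_ce h3 hKn hχc (sX i) (iX i) α β
  have G1 : ∀ i j α β, Nb (a * SW' n) fun x => h i j x α β := fun i j α β =>
    nb_dec (B.sh i j α β) (fun x hx => by rw [B.h0 i j x fun h' => hx (hΩ h')]; rfl)
      (dec_mono (hh i j α β))
  have G2 : ∀ i α β, Nb (a * SW' n) fun x => q i x α β := fun i α β =>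
    nb_dec (B.sq i α β) (fun x hx => by rw [B.q0 i x fun h' => hx (hΩ h')]; rfl) (hq i α β)
  refine ⟨fun j α β => ?_, fun j α β => ?_, fun i j α β => ?_, fun j α β => ?_⟩
  · refine H535.cl_le (cl_ce hχc (sPU j) (a1 j) α β) le_rfl ?_
    have e : 2 ^ K * (Bχ * (N * (2 ^ K * (2 * (b + b))))) = c1 * b := by rw [hc1]; ring
    rw [e]
    exact mul_le_mul_of_nonneg_right (by linarith) hb
  · refine H535.cl_le (cl_ce hχc (sPW j) (a2 j) β α) le_rfl ?_
    have e : 2 ^ K * (Bχ * (N * (2 ^ K * ((b + b) * 2)))) = c1 * b := by rw [hc1]; ring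
    rw [e]
    exact mul_le_mul_of_nonneg_right (by linarith) hb
  · have ha : 0 ≤ a := a_nonneg (hh i j α β)
    have h1 := (nb_prod hA2 h3 hΩ hχ B.si (fun x hx => B.h0 j i x hx) (G1 j i) L1 β α).2.2
    refine h1.trans ?_
    have e : N * (a * SW' n * T1) = c3 * a := by rw [hc3]; ring
    rw [e]
    exact mul_le_mul_of_nonneg_right (by linarith) ha
  · have ha : 0 ≤ a := a_nonneg (hh j j α β)
    rw [lw_eq]
    have h1 := nb_sum h3 fun i => nb_prod hA2 h3 hΩ hχ (sX i) (fun x hx => B.h0 j i x hx)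
      (G1 j i) (L2 i) β α
    have h2 := nb_neg (nb_prod hA2 h3 hΩ hχ B.si (fun x hx => B.q0 j x hx) (G2 j) L1 β α)
    refine (nb_add h3 h1 h2).2.2.trans ?_
    have e : n * (N * (a * SW' n * T2)) + N * (a * SW' n * T1) = c4 * a := by rw [hc4]; ring
    rw [e]
    exact mul_le_mul_of_nonneg_right (by linarith) ha

/-- **row U_ESF** -/
theorem esf (hC : RowCGM) (hA2 : RowA2) (hA3 : RowA3) : RowESFU :=
  esf_of H106.bru H106.brw (cbd hA2 hA3) H292.ES.ssm hC hA2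

end Vale.Agent.P088.LR.U.H393
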