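import Vale.Agent.P088.H393.CFCgf

/-!
# P088, row CF_CGO, literal
-/

open MeasureTheory Set
open scoped ContDiff Matrix

noncomputable section

namespace Vale.Agent.P088.LR.CF.H393

open Vale.Agent.P088.LR Vale.Agent.P088.LR.CF
open Vale.Agent.P088.LR.H393

variable {n : ℕ}

theorem th0_le (i₀ : Fin n) : ∀ j, |th0 i₀ j| ≤ 1 := by
  intro j
  unfold th0
  by_cases hj : j = i₀
  · subst hj
    rw [Pi.single_eq_same]
    rw [abs_of_pos] <;> norm_num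
  · rw [Pi.single_eq_of_ne hj]
    simp

theorem arith1 {m C3 C4 P C b X A : ℝ} (hm : 0 ≤ m) (h3 : 0 ≤ C3) (h4 : 0 ≤ C4) (hP : 3 ≤ P)
    (hC : C = 12 * (m ^ 3 + m ^ 2) + 12 * P * m ^ 2 * C3 +
      6 * m * (m ^ 2 + m) * (2 * P * C4 + 1) + 1) (hb : 0 ≤ b) (hA : 0 ≤ A) (hX : 1 ≤ X)
    (h1 : C * b ≤ 1) (h2 : C * X * A ≤ 1) :
    m * (3 * (m * (C3 * b))) ≤ 1 / 2 ∧
    2 * (m * (3 * (2 * P * X) * (m * (C3 * b)))) ≤ C * X * b ∧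
    m * (3 * X * (m * (m * A)) + 3 * (m * (C3 * b + A))) ≤ 1 / 2 ∧
    2 * (m * (3 * X * (2 * P * X) * (m * m * (C4 * A)) + 3 * X * (m * m * (A * X)) +
      3 * (2 * P * X) * (m * (C4 * A)) + 3 * (m * (A * X)))) ≤ C * X ^ 2 * A := by
  have hP0 : 0 ≤ P := by linarith
  have hX0 : 0 ≤ X := by linarith
  have t1 : 0 ≤ 12 * (m ^ 3 + m ^ 2) := by positivity
  have t2 : 0 ≤ 12 * P * m ^ 2 * C3 := by positivity
  have t3 : 0 ≤ 6 * m * (m ^ 2 + m) * (2 * P * C4 + 1) := by positivity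
  have u1 : 12 * (m ^ 3 + m ^ 2) ≤ C := by linarith
  have u2 : 12 * P * m ^ 2 * C3 ≤ C := by linarith
  have u3 : 6 * m * (m ^ 2 + m) * (2 * P * C4 + 1) ≤ C := by linarith
  have v0 : 12 * m ^ 2 * C3 ≤ 12 * P * m ^ 2 * C3 := by
    have : 0 ≤ m ^ 2 * C3 := by positivity
    nlinarith
  have v1 : 12 * m ^ 2 * C3 * b ≤ 1 :=
    (mul_le_mul_of_nonneg_right (v0.trans u2) hb).trans h1
  have v2 : 12 * (m ^ 3 + m ^ 2) * (X * A) ≤ 1 := by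
    have h6 : 0 ≤ X * A := by positivity
    calc 12 * (m ^ 3 + m ^ 2) * (X * A) ≤ C * (X * A) := mul_le_mul_of_nonneg_right u1 h6
      _ = C * X * A := by ring
      _ ≤ 1 := h2
  refine ⟨by linarith, ?_, ?_, ?_⟩
  · calc 2 * (m * (3 * (2 * P * X) * (m * (C3 * b)))) = 12 * P * m ^ 2 * C3 * (X * b) := by ring
      _ ≤ C * (X * b) := mul_le_mul_of_nonneg_right u2 (by positivity)
      _ = _ := by ring
  · have w1 : m ^ 2 * A ≤ m ^ 2 * (X * A) := by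
      refine mul_le_mul_of_nonneg_left ?_ (by positivity)
      nlinarith
    nlinarith
  · have w1 : X ≤ X ^ 2 := by nlinarith
    have w2 : 0 ≤ 2 * m * (3 * m * (2 * P * C4 + 1) * A) := by positivity
    have w3 := mul_le_mul_of_nonneg_left w1 w2
    calc 2 * (m * (3 * X * (2 * P * X) * (m * m * (C4 * A)) + 3 * X * (m * m * (A * X)) +
        3 * (2 * P * X) * (m * (C4 * A)) + 3 * (m * (A * X))))
        = 6 * m ^ 3 * (2 * P * C4 + 1) * (X ^ 2 * A) +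
          2 * m * (3 * m * (2 * P * C4 + 1) * A) * X := by ring
      _ ≤ 6 * m ^ 3 * (2 * P * C4 + 1) * (X ^ 2 * A) +
          2 * m * (3 * m * (2 * P * C4 + 1) * A) * X ^ 2 := by linarith
      _ = 6 * m * (m ^ 2 + m) * (2 * P * C4 + 1) * (X ^ 2 * A) := by ring
      _ ≤ C * (X ^ 2 * A) := mul_le_mul_of_nonneg_right u3 (by positivity)
      _ = _ := by ring

theorem sy_of (hS : RowSYM) {i₀ : Fin n} {e : ℝ} {ξ : V n} (he : e = 1 ∨ e = -1)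
    (h0 : ξ i₀ = 0) (hX : 1 ≤ nr ξ) :
    Sy (nr ξ) (lmz i₀ (zs e i₀ ξ)) (fun k => ∑ j, lmz i₀ (zs e i₀ ξ) k j ^ 2) := by
  obtain ⟨hz, hzn, hsy⟩ := hS i₀ e ξ he h0 hX
  refine ⟨hX, fun k => rfl, fun k => ?_, fun k => (hsy k).2.1, fun k i => ?_, fun k i r => ?_⟩
  · have := (hsy k).1
    exact norm_pos_iff.mp (by linarith)
  · have h1 := (hsy k).1
    rw [norm_div, div_le_iff₀ (by linarith)]
    exact (hsy k).2.2.1 i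
  · have h1 := (hsy k).1
    rw [norm_mul, norm_div, div_mul_eq_mul_div, div_le_iff₀ (by linarith)]
    exact (hsy k).2.2.2 i r

theorem nm_add_le {c d : Ix n → ℂ} (hc : RD c) (hd : RD d) :
    nm 0 (fun k => c k + d k) ≤ nm 0 c + nm 0 d := by
  rw [nm_zero_eq, nm_zero_eq, nm_zero_eq, ← (sn hc).tsum_add (sn hd)]
  exact (sn (rd_add hc hd)).tsum_le_tsum (fun k => norm_add_le _ _) ((sn hc).add (sn hd))

/-- (CF_CGO). -/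
theorem cgf (hS : RowSYM) (hA1 : RowA1) (hA2 : RowA2) (hA3 : RowA3) (hA4 : RowA4)
    (hNEU : RowNEU) : RowCGF := by
  intro n N
  obtain ⟨C3, hC3, h3⟩ := hA3 n N
  obtain ⟨C4, hC4, h4⟩ := hA4 n
  have hpi := Real.pi_gt_three
  refine ⟨12 * ((n : ℝ) ^ 3 + n ^ 2) + 12 * Real.pi * n ^ 2 * C3 +
    6 * n * ((n : ℝ) ^ 2 + n) * (2 * Real.pi * C4 + 1) + 1, by positivity, ?_⟩
  set C : ℝ := 12 * ((n : ℝ) ^ 3 + n ^ 2) + 12 * Real.pi * n ^ 2 * C3 +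
    6 * n * ((n : ℝ) ^ 2 + n) * (2 * Real.pi * C4 + 1) + 1 with hC
  intro i₀ e ξ he h0 hX H Λ₀ Λ sH sΛ₀ sΛ zH zΛ₀ zΛ b A hb hAH hAΛ hCb hCA
  obtain ⟨hz, hzn, -⟩ := hS i₀ e ξ he h0 hX
  have S := sy_of hS he h0 hX
  have hθ := th0_le i₀
  have h00 : ∀ j : Fin n, |(0 : V n) j| ≤ 1 := by simp
  have hb0 : 0 ≤ b := (norm_nonneg _).trans (hb i₀ 0 (Nat.zero_le _) 0)
  have hA0 : 0 ≤ A := (nmm_nonneg 0 _).trans (hAH i₀ i₀)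
  have hX0 : 0 ≤ nr ξ := by linarith
  obtain ⟨ar1, ar2, ar3, ar4⟩ := arith1 (Nat.cast_nonneg n) hC3.le hC4.le hpi.le hC hb0 hA0 hX
    hCb hCA
  have a3 : ∀ (f : V n → ℂ), ContDiff ℝ ∞ f → (∀ x ∉ core n, f x = 0) → ∀ t : V n,
      (∀ j, |t j| ≤ 1) → RD (cf t f) ∧ ∀ x ∈ cube n, f x = Es t (cf t f) x := by
    intro f hf hf0 t ht
    have := h3 f hf (tsup hf0) t ht
    exact ⟨this.1, this.2.1⟩
  have rH0 := fun i j => a3 (H i j) (sH i j) (zH i j) 0 h00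
  have rH1 := fun i j => a3 (H i j) (sH i j) (zH i j) (th0 i₀) hθ
  have rΛ0 := fun j => a3 (Λ j) (sΛ j) (zΛ j) 0 h00
  have rΛ1 := fun j => a3 (Λ j) (sΛ j) (zΛ j) (th0 i₀) hθ
  have rΛ₀0 := fun j => a3 (Λ₀ j) (sΛ₀ j) (zΛ₀ j) 0 h00
  have rΛ₀1 := fun j => a3 (Λ₀ j) (sΛ₀ j) (zΛ₀ j) (th0 i₀) hθ
  have n0 : ∀ j, nm N (cf 0 (Λ₀ j)) ≤ C3 * b := fun j =>
    (h3 (Λ₀ j) (sΛ₀ j) (tsup (zΛ₀ j)) 0 h00).2.2 b (hb j)
  have n1 : ∀ j, nm N (cf (th0 i₀) (Λ₀ j)) ≤ C3 * b := fun j =>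
    (h3 (Λ₀ j) (sΛ₀ j) (tsup (zΛ₀ j)) (th0 i₀) hθ).2.2 b (hb j)
  obtain ⟨y₀, ry₀, ey₀, ny₀⟩ := first hA2 hNEU S hzn (fun j => cf 0 (Λ₀ j))
    (fun j => cf (th0 i₀) (Λ₀ j)) (fun j => (rΛ₀0 j).1) (fun j => (rΛ₀1 j).1) N (C3 * b) n0 n1 ar1
  have hy₀X : ∀ i, nm N (y₀ i) ≤ C * nr ξ * b := fun i => (ny₀ i).trans ar2
  have hy₀1 : ∀ i, nm 0 (y₀ i) ≤ nr ξ := by
    intro i
    refine (nm_le_nmm (ry₀ i) N).trans ((hy₀X i).trans ?_)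
    nlinarith
  have sd : ∀ j, ContDiff ℝ ∞ fun x => Λ j x - Λ₀ j x := fun j => (sΛ j).sub (sΛ₀ j)
  have zd : ∀ j, ∀ x ∉ core n, Λ j x - Λ₀ j x = 0 := fun j x hx => by
    rw [zΛ j x hx, zΛ₀ j x hx, sub_zero]
  have eνd : ∀ j, (fun k => cf 0 (Λ j) k - cf 0 (Λ₀ j) k) = cf 0 (fun x => Λ j x - Λ₀ j x) :=
    fun j => by
      funext k
      rw [cf_sub (sΛ j) (zΛ j) (sΛ₀ j) (zΛ₀ j)]
  have eμd : ∀ j, (fun k => cf (th0 i₀) (Λ j) k - cf (th0 i₀) (Λ₀ j) k) =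
      cf (th0 i₀) (fun x => Λ j x - Λ₀ j x) := fun j => by
    funext k
    rw [cf_sub (sΛ j) (zΛ j) (sΛ₀ j) (zΛ₀ j)]
  have rνd : ∀ j, RD fun k => cf 0 (Λ j) k - cf 0 (Λ₀ j) k := fun j => by
    rw [eνd j]
    exact (a3 _ (sd j) (zd j) 0 h00).1
  have rμd : ∀ j, RD fun k => cf (th0 i₀) (Λ j) k - cf (th0 i₀) (Λ₀ j) k := fun j => by
    rw [eμd j]
    exact (a3 _ (sd j) (zd j) (th0 i₀) hθ).1
  have nνd : ∀ j, nm 0 (fun k => cf 0 (Λ j) k - cf 0 (Λ₀ j) k) ≤ A := fun j => by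
    rw [eνd j]
    exact hAΛ j
  have nμd : ∀ j, nm 0 (fun k => cf (th0 i₀) (Λ j) k - cf (th0 i₀) (Λ₀ j) k) ≤ C4 * A :=
    fun j => by
      rw [eμd j]
      exact (h4 _ (sd j) (zd j) (th0 i₀) hθ).trans (mul_le_mul_of_nonneg_left (hAΛ j) hC4.le)
  have nH1 : ∀ i j, nm 0 (cf (th0 i₀) (H i j)) ≤ C4 * A := fun i j =>
    (h4 _ (sH i j) (zH i j) (th0 i₀) hθ).trans (mul_le_mul_of_nonneg_left (hAH i j) hC4.le)
  have nν : ∀ j, nm 0 (cf 0 (Λ j)) ≤ C3 * b + A := by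
    intro j
    have h5 := nm_add_le (rΛ₀0 j).1 (rνd j)
    have h6 : (fun k => cf 0 (Λ₀ j) k + (cf 0 (Λ j) k - cf 0 (Λ₀ j) k)) = cf 0 (Λ j) := by
      funext k
      ring
    rw [h6] at h5
    have h7 := nm_le_nmm (rΛ₀0 j).1 N
    have h8 := n0 j
    have h9 := nνd j
    linarith
  obtain ⟨r, rr, er, nr'⟩ := second hA2 hNEU S hzn (fun i j => cf 0 (H i j))
    (fun i j => cf (th0 i₀) (H i j)) (fun j => cf 0 (Λ j)) (fun j => cf (th0 i₀) (Λ j))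
    (fun j => cf 0 (Λ₀ j)) (fun j => cf (th0 i₀) (Λ₀ j)) (fun i j => (rH0 i j).1)
    (fun i j => (rH1 i j).1) (fun j => (rΛ0 j).1) (fun j => (rΛ₀0 j).1) rνd rμd y₀ ry₀ ey₀
    A (C3 * b + A) (C4 * A) hA0 hAH nν nH1 nνd nμd hy₀1 ar3
  have hL' : ∀ k j, lmz i₀ (zs e i₀ ξ) k j =
      2 * Real.pi * Complex.I * ((fr (th0 i₀) k j : ℝ) : ℂ) + zs e i₀ ξ j := fun k j => rfl
  obtain ⟨W₀, hW₀⟩ := sol_close hA1 hA2 hz (th0 i₀) S hL' (fun _ _ _ => 0) Λ₀ (fun _ _ _ => 0)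
    (fun _ _ _ => 0) (fun j => cf 0 (Λ₀ j)) (fun j => cf (th0 i₀) (Λ₀ j)) (fun _ _ => rd_zero)
    (fun _ _ => rd_zero) (fun j => (rΛ₀0 j).1) (fun j => (rΛ₀1 j).1)
    (fun _ _ x _ => (Es_zero 0 x).symm) (fun _ _ x _ => (Es_zero (th0 i₀) x).symm)
    (fun j => (rΛ₀0 j).2) (fun j => (rΛ₀1 j).2) y₀ ry₀ (by
      intro i k
      rw [ey₀ i k]
      unfold RH
      simp only [cv_zero_left, mul_zero, add_zero, Finset.sum_const_zero, zero_add])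
  obtain ⟨W, hW⟩ := sol_close hA1 hA2 hz (th0 i₀) S hL' H Λ (fun i j => cf 0 (H i j))
    (fun i j => cf (th0 i₀) (H i j)) (fun j => cf 0 (Λ j)) (fun j => cf (th0 i₀) (Λ j))
    (fun i j => (rH0 i j).1) (fun i j => (rH1 i j).1) (fun j => (rΛ0 j).1)
    (fun j => (rΛ1 j).1) (fun i j => (rH0 i j).2) (fun i j => (rH1 i j).2)
    (fun j => (rΛ0 j).2) (fun j => (rΛ1 j).2) (fun i k => y₀ i k + r i k)
    (fun i => rd_add (ry₀ i) (rr i)) er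
  refine ⟨y₀, fun i k => y₀ i k + r i k, W₀, W, hW₀, hW, hy₀X, fun i => ?_⟩
  have : (fun k => y₀ i k + r i k - y₀ i k) = r i := by
    funext k
    ring
  rw [this]
  exact (nr' i).trans ar4

end Vale.Agent.P088.LR.CF.H393
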