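import Vale.Agent.P088.H393.CFCgo

/-!
# P088, row CF_CGO, final statement
-/

open MeasureTheory Set
open scoped ContDiff Matrix

noncomputable section

namespace Vale.Agent.P088.LR.CF.H393

open Vale.Agent.P088.LR Vale.Agent.P088.LR.CF
open Vale.Agent.P088.LR.H393

variable {n : ℕ}

/-! ### supports, linearity of the coefficients -/

theorem core_eq_pi : core n = Set.pi univ fun _ => Icc (1 / 4 : ℝ) (3 / 4) := by
  ext x
  simp only [core, Set.mem_ofPred_eq, Set.mem_pi, Set.mem_univ, forall_true_left, Set.mem_Icc]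

theorem compact_core : IsCompact (core n) := by
  rw [core_eq_pi]
  exact isCompact_univ_pi fun _ => isCompact_Icc

theorem tsup {f : V n → ℂ} (h : ∀ x ∉ core n, f x = 0) : tsupport f ⊆ cube n := by
  have h1 : tsupport f ⊆ core n := by
    refine closure_minimal ?_ compact_core.isClosed
    intro x hx
    by_contra hc
    exact hx (h x hc)
  refine h1.trans fun x hx j => ?_
  have := hx j
  constructor <;> linarith [this.1, this.2]

theorem continuous_ex (ξ : V n) : Continuous (ex ξ) := by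
  unfold ex
  fun_prop

theorem integrable_ex {f : V n → ℂ} (hf : ContDiff ℝ ∞ f) (h : ∀ x ∉ core n, f x = 0)
    (ξ : V n) : Integrable fun x => f x * ex ξ x := by
  refine (hf.continuous.mul (continuous_ex ξ)).integrable_of_hasCompactSupport ?_
  exact HasCompactSupport.intro compact_core fun x hx => by
    change f x * ex ξ x = 0
    rw [h x hx, zero_mul]

theorem cf_sub {f g : V n → ℂ} (hf : ContDiff ℝ ∞ f) (hf0 : ∀ x ∉ core n, f x = 0)
    (hg : ContDiff ℝ ∞ g) (hg0 : ∀ x ∉ core n, g x = 0) (θ : V n) (k : Ix n) :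
    cf θ (fun x => f x - g x) k = cf θ f k - cf θ g k := by
  unfold cf ft
  rw [← integral_sub (integrable_ex hf hf0 _) (integrable_ex hg hg0 _)]
  congr 1
  funext x
  ring

/-! ### norms -/

theorem four {ι κ : Type*} [Fintype ι] [Fintype κ] {a b : ι → Ix n → ℂ} {c d : κ → Ix n → ℂ}
    (ha : ∀ i, RD (a i)) (hb : ∀ i, RD (b i)) (hc : ∀ i, RD (c i)) (hd : ∀ i, RD (d i))
    {s : Ix n → ℂ} (α β γ δ : ℝ) (h : ∀ k, ‖s k‖ ≤ α * ∑ i, ‖a i k‖ + β * ∑ i, ‖b i k‖ +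
      γ * ∑ i, ‖c i k‖ + δ * ∑ i, ‖d i k‖) (m : ℕ) :
    (Summable fun k => wt k ^ m * ‖s k‖) ∧ nm m s ≤ α * ∑ i, nm m (a i) + β * ∑ i, nm m (b i) +
      γ * ∑ i, nm m (c i) + δ * ∑ i, nm m (d i) := by
  have sa : Summable fun k => ∑ i, wt k ^ m * ‖a i k‖ := summable_sum fun i _ => ha i m
  have sb : Summable fun k => ∑ i, wt k ^ m * ‖b i k‖ := summable_sum fun i _ => hb i m
  have sc : Summable fun k => ∑ i, wt k ^ m * ‖c i k‖ := summable_sum fun i _ => hc i m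
  have sd : Summable fun k => ∑ i, wt k ^ m * ‖d i k‖ := summable_sum fun i _ => hd i m
  have S := (((sa.mul_left α).add (sb.mul_left β)).add (sc.mul_left γ)).add (sd.mul_left δ)
  have hle : ∀ k, wt k ^ m * ‖s k‖ ≤ α * ∑ i, wt k ^ m * ‖a i k‖ + β * ∑ i, wt k ^ m * ‖b i k‖ +
      γ * ∑ i, wt k ^ m * ‖c i k‖ + δ * ∑ i, wt k ^ m * ‖d i k‖ := by
    intro k
    have h1 := one_le_wt k
    refine (mul_le_mul_of_nonneg_left (h k) (by positivity)).trans (le_of_eq ?_)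
    simp only [← Finset.mul_sum]
    ring
  have S0 : Summable fun k => wt k ^ m * ‖s k‖ := by
    refine Summable.of_nonneg_of_le (fun k => ?_) hle S
    have := one_le_wt k
    positivity
  refine ⟨S0, ?_⟩
  unfold nm
  refine (S0.tsum_le_tsum hle S).trans (le_of_eq ?_)
  rw [(((sa.mul_left α).add (sb.mul_left β)).add (sc.mul_left γ)).tsum_add (sd.mul_left δ),
    ((sa.mul_left α).add (sb.mul_left β)).tsum_add (sc.mul_left γ),
    (sa.mul_left α).tsum_add (sb.mul_left β), tsum_mul_left, tsum_mul_left, tsum_mul_left,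
    tsum_mul_left, Summable.tsum_finsetSum (fun i _ => ha i m),
    Summable.tsum_finsetSum (fun i _ => hb i m), Summable.tsum_finsetSum (fun i _ => hc i m),
    Summable.tsum_finsetSum (fun i _ => hd i m)]

theorem sum_le_const {ι : Type*} [Fintype ι] {f : ι → ℝ} {B : ℝ} (h : ∀ i, f i ≤ B) :
    ∑ i, f i ≤ Fintype.card ι * B := by
  refine (Finset.sum_le_sum fun i _ => h i).trans (le_of_eq ?_)
  rw [Finset.sum_const, Finset.card_univ, nsmul_eq_mul]

/-- A fixed point gives a solution. -/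
theorem sol_close (hA1 : RowA1) (hA2 : RowA2) {X : ℝ} {z : Fin n → ℂ} (hz : ∑ j, z j ^ 2 = 0)
    (θ : V n) {L : Ix n → Fin n → ℂ} {p : Ix n → ℂ} (S : Sy X L p)
    (hL : ∀ k j, L k j = 2 * Real.pi * Complex.I * ((fr θ k j : ℝ) : ℂ) + z j)
    (H : Fin n → Fin n → V n → ℂ) (Λ : Fin n → V n → ℂ)
    (h g : Fin n → Fin n → Ix n → ℂ) (ν μ : Fin n → Ix n → ℂ)
    (hh : ∀ i j, RD (h i j)) (hg : ∀ i j, RD (g i j)) (hν : ∀ j, RD (ν j)) (hμ : ∀ j, RD (μ j))
    (e0 : ∀ i j, ∀ x ∈ cube n, H i j x = Es 0 (h i j) x)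
    (e1 : ∀ i j, ∀ x ∈ cube n, H i j x = Es θ (g i j) x)
    (f0 : ∀ j, ∀ x ∈ cube n, Λ j x = Es 0 (ν j) x)
    (f1 : ∀ j, ∀ x ∈ cube n, Λ j x = Es θ (μ j) x)
    (y : Fin n → Ix n → ℂ) (hy : ∀ i, RD (y i))
    (hfix : ∀ i k, y i k = -(L k i / p k * RH L z h g ν μ y k)) :
    ∃ W, Sol z θ H Λ y W := by
  have hyc : ∀ i k, y i k = L k i * (-RH L z h g ν μ y k / p k) := by
    intro i k
    rw [hfix i k]
    ring
  refine ⟨_, sol_of hA1 hA2 hz θ L hL H Λ h g ν μ hh hg hν hμ e0 e1 f0 f1 y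
    (c := fun k => -RH L z h g ν μ y k / p k) hy ?_ hyc ?_⟩
  · refine rd_of_le (ι := Fin n) (d := y) hy 1 (fun k => ?_)
    obtain ⟨i, hi⟩ := S.h1 k
    have h1 : ‖-RH L z h g ν μ y k / p k‖ ≤ ‖y i k‖ := by
      rw [hyc i k, norm_mul]
      nlinarith [norm_nonneg (-RH L z h g ν μ y k / p k)]
    rw [one_mul]
    exact h1.trans (Finset.single_le_sum (f := fun i => ‖y i k‖) (fun _ _ => norm_nonneg _)
      (Finset.mem_univ i))
  · intro k
    rw [← S.hp k]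
    have hp := S.h0 k
    field_simp
    ring

/-- The first solution. -/
theorem first (hA2 : RowA2) (hNEU : RowNEU) {X : ℝ} {z : Fin n → ℂ} {L : Ix n → Fin n → ℂ}
    {p : Ix n → ℂ} (S : Sy X L p) (hzn : ∀ j, ‖z j‖ ≤ 2 * Real.pi * X)
    (ν₀ μ₀ : Fin n → Ix n → ℂ) (rν : ∀ j, RD (ν₀ j)) (rμ : ∀ j, RD (μ₀ j)) (N : ℕ) (B : ℝ)
    (n0 : ∀ j, nm N (ν₀ j) ≤ B) (n1 : ∀ j, nm N (μ₀ j) ≤ B) (hs : (n : ℝ) * (3 * (n * B)) ≤ 1 / 2) :
    ∃ y₀ : Fin n → Ix n → ℂ, (∀ i, RD (y₀ i)) ∧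
      (∀ i k, y₀ i k = -(L k i / p k * ∑ j, (z j * μ₀ j k + cv (ν₀ j) (y₀ j) k))) ∧
      ∀ i, nm N (y₀ i) ≤ 2 * (n * (3 * (2 * Real.pi * X) * (n * B))) := by
  have hX0 : 0 ≤ X := by linarith [S.hX]
  have hpi0 := Real.pi_pos
  have hn0 : (0 : ℝ) ≤ n := Nat.cast_nonneg n
  set s₀ : Fin n → Ix n → ℂ := fun i k => -(L k i / p k * ∑ j, z j * μ₀ j k) with hs₀
  have hs₀le : ∀ i k, ‖s₀ i k‖ ≤ 3 * (2 * Real.pi * X) * ∑ j, ‖μ₀ j k‖ := by
    intro i k
    simp only [hs₀, norm_neg]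
    rw [norm_mul, mul_assoc]
    refine mul_le_mul (S.h2 k i) ?_ (norm_nonneg _) (by norm_num)
    refine (norm_sum_le _ _).trans ?_
    rw [Finset.mul_sum]
    refine Finset.sum_le_sum fun j _ => ?_
    rw [norm_mul]
    exact mul_le_mul_of_nonneg_right (hzn j) (norm_nonneg _)
  have hs₀RD : ∀ i, RD (s₀ i) := fun i => rd_of_le rμ _ (hs₀le i)
  have hs₀nm : ∀ i, nm N (s₀ i) ≤ 3 * (2 * Real.pi * X) * (n * B) := fun i => by
    refine (nmm_le_of rμ _ (hs₀le i) N).trans ?_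
    refine mul_le_mul_of_nonneg_left ?_ (by positivity)
    have := sum_le_const n1
    rwa [Fintype.card_fin] at this
  obtain ⟨y₀, hy₀R, hy₀e, hy₀n⟩ := neu_fix hA2 hNEU S (fun _ _ _ => 0) ν₀
    (fun _ _ => rd_zero) rν N (by
      simp only [nmm_zero, Finset.sum_const_zero, mul_zero, zero_add]
      have h5 := sum_le_const n0
      rw [Fintype.card_fin] at h5
      have h6 : (n : ℝ) * (3 * ∑ j, nm N (ν₀ j)) ≤ n * (3 * (n * B)) :=
        mul_le_mul_of_nonneg_left (by linarith) hn0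
      linarith) s₀ hs₀RD
  refine ⟨y₀, hy₀R, fun i k => ?_, fun i => ?_⟩
  · rw [hy₀e i k]
    simp only [hs₀, cv_zero_left, mul_zero, Finset.sum_const_zero, zero_add]
    rw [Finset.sum_add_distrib]
    ring
  · have h5 : nm N (y₀ i) ≤ ∑ i, nm N (y₀ i) :=
      Finset.single_le_sum (f := fun i => nm N (y₀ i)) (fun i _ => nmm_nonneg N _)
        (Finset.mem_univ i)
    have h6 := sum_le_const hs₀nm
    rw [Fintype.card_fin] at h6
    linarith

/-- Bounds of a source. -/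
theorem src {X : ℝ} {z : Fin n → ℂ} {L : Ix n → Fin n → ℂ}
    {p : Ix n → ℂ} (S : Sy X L p) (hzn : ∀ j, ‖z j‖ ≤ 2 * Real.pi * X)
    (G K : Fin n → Fin n → Ix n → ℂ) (M Q : Fin n → Ix n → ℂ) (rG : ∀ m j, RD (G m j))
    (rK : ∀ m j, RD (K m j)) (rM : ∀ j, RD (M j)) (rQ : ∀ j, RD (Q j)) (a₁ a₂ : ℝ)
    (nG : ∀ m j, nm 0 (G m j) ≤ a₁) (nK : ∀ m j, nm 0 (K m j) ≤ a₂) (nM : ∀ j, nm 0 (M j) ≤ a₁)
    (nQ : ∀ j, nm 0 (Q j) ≤ a₂) (i : Fin n) :
    RD (fun k => -(L k i / p k * (∑ m, L k m * ∑ j, (z j * G m j k + K m j k) +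
      ∑ j, (z j * M j k + Q j k)))) ∧
    nm 0 (fun k => -(L k i / p k * (∑ m, L k m * ∑ j, (z j * G m j k + K m j k) +
      ∑ j, (z j * M j k + Q j k)))) ≤ 3 * X * (2 * Real.pi * X) * (n * n * a₁) +
        3 * X * (n * n * a₂) + 3 * (2 * Real.pi * X) * (n * a₁) + 3 * (n * a₂) := by
  have hX0 : 0 ≤ X := by linarith [S.hX]
  have hpi0 := Real.pi_pos
  have hsle : ∀ k, ‖-(L k i / p k * (∑ m, L k m * ∑ j, (z j * G m j k + K m j k) +
      ∑ j, (z j * M j k + Q j k)))‖ ≤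
      3 * X * (2 * Real.pi * X) * ∑ q : Fin n × Fin n, ‖G q.1 q.2 k‖ +
      3 * X * ∑ q : Fin n × Fin n, ‖K q.1 q.2 k‖ +
      3 * (2 * Real.pi * X) * ∑ j, ‖M j k‖ + 3 * ∑ j, ‖Q j k‖ := by
    intro k
    rw [norm_neg, mul_add]
    refine (norm_add_le _ _).trans ?_
    have t1 : ‖L k i / p k * ∑ m, L k m * ∑ j, (z j * G m j k + K m j k)‖ ≤
        3 * X * (2 * Real.pi * X) * ∑ q : Fin n × Fin n, ‖G q.1 q.2 k‖ +
        3 * X * ∑ q : Fin n × Fin n, ‖K q.1 q.2 k‖ := by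
      rw [Finset.mul_sum]
      refine (norm_sum_le _ _).trans ?_
      rw [Fintype.sum_prod_type, Fintype.sum_prod_type, Finset.mul_sum, Finset.mul_sum,
        ← Finset.sum_add_distrib]
      refine Finset.sum_le_sum fun m _ => ?_
      rw [← mul_assoc, norm_mul]
      calc ‖L k i / p k * L k m‖ * ‖∑ j, (z j * G m j k + K m j k)‖
          ≤ 3 * X * ∑ j, (2 * Real.pi * X * ‖G m j k‖ + ‖K m j k‖) := by
            refine mul_le_mul (S.h3 k i m) ?_ (norm_nonneg _) (by positivity)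
            refine (norm_sum_le _ _).trans (Finset.sum_le_sum fun j _ => ?_)
            refine (norm_add_le _ _).trans (add_le_add ?_ le_rfl)
            rw [norm_mul]
            exact mul_le_mul_of_nonneg_right (hzn j) (norm_nonneg _)
        _ = _ := by
            rw [Finset.sum_add_distrib, ← Finset.mul_sum]
            ring
    have t2 : ‖L k i / p k * ∑ j, (z j * M j k + Q j k)‖ ≤
        3 * (2 * Real.pi * X) * ∑ j, ‖M j k‖ + 3 * ∑ j, ‖Q j k‖ := by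
      rw [norm_mul]
      calc ‖L k i / p k‖ * ‖∑ j, (z j * M j k + Q j k)‖
          ≤ 3 * ∑ j, (2 * Real.pi * X * ‖M j k‖ + ‖Q j k‖) := by
            refine mul_le_mul (S.h2 k i) ?_ (norm_nonneg _) (by norm_num)
            refine (norm_sum_le _ _).trans (Finset.sum_le_sum fun j _ => ?_)
            refine (norm_add_le _ _).trans (add_le_add ?_ le_rfl)
            rw [norm_mul]
            exact mul_le_mul_of_nonneg_right (hzn j) (norm_nonneg _)
        _ = _ := by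
            rw [Finset.sum_add_distrib, ← Finset.mul_sum]
            ring
    linarith
  have hf4 := fun m => four (m := m) (fun q : Fin n × Fin n => rG q.1 q.2)
    (fun q : Fin n × Fin n => rK q.1 q.2) rM rQ _ _ _ _ hsle
  refine ⟨fun m => (hf4 m).1, (hf4 0).2.trans ?_⟩
  have q1 := sum_le_const (ι := Fin n × Fin n) (fun q => nG q.1 q.2)
  have q2 := sum_le_const (ι := Fin n × Fin n) (fun q => nK q.1 q.2)
  have q3 := sum_le_const nM
  have q4 := sum_le_const nQ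
  rw [Fintype.card_prod, Fintype.card_fin] at q1 q2
  rw [Fintype.card_fin] at q3 q4
  push_cast at q1 q2
  have w1 : 3 * X * (2 * Real.pi * X) * ∑ q : Fin n × Fin n, nm 0 (G q.1 q.2) ≤
      3 * X * (2 * Real.pi * X) * (n * n * a₁) :=
    mul_le_mul_of_nonneg_left q1 (by positivity)
  have w2 : 3 * X * ∑ q : Fin n × Fin n, nm 0 (K q.1 q.2) ≤
      3 * X * (n * n * a₂) := mul_le_mul_of_nonneg_left q2 (by positivity)
  have w3 : 3 * (2 * Real.pi * X) * ∑ j, nm 0 (M j) ≤ 3 * (2 * Real.pi * X) * (n * a₁) :=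
    mul_le_mul_of_nonneg_left q3 (by positivity)
  have w4 : 3 * ∑ j, nm 0 (Q j) ≤ 3 * (n * a₂) :=
    mul_le_mul_of_nonneg_left q4 (by norm_num)
  linarith

/-- The difference of the two solutions. -/
theorem second (hA2 : RowA2) (hNEU : RowNEU) {X : ℝ} {z : Fin n → ℂ} {L : Ix n → Fin n → ℂ}
    {p : Ix n → ℂ} (S : Sy X L p) (hzn : ∀ j, ‖z j‖ ≤ 2 * Real.pi * X)
    (h g : Fin n → Fin n → Ix n → ℂ) (ν μ ν₀ μ₀ : Fin n → Ix n → ℂ) (rh : ∀ i j, RD (h i j))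
    (rg : ∀ i j, RD (g i j)) (rν : ∀ j, RD (ν j)) (rν₀ : ∀ j, RD (ν₀ j))
    (rνd : ∀ j, RD fun k => ν j k - ν₀ j k) (rμd : ∀ j, RD fun k => μ j k - μ₀ j k)
    (y₀ : Fin n → Ix n → ℂ) (ry₀ : ∀ i, RD (y₀ i))
    (ey₀ : ∀ i k, y₀ i k = -(L k i / p k * ∑ j, (z j * μ₀ j k + cv (ν₀ j) (y₀ j) k)))
    (A B a₁ : ℝ) (hA0 : 0 ≤ A) (nh : ∀ i j, nm 0 (h i j) ≤ A) (nν : ∀ j, nm 0 (ν j) ≤ B)
    (ng : ∀ i j, nm 0 (g i j) ≤ a₁) (nνd : ∀ j, nm 0 (fun k => ν j k - ν₀ j k) ≤ A)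
    (nμd : ∀ j, nm 0 (fun k => μ j k - μ₀ j k) ≤ a₁) (ny₀ : ∀ i, nm 0 (y₀ i) ≤ X)
    (hs : (n : ℝ) * (3 * X * (n * (n * A)) + 3 * (n * B)) ≤ 1 / 2) :
    ∃ r : Fin n → Ix n → ℂ, (∀ i, RD (r i)) ∧
      (∀ i k, y₀ i k + r i k = -(L k i / p k * RH L z h g ν μ (fun i k => y₀ i k + r i k) k)) ∧
      ∀ i, nm 0 (r i) ≤ 2 * (n * (3 * X * (2 * Real.pi * X) * (n * n * a₁) +
        3 * X * (n * n * (A * X)) + 3 * (2 * Real.pi * X) * (n * a₁) + 3 * (n * (A * X)))) := by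
  have hX0 : 0 ≤ X := by linarith [S.hX]
  have hn0 : (0 : ℝ) ≤ n := Nat.cast_nonneg n
  have hsrc := src S hzn g (fun m j => cv (h m j) (y₀ j)) (fun j k => μ j k - μ₀ j k)
    (fun j => cv (fun k => ν j k - ν₀ j k) (y₀ j)) rg
    (fun m j => (hA2 0 0 _ _ (rh m j) (ry₀ j)).1) rμd
    (fun j => (hA2 0 0 _ _ (rνd j) (ry₀ j)).1) a₁ (A * X) ng
    (fun m j => ((hA2 0 0 _ _ (rh m j) (ry₀ j)).2.2.2 0).trans
      (mul_le_mul (nh m j) (ny₀ j) (nmm_nonneg 0 _) hA0)) nμd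
    (fun j => ((hA2 0 0 _ _ (rνd j) (ry₀ j)).2.2.2 0).trans
      (mul_le_mul (nνd j) (ny₀ j) (nmm_nonneg 0 _) hA0))
  obtain ⟨r, hrR, hre, hrn⟩ := neu_fix hA2 hNEU S h ν rh rν 0 (by
      have q1 : ∑ i, ∑ j, nm 0 (h i j) ≤ n * (n * A) := by
        have h5 : ∀ i, ∑ j, nm 0 (h i j) ≤ n * A := fun i => by
          have := sum_le_const (nh i)
          rwa [Fintype.card_fin] at this
        have := sum_le_const h5
        rwa [Fintype.card_fin] at this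
      have q2 := sum_le_const nν
      rw [Fintype.card_fin] at q2
      have q3 : 3 * X * ∑ i, ∑ j, nm 0 (h i j) ≤ 3 * X * (n * (n * A)) :=
        mul_le_mul_of_nonneg_left q1 (by positivity)
      exact (mul_le_mul_of_nonneg_left (by linarith) hn0).trans hs) _ (fun i => (hsrc i).1)
  refine ⟨r, hrR, fun i k => ?_, fun i => ?_⟩
  · have c1 : ∀ m j, cv (h m j) (fun k => y₀ j k + r j k) k =
        cv (h m j) (y₀ j) k + cv (h m j) (r j) k := fun m j =>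
      cv_add hA2 (rh m j) (ry₀ j) (hrR j) k
    have c2 : ∀ j, cv (ν j) (fun k => y₀ j k + r j k) k =
        cv (ν j) (y₀ j) k + cv (ν j) (r j) k := fun j => cv_add hA2 (rν j) (ry₀ j) (hrR j) k
    have c3 : ∀ j, cv (fun k => ν j k - ν₀ j k) (y₀ j) k =
        cv (ν j) (y₀ j) k - cv (ν₀ j) (y₀ j) k :=
      fun j => cv_sub_left hA2 (rν j) (rν₀ j) (ry₀ j) k
    rw [hre i k, ey₀ i k]
    unfold RH
    have d1 : ∑ m, L k m * ∑ j, (z j * g m j k + cv (h m j) (fun k => y₀ j k + r j k) k) =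
        ∑ m, L k m * ∑ j, (z j * g m j k + cv (h m j) (y₀ j) k) +
        ∑ m, L k m * ∑ j, cv (h m j) (r j) k := by
      rw [← Finset.sum_add_distrib]
      refine Finset.sum_congr rfl fun m _ => ?_
      rw [← mul_add, ← Finset.sum_add_distrib]
      congr 1
      exact Finset.sum_congr rfl fun j _ => by rw [c1 m j]; ring
    have d2 : ∑ j, (z j * μ j k + cv (ν j) (fun k => y₀ j k + r j k) k) =
        ∑ j, (z j * μ₀ j k + cv (ν₀ j) (y₀ j) k) +
        ∑ j, (z j * (μ j k - μ₀ j k) + cv (fun k => ν j k - ν₀ j k) (y₀ j) k) +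
        ∑ j, cv (ν j) (r j) k := by
      rw [← Finset.sum_add_distrib, ← Finset.sum_add_distrib]
      exact Finset.sum_congr rfl fun j _ => by rw [c2 j, c3 j]; ring
    rw [d1, d2]
    ring
  · have h5 : nm 0 (r i) ≤ ∑ i, nm 0 (r i) :=
      Finset.single_le_sum (f := fun i => nm 0 (r i)) (fun i _ => nmm_nonneg 0 _)
        (Finset.mem_univ i)
    have h6 := sum_le_const (fun i => (hsrc i).2)
    rw [Fintype.card_fin] at h6
    linarith

end Vale.Agent.P088.LR.CF.H393
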