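import Vale.Agent.P088.H442.Defs3
import Vale.Agent.P088.H393.Est3

/-!
# P088, row CF_CGO
-/

open MeasureTheory Set
open scoped ContDiff Matrix

noncomputable section

namespace Vale.Agent.P088.LR.CF.H393

open Vale.Agent.P088.LR Vale.Agent.P088.LR.CF
open Vale.Agent.P088.LR.H393

variable {n : ℕ}

/-! ### norms with weight `m` -/

theorem nmm_nonneg (m : ℕ) (c : Ix n → ℂ) : 0 ≤ nm m c := by
  unfold nm
  refine tsum_nonneg fun k => ?_
  have := one_le_wt k
  positivity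

theorem nmm_le_of {ι : Type*} [Fintype ι] {d : ι → Ix n → ℂ} (hd : ∀ i, RD (d i)) (C : ℝ)
    {c : Ix n → ℂ} (h : ∀ k, ‖c k‖ ≤ C * ∑ i, ‖d i k‖) (m : ℕ) :
    nm m c ≤ C * ∑ i, nm m (d i) := by
  have hc := rd_of_le hd C h
  unfold nm
  calc ∑' k, wt k ^ m * ‖c k‖ ≤ ∑' k, C * ∑ i, wt k ^ m * ‖d i k‖ := by
        refine (hc m).tsum_le_tsum (fun k => ?_)
          ((summable_sum (s := Finset.univ) fun i _ => hd i m).mul_left C)
        have h1 := one_le_wt k
        calc wt k ^ m * ‖c k‖ ≤ wt k ^ m * (C * ∑ i, ‖d i k‖) :=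
              mul_le_mul_of_nonneg_left (h k) (by positivity)
          _ = C * ∑ i, wt k ^ m * ‖d i k‖ := by
              simp only [Finset.mul_sum]
              exact Finset.sum_congr rfl fun i _ => by ring
    _ = C * ∑ i, ∑' k, wt k ^ m * ‖d i k‖ := by
        rw [tsum_mul_left, Summable.tsum_finsetSum (fun i _ => hd i m)]

theorem nm_le_nmm {c : Ix n → ℂ} (hc : RD c) (m : ℕ) : nm 0 c ≤ nm m c := by
  unfold nm
  refine (hc 0).tsum_le_tsum (fun k => ?_) (hc m)
  have h1 := one_le_wt k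
  refine mul_le_mul_of_nonneg_right ?_ (norm_nonneg _)
  rw [pow_zero]
  exact one_le_pow₀ h1

theorem rd_zero : RD (fun _ : Ix n => (0 : ℂ)) := by
  intro m
  simp

theorem nmm_zero (m : ℕ) : nm m (fun _ : Ix n => (0 : ℂ)) = 0 := by
  unfold nm
  simp

theorem cv_zero_left (d : Ix n → ℂ) (k : Ix n) : cv (fun _ => 0) d k = 0 := by
  unfold cv
  simp

theorem cv_add (hA2 : RowA2) {c d d' : Ix n → ℂ} (hc : RD c) (hd : RD d) (hd' : RD d')
    (k : Ix n) : cv c (fun k => d k + d' k) k = cv c d k + cv c d' k := by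
  unfold cv
  rw [← ((hA2 0 0 c d hc hd).2.1 k).tsum_add ((hA2 0 0 c d' hc hd').2.1 k)]
  exact tsum_congr fun l => by ring

theorem cv_sub_left (hA2 : RowA2) {c c' d : Ix n → ℂ} (hc : RD c) (hc' : RD c') (hd : RD d)
    (k : Ix n) : cv (fun k => c k - c' k) d k = cv c d k - cv c' d k := by
  unfold cv
  rw [← ((hA2 0 0 c d hc hd).2.1 k).tsum_sub ((hA2 0 0 c' d hc' hd).2.1 k)]
  exact tsum_congr fun l => by ring

/-! ### the abstract fixed point equation -/

/-- The symbol and its bounds. -/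
structure Sy (X : ℝ) (L : Ix n → Fin n → ℂ) (p : Ix n → ℂ) : Prop where
  hX : 1 ≤ X
  hp : ∀ k, p k = ∑ j, L k j ^ 2
  h0 : ∀ k, p k ≠ 0
  h1 : ∀ k, ∃ i, 1 ≤ ‖L k i‖
  h2 : ∀ k i, ‖L k i / p k‖ ≤ 3
  h3 : ∀ k i r, ‖L k i / p k * L k r‖ ≤ 3 * X

/-- Neumann series for `r = s - (L/p) (∑ L_r (h_rj * r_j) + ν_j * r_j)`. -/
theorem neu_fix (hA2 : RowA2) (hNEU : RowNEU) {X : ℝ} {L : Ix n → Fin n → ℂ} {p : Ix n → ℂ}
    (S : Sy X L p) (h : Fin n → Fin n → Ix n → ℂ) (ν : Fin n → Ix n → ℂ)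
    (hh : ∀ i j, RD (h i j)) (hν : ∀ j, RD (ν j)) (m₀ : ℕ)
    (hs : n * (3 * X * ∑ i, ∑ j, nm m₀ (h i j) + 3 * ∑ j, nm m₀ (ν j)) ≤ 1 / 2)
    (s : Fin n → Ix n → ℂ) (hsR : ∀ i, RD (s i)) :
    ∃ r : Fin n → Ix n → ℂ, (∀ i, RD (r i)) ∧
      (∀ i k, r i k = s i k - L k i / p k *
        (∑ m, L k m * ∑ j, cv (h m j) (r j) k + ∑ j, cv (ν j) (r j) k)) ∧
      ∑ i, nm m₀ (r i) ≤ 2 * ∑ i, nm m₀ (s i) := by
  have hX0 : 0 ≤ X := by linarith [S.hX]
  set M : Ix n → Ix n → Fin n → Fin n → ℂ := fun k l i j =>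
    -(L k i / p k * (∑ m, L k m * h m j (k - l) + ν j (k - l))) with hM
  set γ : Ix n → ℝ := fun k => n * (3 * X * ∑ m, ∑ j, ‖h m j k‖ + 3 * ∑ j, ‖ν j k‖) with hγ
  have hwγ : ∀ (m : ℕ) (k : Ix n), wt k ^ m * γ k =
      n * (3 * X * ∑ i, ∑ j, wt k ^ m * ‖h i j k‖ + 3 * ∑ j, wt k ^ m * ‖ν j k‖) := by
    intro m k
    simp only [hγ, Finset.mul_sum, mul_add]
    congr 1
    · refine Finset.sum_congr rfl fun r _ => Finset.sum_congr rfl fun j _ => by ring
    · exact Finset.sum_congr rfl fun j _ => by ring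
  have sh : ∀ m : ℕ, Summable fun k => ∑ i, ∑ j, wt k ^ m * ‖h i j k‖ := fun m =>
    summable_sum fun i _ => summable_sum fun j _ => hh i j m
  have sν : ∀ m : ℕ, Summable fun k => ∑ j, wt k ^ m * ‖ν j k‖ := fun m =>
    summable_sum fun j _ => hν j m
  obtain ⟨Y, hYRD, hYeq, hYnm⟩ := hNEU M γ (fun k i => s i k)
    (by
      intro m
      simp_rw [hwγ m]
      exact (((sh m).mul_left _).add ((sν m).mul_left _)).mul_left _)
    (by intro k; simp only [hγ]; positivity)
    (by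
      intro k l j
      have h1 : ∀ i, ‖M k l i j‖ ≤ 3 * X * ∑ m, ∑ j, ‖h m j (k - l)‖ + 3 * ∑ j, ‖ν j (k - l)‖ := by
        intro i
        simp only [hM, norm_neg, mul_add]
        refine (norm_add_le _ _).trans (add_le_add ?_ ?_)
        · rw [Finset.mul_sum]
          refine (norm_sum_le _ _).trans ?_
          rw [Finset.mul_sum]
          refine Finset.sum_le_sum fun m _ => ?_
          rw [← mul_assoc, norm_mul]
          refine mul_le_mul (S.h3 k i m) ?_ (norm_nonneg _) (by positivity)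
          exact Finset.single_le_sum (f := fun j => ‖h m j (k - l)‖) (fun _ _ => norm_nonneg _)
            (Finset.mem_univ j)
        · rw [norm_mul]
          refine mul_le_mul (S.h2 k i) ?_ (norm_nonneg _) (by norm_num)
          exact Finset.single_le_sum (f := fun j => ‖ν j (k - l)‖) (fun _ _ => norm_nonneg _)
            (Finset.mem_univ j)
      refine (Finset.sum_le_sum fun i _ => h1 i).trans (le_of_eq ?_)
      rw [Finset.sum_const, Finset.card_univ, Fintype.card_fin, nsmul_eq_mul])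
    hsR m₀
    (by
      simp_rw [hwγ m₀]
      rw [tsum_mul_left, ((sh m₀).mul_left _).tsum_add ((sν m₀).mul_left _), tsum_mul_left,
        tsum_mul_left, Summable.tsum_finsetSum (fun i _ => summable_sum fun j _ => hh i j m₀),
        Summable.tsum_finsetSum (fun j _ => hν j m₀)]
      have h2 : ∀ i, ∑' k, ∑ j, wt k ^ m₀ * ‖h i j k‖ = ∑ j, nm m₀ (h i j) := by
        intro i
        rw [Summable.tsum_finsetSum (fun j _ => hh i j m₀)]
        rfl
      simp_rw [h2]
      exact hs)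
  refine ⟨fun i k => Y k i, hYRD, ?_, hYnm m₀ le_rfl⟩
  intro i k
  change Y k i = s i k - L k i / p k * (∑ m, L k m * ∑ j, cv (h m j) (fun k => Y k j) k +
    ∑ j, cv (ν j) (fun k => Y k j) k)
  rw [hYeq k i, sub_eq_add_neg]
  congr 1
  have sm : ∀ m j, Summable fun l => h m j (k - l) * Y l j := fun m j =>
    (hA2 0 0 (h m j) (fun k => Y k j) (hh m j) (hYRD j)).2.1 k
  have sn' : ∀ j, Summable fun l => ν j (k - l) * Y l j := fun j =>
    (hA2 0 0 (ν j) (fun k => Y k j) (hν j) (hYRD j)).2.1 k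
  have h2 : ∀ l, ∑ j, M k l i j * Y l j =
      -(L k i / p k) * (∑ m, L k m * ∑ j, h m j (k - l) * Y l j + ∑ j, ν j (k - l) * Y l j) := by
    intro l
    simp only [hM]
    have h3 : ∑ m, L k m * ∑ j, h m j (k - l) * Y l j =
        ∑ j, (∑ m, L k m * h m j (k - l)) * Y l j := by
      simp only [Finset.mul_sum, Finset.sum_mul]
      rw [Finset.sum_comm]
      exact Finset.sum_congr rfl fun j _ => Finset.sum_congr rfl fun m _ => by ring
    rw [h3, ← Finset.sum_add_distrib, Finset.mul_sum]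
    exact Finset.sum_congr rfl fun j _ => by ring
  simp_rw [h2]
  have s1 : ∀ m, Summable fun l => L k m * ∑ j, h m j (k - l) * Y l j := fun m =>
    (summable_sum fun j _ => sm m j).mul_left _
  rw [tsum_mul_left, (summable_sum fun m _ => s1 m).tsum_add (summable_sum fun j _ => sn' j),
    Summable.tsum_finsetSum (fun m _ => s1 m), Summable.tsum_finsetSum (fun j _ => sn' j), neg_mul]
  congr 3
  refine Finset.sum_congr rfl fun m _ => ?_
  rw [tsum_mul_left, Summable.tsum_finsetSum (fun j _ => sm m j)]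
  rfl

/-! ### the coefficients give a solution -/

/-- Right-hand side of the coefficient equation. -/
def RH (L : Ix n → Fin n → ℂ) (z : Fin n → ℂ) (h g : Fin n → Fin n → Ix n → ℂ)
    (ν μ : Fin n → Ix n → ℂ) (y : Fin n → Ix n → ℂ) (k : Ix n) : ℂ :=
  ∑ m, L k m * ∑ j, (z j * g m j k + cv (h m j) (y j) k) +
    ∑ j, (z j * μ j k + cv (ν j) (y j) k)

theorem sol_of (hA1 : RowA1) (hA2 : RowA2) {z : Fin n → ℂ} (hz : ∑ j, z j ^ 2 = 0) (θ : V n)
    (L : Ix n → Fin n → ℂ)
    (hL : ∀ k j, L k j = 2 * Real.pi * Complex.I * ((fr θ k j : ℝ) : ℂ) + z j)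
    (H : Fin n → Fin n → V n → ℂ) (Λ : Fin n → V n → ℂ)
    (h g : Fin n → Fin n → Ix n → ℂ) (ν μ : Fin n → Ix n → ℂ)
    (hh : ∀ i j, RD (h i j)) (hg : ∀ i j, RD (g i j)) (hν : ∀ j, RD (ν j)) (hμ : ∀ j, RD (μ j))
    (e0 : ∀ i j, ∀ x ∈ cube n, H i j x = Es 0 (h i j) x)
    (e1 : ∀ i j, ∀ x ∈ cube n, H i j x = Es θ (g i j) x)
    (f0 : ∀ j, ∀ x ∈ cube n, Λ j x = Es 0 (ν j) x)
    (f1 : ∀ j, ∀ x ∈ cube n, Λ j x = Es θ (μ j) x)
    (y : Fin n → Ix n → ℂ) {c : Ix n → ℂ} (hy : ∀ i, RD (y i)) (hc : RD c)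
    (hyc : ∀ i k, y i k = L k i * c k)
    (heq : ∀ k, (∑ j, L k j ^ 2) * c k + RH L z h g ν μ y k = 0) :
    Sol z θ H Λ y (fun x => EE z x * (1 + Es θ c x)) := by
  have hpd : ∀ j x, pd j (fun x => EE z x * (1 + Es θ c x)) x =
      EE z x * (z j + Es θ (y j) x) := by
    intro j x
    have h := pd_EE_mul hA1 z θ 1 hc j x
    have h2 : (fun k => (2 * Real.pi * Complex.I * ((fr θ k j : ℝ) : ℂ) + z j) * c k)
        = y j := by
      funext k
      rw [hyc, hL]
    rw [h2, mul_one] at h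
    exact h
  set F : Fin n → Ix n → ℂ := fun i k =>
    ∑ m, (z m * g i m k + cv (h i m) (y m) k) with hF
  have hcv : ∀ i m, RD (cv (h i m) (y m)) := fun i m => (hA2 0 0 _ _ (hh i m) (hy m)).1
  have hFRD : ∀ i, RD (F i) := fun i =>
    rd_sum (fun m => rd_add (rd_const_mul (hg i m) (z m)) (hcv i m))
  set G : Ix n → ℂ := fun k => ∑ j, (z j * μ j k + cv (ν j) (y j) k) with hG
  have hcv' : ∀ j, RD (cv (ν j) (y j)) := fun j => (hA2 0 0 _ _ (hν j) (hy j)).1
  have hGRD : RD G := rd_sum (fun m => rd_add (rd_const_mul (hμ m) (z m)) (hcv' m))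
  have hΦ : ∀ i, RD fun k => y i k + F i k := fun i => rd_add (hy i) (hFRD i)
  have fluxF : ∀ i, ∀ x ∈ cube n, Es θ (F i) x =
      ∑ m, H i m x * (z m + Es θ (y m) x) := by
    intro i x hx
    have h2 : Es θ (F i) x = ∑ m, Es θ (fun k => z m * g i m k +
        cv (h i m) (y m) k) x :=
      Es_sum (fun m => rd_add (rd_const_mul (hg i m) (z m)) (hcv i m)) θ x
    rw [h2]
    refine Finset.sum_congr rfl fun m _ => ?_
    rw [Es_add (rd_const_mul (hg i m) (z m)) (hcv i m), Es_const_mul, ← e1 i m x hx]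
    have h3 := (hA2 0 θ _ _ (hh i m) (hy m)).2.2.1 x
    rw [zero_add, ← e0 i m x hx] at h3
    rw [← h3]
    ring
  have fluxG : ∀ x ∈ cube n, Es θ G x = ∑ m, Λ m x * (z m + Es θ (y m) x) := by
    intro x hx
    have h2 : Es θ G x = ∑ m, Es θ (fun k => z m * μ m k + cv (ν m) (y m) k) x :=
      Es_sum (fun m => rd_add (rd_const_mul (hμ m) (z m)) (hcv' m)) θ x
    rw [h2]
    refine Finset.sum_congr rfl fun m _ => ?_
    rw [Es_add (rd_const_mul (hμ m) (z m)) (hcv' m), Es_const_mul, ← f1 m x hx]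
    have h3 := (hA2 0 θ _ _ (hν m) (hy m)).2.2.1 x
    rw [zero_add, ← f0 m x hx] at h3
    rw [← h3]
    ring
  refine ⟨hy, (EE_contDiff _).mul (contDiff_const.add (hA1 θ c hc).1), ?_, ?_⟩
  · intro i x
    rw [hpd]
    congr 1
    unfold EE
    rw [LL_apply]
  · intro x hx
    have h5 : ∀ i, pd i (fun y_1 => pd i (fun x => EE z x * (1 + Es θ c x)) y_1 +
        ∑ j, H i j y_1 * pd j (fun x => EE z x * (1 + Es θ c x)) y_1) x =
        EE z x * (z i ^ 2 + Es θ (fun k => L k i * (y i k + F i k)) x) := by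
      intro i
      have h6 : (fun y_1 => pd i (fun x => EE z x * (1 + Es θ c x)) y_1 +
          ∑ j, H i j y_1 * pd j (fun x => EE z x * (1 + Es θ c x)) y_1) =ᶠ[nhds x]
          fun x => EE z x * (z i + Es θ (fun k => y i k + F i k) x) := by
        filter_upwards [isOpen_cube.mem_nhds hx] with w hw
        rw [Es_add (hy i) (hFRD i), fluxF i w hw, hpd]
        have : ∀ j, H i j w * pd j (fun x => EE z x * (1 + Es θ c x)) w =
            EE z w * (H i j w * (z j + Es θ (y j) w)) := fun j => by rw [hpd]; ring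
        rw [Finset.sum_congr rfl fun j _ => this j, ← Finset.mul_sum]
        ring
      have h7 := pd_EE_mul hA1 z θ (z i) (hΦ i) i x
      rw [pd_congr i h6, h7, sq]
      have h8 : (fun k => (2 * Real.pi * Complex.I * ((fr θ k i : ℝ) : ℂ) + z i) *
          (y i k + F i k)) = fun k => L k i * (y i k + F i k) := by
        funext k
        rw [hL]
      rw [h8]
    have h10 : ∑ j, Λ j x * pd j (fun x => EE z x * (1 + Es θ c x)) x = EE z x * Es θ G x := by
      rw [fluxG x hx, Finset.mul_sum]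
      exact Finset.sum_congr rfl fun j _ => by rw [hpd]; ring
    rw [Finset.sum_congr rfl fun i _ => h5 i, ← Finset.mul_sum, Finset.sum_add_distrib,
      hz, zero_add, h10, ← mul_add]
    have h8 : ∀ i, RD fun k => L k i * (y i k + F i k) := by
      intro i
      have := rd_add (rd_fr (hΦ i) θ i) (rd_const_mul (hΦ i) (z i))
      refine (iff_of_eq (congrArg RD ?_)).mp this
      funext k
      rw [hL]
      ring
    rw [← Es_sum h8, ← Es_add (rd_sum h8) hGRD]
    have h9 : (fun k => ∑ i, L k i * (y i k + F i k) + G k) = fun _ => 0 := by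
      funext k
      have e3 : ∑ i, L k i * (y i k + F i k) = (∑ j, L k j ^ 2) * c k + ∑ m, L k m * F m k := by
        rw [Finset.sum_mul, ← Finset.sum_add_distrib]
        refine Finset.sum_congr rfl fun i _ => ?_
        rw [hyc i k]
        ring
      rw [e3, ← heq k]
      unfold RH
      simp only [hF, hG]
      ring
    rw [h9, Es_zero, mul_zero]

end Vale.Agent.P088.LR.CF.H393
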