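import Vale.Agent.P088.H393.CGJDefs
import Vale.Agent.P088.H393.CFFin

/-!
# P088, stage J, row CGJ
-/

open MeasureTheory Set
open scoped ContDiff Matrix

noncomputable section

namespace Vale.Agent.P088.LR.CF.H393

open Vale.Agent.P088.LR Vale.Agent.P088.LR.CF
open Vale.Agent.P088.LR.H393

variable {n : ℕ}

/-- The coefficients of the solution. -/
def cc (L : Ix n → Fin n → ℂ) (p : Ix n → ℂ) (z : Fin n → ℂ) (h g : Fin n → Fin n → Ix n → ℂ)
    (ν μ : Fin n → Ix n → ℂ) (y : Fin n → Ix n → ℂ) (k : Ix n) : ℂ :=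
  -RH L z h g ν μ y k / p k

theorem sol_closeJ (hA1 : RowA1) (hA2 : RowA2) {X : ℝ} {z : Fin n → ℂ} (hz : ∑ j, z j ^ 2 = 0)
    (θ : V n) {L : Ix n → Fin n → ℂ} {p : Ix n → ℂ} (S : Sy X L p)
    (hL : ∀ k j, L k j = 2 * Real.pi * Complex.I * ((fr θ k j : ℝ) : ℂ) + z j)
    (H : Fin n → Fin n → V n → ℂ) (Λ : Fin n → V n → ℂ)
    (h g : Fin n → Fin n → Ix n → ℂ) (ν μ : Fin n → Ix n → ℂ)
    (hh : ∀ i j, RD (h i j)) (hg : ∀ i j, RD (g i j)) (hν : ∀ j, RD (ν j)) (hμ : ∀ j, RD (μ j))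
    (e0 : ∀ i j, ∀ x ∈ cube n, H i j x = Es 0 (h i j) x)
    (e1 : ∀ i j, ∀ x ∈ cube n, H i j x = Es θ (g i j) x)
    (f0 : ∀ j, ∀ x ∈ cube n, Λ j x = Es 0 (ν j) x)
    (f1 : ∀ j, ∀ x ∈ cube n, Λ j x = Es θ (μ j) x)
    (y : Fin n → Ix n → ℂ) (hy : ∀ i, RD (y i))
    (hfix : ∀ i k, y i k = -(L k i / p k * RH L z h g ν μ y k)) :
    SolJ z θ H Λ y (cc L p z h g ν μ y) (fun x => EE z x * (1 + Es θ (cc L p z h g ν μ y) x)) := by
  have hyc : ∀ i k, y i k = L k i * cc L p z h g ν μ y k := by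
    intro i k
    rw [hfix i k, cc]
    ring
  have hrc : RD (cc L p z h g ν μ y) := by
    refine rd_of_le (ι := Fin n) (d := y) hy 1 (fun k => ?_)
    obtain ⟨i, hi⟩ := S.h1 k
    have h1 : ‖cc L p z h g ν μ y k‖ ≤ ‖y i k‖ := by
      rw [hyc i k, norm_mul]
      nlinarith [norm_nonneg (cc L p z h g ν μ y k)]
    rw [one_mul]
    exact h1.trans (Finset.single_le_sum (f := fun i => ‖y i k‖) (fun _ _ => norm_nonneg _)
      (Finset.mem_univ i))
  have hs := sol_of hA1 hA2 hz θ L hL H Λ h g ν μ hh hg hν hμ e0 e1 f0 f1 y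
    (c := cc L p z h g ν μ y) hy hrc hyc (by
      intro k
      rw [← S.hp k, cc]
      have hp := S.h0 k
      field_simp
      ring)
  refine ⟨hs, hrc, fun i k => ?_, fun x => ?_⟩
  · rw [hyc i k, hL]
  · unfold EE
    rw [LL_apply]

/-- Bound of `c₀`. -/
theorem c0_bd {X : ℝ} {z : Fin n → ℂ} {L : Ix n → Fin n → ℂ}
    {p : Ix n → ℂ} (S : Sy X L p) (hpX : ∀ k, X ≤ ‖p k‖) (hzn : ∀ j, ‖z j‖ ≤ 2 * Real.pi * X)
    (M Q : Fin n → Ix n → ℂ) (rM : ∀ j, RD (M j)) (rQ : ∀ j, RD (Q j)) (N : ℕ) (a₁ a₂ : ℝ)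
    (nM : ∀ j, nm N (M j) ≤ a₁) (nQ : ∀ j, nm N (Q j) ≤ a₂) {s : Ix n → ℂ}
    (hs : ∀ k, s k = -(∑ j, (z j * M j k + Q j k)) / p k) :
    nm N s ≤ 2 * Real.pi * (n * a₁) + 1 / X * (n * a₂) := by
  have hX1 := S.hX
  have hX0 : 0 < X := by linarith
  have hpi0 := Real.pi_pos
  have hsle : ∀ k, ‖s k‖ ≤ 2 * Real.pi * ∑ j, ‖M j k‖ + 1 / X * ∑ j, ‖Q j k‖ +
      0 * ∑ j, ‖M j k‖ + 0 * ∑ j, ‖Q j k‖ := by
    intro k
    have hp0 : 0 < ‖p k‖ := lt_of_lt_of_le hX0 (hpX k)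
    rw [hs k, norm_div, norm_neg, zero_mul, zero_mul, add_zero, add_zero]
    have h1 : ‖∑ j, (z j * M j k + Q j k)‖ ≤ 2 * Real.pi * X * ∑ j, ‖M j k‖ + ∑ j, ‖Q j k‖ := by
      refine (norm_sum_le _ _).trans ?_
      rw [Finset.mul_sum, ← Finset.sum_add_distrib]
      refine Finset.sum_le_sum fun j _ => ?_
      refine (norm_add_le _ _).trans (add_le_add ?_ le_rfl)
      rw [norm_mul]
      exact mul_le_mul_of_nonneg_right (hzn j) (norm_nonneg _)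
    have hT : 0 ≤ 2 * Real.pi * X * ∑ j, ‖M j k‖ + ∑ j, ‖Q j k‖ := (norm_nonneg _).trans h1
    calc ‖∑ j, (z j * M j k + Q j k)‖ / ‖p k‖
        ≤ (2 * Real.pi * X * ∑ j, ‖M j k‖ + ∑ j, ‖Q j k‖) / X :=
          div_le_div₀ hT h1 hX0 (hpX k)
      _ = 2 * Real.pi * ∑ j, ‖M j k‖ + 1 / X * ∑ j, ‖Q j k‖ := by
          field_simp
  have hf4 := (four (m := N) rM rQ rM rQ _ _ _ _ hsle).2
  have q3 := sum_le_const nM
  have q4 := sum_le_const nQ
  rw [Fintype.card_fin] at q3 q4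
  have w3 : 2 * Real.pi * ∑ j, nm N (M j) ≤ 2 * Real.pi * (n * a₁) :=
    mul_le_mul_of_nonneg_left q3 (by positivity)
  have w4 : 1 / X * ∑ j, nm N (Q j) ≤ 1 / X * (n * a₂) :=
    mul_le_mul_of_nonneg_left q4 (by positivity)
  linarith

/-- Bound of `c - c₀`. -/
theorem cd_bd {X : ℝ} {z : Fin n → ℂ} {L : Ix n → Fin n → ℂ}
    {p : Ix n → ℂ} (S : Sy X L p) (hpX : ∀ k, X ≤ ‖p k‖) (hzn : ∀ j, ‖z j‖ ≤ 2 * Real.pi * X)
    (G K : Fin n → Fin n → Ix n → ℂ) (M Q : Fin n → Ix n → ℂ) (rG : ∀ m j, RD (G m j))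
    (rK : ∀ m j, RD (K m j)) (rM : ∀ j, RD (M j)) (rQ : ∀ j, RD (Q j)) (a₁ a₂ a₃ : ℝ)
    (nG : ∀ m j, nm 0 (G m j) ≤ a₁) (nK : ∀ m j, nm 0 (K m j) ≤ a₂) (nM : ∀ j, nm 0 (M j) ≤ a₁)
    (nQ : ∀ j, nm 0 (Q j) ≤ a₃) {s : Ix n → ℂ}
    (hs : ∀ k, s k = -(∑ m, L k m * ∑ j, (z j * G m j k + K m j k) +
      ∑ j, (z j * M j k + Q j k)) / p k) :
    nm 0 s ≤ 3 * (2 * Real.pi * X) * (n * n * a₁) + 3 * (n * n * a₂) +
      2 * Real.pi * (n * a₁) + 1 / X * (n * a₃) := by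
  have hX1 := S.hX
  have hX0 : 0 < X := by linarith
  have hpi0 := Real.pi_pos
  have hsle : ∀ k, ‖s k‖ ≤ 3 * (2 * Real.pi * X) * ∑ q : Fin n × Fin n, ‖G q.1 q.2 k‖ +
      3 * ∑ q : Fin n × Fin n, ‖K q.1 q.2 k‖ + 2 * Real.pi * ∑ j, ‖M j k‖ +
      1 / X * ∑ j, ‖Q j k‖ := by
    intro k
    have hp0 : 0 < ‖p k‖ := lt_of_lt_of_le hX0 (hpX k)
    have e1 : s k = -(∑ m, (L k m / p k) * ∑ j, (z j * G m j k + K m j k)) +
        -(∑ j, (z j * M j k + Q j k)) / p k := by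
      rw [hs k, neg_add, add_div, neg_div, Finset.sum_div]
      congr 2
      exact Finset.sum_congr rfl fun m _ => by ring
    have t1 : ‖∑ m, (L k m / p k) * ∑ j, (z j * G m j k + K m j k)‖ ≤
        3 * (2 * Real.pi * X) * ∑ q : Fin n × Fin n, ‖G q.1 q.2 k‖ +
        3 * ∑ q : Fin n × Fin n, ‖K q.1 q.2 k‖ := by
      refine (norm_sum_le _ _).trans ?_
      rw [Fintype.sum_prod_type, Fintype.sum_prod_type, Finset.mul_sum, Finset.mul_sum,
        ← Finset.sum_add_distrib]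
      refine Finset.sum_le_sum fun m _ => ?_
      rw [norm_mul]
      calc ‖L k m / p k‖ * ‖∑ j, (z j * G m j k + K m j k)‖
          ≤ 3 * ∑ j, (2 * Real.pi * X * ‖G m j k‖ + ‖K m j k‖) := by
            refine mul_le_mul (S.h2 k m) ?_ (norm_nonneg _) (by norm_num)
            refine (norm_sum_le _ _).trans (Finset.sum_le_sum fun j _ => ?_)
            refine (norm_add_le _ _).trans (add_le_add ?_ le_rfl)
            rw [norm_mul]
            exact mul_le_mul_of_nonneg_right (hzn j) (norm_nonneg _)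
        _ = _ := by
            rw [Finset.sum_add_distrib, ← Finset.mul_sum]
            ring
    have t2 : ‖(∑ j, (z j * M j k + Q j k)) / p k‖ ≤
        2 * Real.pi * ∑ j, ‖M j k‖ + 1 / X * ∑ j, ‖Q j k‖ := by
      have h1 : ‖∑ j, (z j * M j k + Q j k)‖ ≤ 2 * Real.pi * X * ∑ j, ‖M j k‖ +
          ∑ j, ‖Q j k‖ := by
        refine (norm_sum_le _ _).trans ?_
        rw [Finset.mul_sum, ← Finset.sum_add_distrib]
        refine Finset.sum_le_sum fun j _ => ?_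
        refine (norm_add_le _ _).trans (add_le_add ?_ le_rfl)
        rw [norm_mul]
        exact mul_le_mul_of_nonneg_right (hzn j) (norm_nonneg _)
      have hT : 0 ≤ 2 * Real.pi * X * ∑ j, ‖M j k‖ + ∑ j, ‖Q j k‖ := (norm_nonneg _).trans h1
      rw [norm_div]
      calc ‖∑ j, (z j * M j k + Q j k)‖ / ‖p k‖
          ≤ (2 * Real.pi * X * ∑ j, ‖M j k‖ + ∑ j, ‖Q j k‖) / X :=
            div_le_div₀ hT h1 hX0 (hpX k)
        _ = 2 * Real.pi * ∑ j, ‖M j k‖ + 1 / X * ∑ j, ‖Q j k‖ := by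
            field_simp
    rw [e1, neg_div]
    refine (norm_add_le _ _).trans ?_
    rw [norm_neg, norm_neg]
    linarith
  have hf4 := (four (m := 0) (fun q : Fin n × Fin n => rG q.1 q.2)
    (fun q : Fin n × Fin n => rK q.1 q.2) rM rQ _ _ _ _ hsle).2
  have q1 := sum_le_const (ι := Fin n × Fin n) (fun q => nG q.1 q.2)
  have q2 := sum_le_const (ι := Fin n × Fin n) (fun q => nK q.1 q.2)
  have q3 := sum_le_const nM
  have q4 := sum_le_const nQ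
  rw [Fintype.card_prod, Fintype.card_fin] at q1 q2
  rw [Fintype.card_fin] at q3 q4
  push_cast at q1 q2
  have w1 : 3 * (2 * Real.pi * X) * ∑ q : Fin n × Fin n, nm 0 (G q.1 q.2) ≤
      3 * (2 * Real.pi * X) * (n * n * a₁) := mul_le_mul_of_nonneg_left q1 (by positivity)
  have w2 : 3 * ∑ q : Fin n × Fin n, nm 0 (K q.1 q.2) ≤
      3 * (n * n * a₂) := mul_le_mul_of_nonneg_left q2 (by positivity)
  have w3 : 2 * Real.pi * ∑ j, nm 0 (M j) ≤ 2 * Real.pi * (n * a₁) :=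
    mul_le_mul_of_nonneg_left q3 (by positivity)
  have w4 : 1 / X * ∑ j, nm 0 (Q j) ≤ 1 / X * (n * a₃) :=
    mul_le_mul_of_nonneg_left q4 (by positivity)
  linarith

theorem arith2 {m C3 C4 P C b X A : ℝ} (hm : 0 ≤ m) (h3 : 0 ≤ C3) (h4 : 0 ≤ C4) (hP : 3 ≤ P)
    (hC : 0 ≤ C) (hb : 0 ≤ b) (hA : 0 ≤ A) (hX : 1 ≤ X)
    (h1 : (C + (C3 + 1 + m * C3 * (2 * P + 1) + (6 * P * m ^ 2 * C4 + 6 * m ^ 2 +
      2 * P * m * C4 + 2 * m * C + m))) * b ≤ 1)
    (h2 : (C + (C3 + 1 + m * C3 * (2 * P + 1) + (6 * P * m ^ 2 * C4 + 6 * m ^ 2 +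
      2 * P * m * C4 + 2 * m * C + m))) * X * A ≤ 1) :
    C * b ≤ 1 ∧ C * X * A ≤ 1 ∧
    2 * P * (m * (C3 * b)) + 1 / X * (m * ((C3 * b) * (C * X * b))) ≤
      (C + (C3 + 1 + m * C3 * (2 * P + 1) + (6 * P * m ^ 2 * C4 + 6 * m ^ 2 +
      2 * P * m * C4 + 2 * m * C + m))) * b ∧
    3 * (2 * P * X) * (m * m * (C4 * A)) + 3 * (m * m * (A * (2 * X))) +
      2 * P * (m * (C4 * A)) + 1 / X * (m * ((C3 * b + A) * (C * X ^ 2 * A) + A * X)) ≤
      (C + (C3 + 1 + m * C3 * (2 * P + 1) + (6 * P * m ^ 2 * C4 + 6 * m ^ 2 +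
      2 * P * m * C4 + 2 * m * C + m))) * X * A := by
  have hP0 : 0 ≤ P := by linarith
  have hX0 : 0 < X := by linarith
  have hXA : 0 ≤ X * A := by positivity
  have t1 : 0 ≤ m * C3 * (2 * P + 1) := by positivity
  have t2 : 0 ≤ 6 * P * m ^ 2 * C4 + 6 * m ^ 2 + 2 * P * m * C4 + 2 * m * C + m := by positivity
  set D : ℝ := 6 * P * m ^ 2 * C4 + 6 * m ^ 2 + 2 * P * m * C4 + 2 * m * C + m with hD
  set C' : ℝ := C + (C3 + 1 + m * C3 * (2 * P + 1) + D) with hC'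
  have u1 : C ≤ C' := by rw [hC']; linarith
  have u2 : C3 ≤ C' := by rw [hC']; linarith
  have u3 : 1 ≤ C' := by rw [hC']; linarith
  have u4 : m * C3 * (2 * P + 1) ≤ C' := by rw [hC']; linarith
  have u5 : D ≤ C' := by rw [hC']; linarith
  have v1 : C * b ≤ 1 := (mul_le_mul_of_nonneg_right u1 hb).trans h1
  have v2 : C3 * b ≤ 1 := (mul_le_mul_of_nonneg_right u2 hb).trans h1
  have v3 : C * X * A ≤ 1 := by
    have := mul_le_mul_of_nonneg_right u1 hXA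
    calc C * X * A = C * (X * A) := by ring
      _ ≤ C' * (X * A) := this
      _ = C' * X * A := by ring
      _ ≤ 1 := h2
  have v4 : A ≤ 1 := by
    have h5 : 1 * (X * A) ≤ C' * (X * A) := mul_le_mul_of_nonneg_right u3 hXA
    have h6 : C' * (X * A) = C' * X * A := by ring
    have h7 : A ≤ X * A := by nlinarith
    linarith
  refine ⟨v1, v3, ?_, ?_⟩
  · have e1 : 2 * P * (m * (C3 * b)) + 1 / X * (m * ((C3 * b) * (C * X * b))) =
        m * C3 * (2 * P + C * b) * b := by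
      field_simp
    rw [e1]
    refine (mul_le_mul_of_nonneg_right ?_ hb).trans (mul_le_mul_of_nonneg_right u4 hb)
    refine mul_le_mul_of_nonneg_left ?_ (by positivity)
    linarith
  · have e1 : 1 / X * (m * ((C3 * b + A) * (C * X ^ 2 * A) + A * X)) =
        m * C * (C3 * b + A) * (X * A) + m * A := by
      field_simp
    have e2 : m * C * (C3 * b + A) * (X * A) ≤ m * C * 2 * (X * A) := by
      refine mul_le_mul_of_nonneg_right ?_ hXA
      refine mul_le_mul_of_nonneg_left ?_ (by positivity)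
      linarith
    have e3 : A ≤ X * A := by nlinarith
    have e4 : m * A ≤ m * (X * A) := mul_le_mul_of_nonneg_left e3 hm
    have e5 : 2 * P * (m * (C4 * A)) ≤ 2 * P * m * C4 * (X * A) := by
      have : 0 ≤ 2 * P * m * C4 := by positivity
      have := mul_le_mul_of_nonneg_left e3 this
      linarith
    rw [e1]
    calc 3 * (2 * P * X) * (m * m * (C4 * A)) + 3 * (m * m * (A * (2 * X))) +
          2 * P * (m * (C4 * A)) + (m * C * (C3 * b + A) * (X * A) + m * A)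
        ≤ 3 * (2 * P * X) * (m * m * (C4 * A)) + 3 * (m * m * (A * (2 * X))) +
          2 * P * m * C4 * (X * A) + (m * C * 2 * (X * A) + m * (X * A)) := by linarith
      _ = D * (X * A) := by rw [hD]; ring
      _ ≤ C' * (X * A) := mul_le_mul_of_nonneg_right u5 hXA
      _ = C' * X * A := by ring

end Vale.Agent.P088.LR.CF.H393
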