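import Vale.Agent.P088.H442.Defs3

/-!
# P088, stage J: solutions with values and gradients
-/

open MeasureTheory Set
open scoped ContDiff Matrix

noncomputable section

namespace Vale.Agent.P088.LR.CF

variable {n : ℕ}

/-- `W = e^{z·x} (1 + Es θ c)`, with `y_i = λ_i c`. -/
structure SolJ (z : Fin n → ℂ) (θ : V n) (H : Fin n → Fin n → V n → ℂ) (Λ : Fin n → V n → ℂ)
    (y : Fin n → Ix n → ℂ) (c : Ix n → ℂ) (W : V n → ℂ) : Prop extends Sol z θ H Λ y W where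
  rc : RD c
  yc : ∀ i k, y i k = (2 * Real.pi * Complex.I * ((fr θ k i : ℝ) : ℂ) + z i) * c k
  val : ∀ x, W x = Complex.exp (∑ j, z j * x j) * (1 + Es θ c x)

/-- (J_CGO) the solutions in the frame `e_{i₀}` with the bounds of `c₀` and `c - c₀`. -/
def RowCGJ : Prop := ∀ (n N : ℕ), ∃ C : ℝ, 0 < C ∧ ∀ (i₀ : Fin n) (e : ℝ) (ξ : V n),
  (e = 1 ∨ e = -1) → ξ i₀ = 0 → 1 ≤ nr ξ →
  ∀ (H : Fin n → Fin n → V n → ℂ) (Λ₀ Λ : Fin n → V n → ℂ),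
  (∀ i j, ContDiff ℝ ∞ (H i j)) → (∀ j, ContDiff ℝ ∞ (Λ₀ j)) → (∀ j, ContDiff ℝ ∞ (Λ j)) →
  (∀ i j, ∀ x ∉ core n, H i j x = 0) → (∀ j, ∀ x ∉ core n, Λ₀ j x = 0) →
  (∀ j, ∀ x ∉ core n, Λ j x = 0) → ∀ b A : ℝ, (∀ j, Cl (N + n + 1) b (Λ₀ j)) →
  (∀ i j, nm 0 (cf 0 (H i j)) ≤ A) → (∀ j, nm 0 (cf 0 (fun x => Λ j x - Λ₀ j x)) ≤ A) →
  C * b ≤ 1 → C * nr ξ * A ≤ 1 →
  ∃ (y₀ y : Fin n → Ix n → ℂ) (c₀ c : Ix n → ℂ) (W₀ W : V n → ℂ),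
    SolJ (zs e i₀ ξ) (th0 i₀) (fun _ _ _ => 0) Λ₀ y₀ c₀ W₀ ∧
    SolJ (zs e i₀ ξ) (th0 i₀) H Λ y c W ∧ (∀ i, nm N (y₀ i) ≤ C * nr ξ * b) ∧
    (∀ i, nm 0 (fun k => y i k - y₀ i k) ≤ C * nr ξ ^ 2 * A) ∧
    nm N c₀ ≤ C * b ∧ nm 0 (fun k => c k - c₀ k) ≤ C * nr ξ * A

end Vale.Agent.P088.LR.CF
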