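import Vale.Agent.P088.H393.CGJ

/-!
# P088, stage J, row CGJ, literal
-/

open MeasureTheory Set
open scoped ContDiff Matrix

noncomputable section

namespace Vale.Agent.P088.LR.CF.H393

open Vale.Agent.P088.LR Vale.Agent.P088.LR.CF
open Vale.Agent.P088.LR.H393

variable {n : ℕ}

/-- The coefficient-level data. -/
structure Dt (N : ℕ) (i₀ : Fin n) (X C C3 C4 b A : ℝ) (z : Fin n → ℂ)
    (H : Fin n → Fin n → V n → ℂ) (Λ₀ Λ : Fin n → V n → ℂ)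
    (y₀ r : Fin n → Ix n → ℂ) : Prop where
  rH0 : ∀ i j, RD (cf 0 (H i j)) ∧ ∀ x ∈ cube n, H i j x = Es 0 (cf 0 (H i j)) x
  rH1 : ∀ i j, RD (cf (th0 i₀) (H i j)) ∧
    ∀ x ∈ cube n, H i j x = Es (th0 i₀) (cf (th0 i₀) (H i j)) x
  rL0 : ∀ j, RD (cf 0 (Λ j)) ∧ ∀ x ∈ cube n, Λ j x = Es 0 (cf 0 (Λ j)) x
  rL1 : ∀ j, RD (cf (th0 i₀) (Λ j)) ∧
    ∀ x ∈ cube n, Λ j x = Es (th0 i₀) (cf (th0 i₀) (Λ j)) x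
  rM0 : ∀ j, RD (cf 0 (Λ₀ j)) ∧ ∀ x ∈ cube n, Λ₀ j x = Es 0 (cf 0 (Λ₀ j)) x
  rM1 : ∀ j, RD (cf (th0 i₀) (Λ₀ j)) ∧
    ∀ x ∈ cube n, Λ₀ j x = Es (th0 i₀) (cf (th0 i₀) (Λ₀ j)) x
  n0 : ∀ j, nm N (cf 0 (Λ₀ j)) ≤ C3 * b
  n1 : ∀ j, nm N (cf (th0 i₀) (Λ₀ j)) ≤ C3 * b
  rνd : ∀ j, RD fun k => cf 0 (Λ j) k - cf 0 (Λ₀ j) k
  rμd : ∀ j, RD fun k => cf (th0 i₀) (Λ j) k - cf (th0 i₀) (Λ₀ j) k
  nH : ∀ i j, nm 0 (cf 0 (H i j)) ≤ A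
  nH1 : ∀ i j, nm 0 (cf (th0 i₀) (H i j)) ≤ C4 * A
  nν : ∀ j, nm 0 (cf 0 (Λ j)) ≤ C3 * b + A
  nνd : ∀ j, nm 0 (fun k => cf 0 (Λ j) k - cf 0 (Λ₀ j) k) ≤ A
  nμd : ∀ j, nm 0 (fun k => cf (th0 i₀) (Λ j) k - cf (th0 i₀) (Λ₀ j) k) ≤ C4 * A
  ry₀ : ∀ i, RD (y₀ i)
  ey₀ : ∀ i k, y₀ i k = -(lmz i₀ z k i / (∑ j, lmz i₀ z k j ^ 2) *
    ∑ j, (z j * cf (th0 i₀) (Λ₀ j) k + cv (cf 0 (Λ₀ j)) (y₀ j) k))
  ny₀ : ∀ i, nm N (y₀ i) ≤ C * X * b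
  my₀ : ∀ i, nm 0 (y₀ i) ≤ X
  rr : ∀ i, RD (r i)
  er : ∀ i k, y₀ i k + r i k = -(lmz i₀ z k i / (∑ j, lmz i₀ z k j ^ 2) *
    RH (lmz i₀ z) z (fun i j => cf 0 (H i j)) (fun i j => cf (th0 i₀) (H i j))
      (fun j => cf 0 (Λ j)) (fun j => cf (th0 i₀) (Λ j)) (fun i k => y₀ i k + r i k) k)
  nr' : ∀ i, nm 0 (r i) ≤ C * X ^ 2 * A

theorem coefs (hS : RowSYM) (hA2 : RowA2) (hNEU : RowNEU) {N : ℕ} {C3 C4 C : ℝ}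
    (hC3 : 0 < C3) (hC4 : 0 < C4)
    (h3 : ∀ (f : V n → ℂ), ContDiff ℝ ∞ f → tsupport f ⊆ cube n → ∀ θ : V n,
      (∀ j, |θ j| ≤ 1) → RD (cf θ f) ∧ (∀ x ∈ cube n, f x = Es θ (cf θ f) x) ∧
      ∀ B, Cl (N + n + 1) B f → nm N (cf θ f) ≤ C3 * B)
    (h4 : ∀ (f : V n → ℂ), ContDiff ℝ ∞ f → (∀ x ∉ core n, f x = 0) → ∀ θ : V n,
      (∀ j, |θ j| ≤ 1) → nm 0 (cf θ f) ≤ C4 * nm 0 (cf 0 f))
    (hC : C = 12 * ((n : ℝ) ^ 3 + n ^ 2) + 12 * Real.pi * n ^ 2 * C3 +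
      6 * n * ((n : ℝ) ^ 2 + n) * (2 * Real.pi * C4 + 1) + 1)
    {i₀ : Fin n} {e : ℝ} {ξ : V n} (he : e = 1 ∨ e = -1) (h0 : ξ i₀ = 0) (hX : 1 ≤ nr ξ)
    {H : Fin n → Fin n → V n → ℂ} {Λ₀ Λ : Fin n → V n → ℂ}
    (sH : ∀ i j, ContDiff ℝ ∞ (H i j)) (sΛ₀ : ∀ j, ContDiff ℝ ∞ (Λ₀ j))
    (sΛ : ∀ j, ContDiff ℝ ∞ (Λ j)) (zH : ∀ i j, ∀ x ∉ core n, H i j x = 0)
    (zΛ₀ : ∀ j, ∀ x ∉ core n, Λ₀ j x = 0) (zΛ : ∀ j, ∀ x ∉ core n, Λ j x = 0) {b A : ℝ}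
    (hb : ∀ j, Cl (N + n + 1) b (Λ₀ j)) (hAH : ∀ i j, nm 0 (cf 0 (H i j)) ≤ A)
    (hAΛ : ∀ j, nm 0 (cf 0 (fun x => Λ j x - Λ₀ j x)) ≤ A) (hCb : C * b ≤ 1)
    (hCA : C * nr ξ * A ≤ 1) :
    ∃ y₀ r, Dt N i₀ (nr ξ) C C3 C4 b A (zs e i₀ ξ) H Λ₀ Λ y₀ r := by
  have hpi := Real.pi_gt_three
  obtain ⟨hz, hzn, -⟩ := hS i₀ e ξ he h0 hX
  have S := sy_of hS he h0 hX
  have hθ := th0_le i₀
  have h00 : ∀ j : Fin n, |(0 : V n) j| ≤ 1 := by simp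
  have hb0 : 0 ≤ b := (norm_nonneg _).trans (hb i₀ 0 (Nat.zero_le _) 0)
  have hA0 : 0 ≤ A := (nmm_nonneg 0 _).trans (hAH i₀ i₀)
  have hX0 : 0 ≤ nr ξ := by linarith
  obtain ⟨ar1, ar2, ar3, ar4⟩ := arith1 (Nat.cast_nonneg n) hC3.le hC4.le hpi.le hC hb0 hA0 hX
    hCb hCA
  have a3 : ∀ (f : V n → ℂ), ContDiff ℝ ∞ f → (∀ x ∉ core n, f x = 0) → ∀ t : V n,
      (∀ j, |t j| ≤ 1) → RD (cf t f) ∧ ∀ x ∈ cube n, f x = Es t (cf t f) x := by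
    intro f hf hf0 t ht
    have := h3 f hf (tsup hf0) t ht
    exact ⟨this.1, this.2.1⟩
  have rH0 := fun i j => a3 (H i j) (sH i j) (zH i j) 0 h00
  have rH1 := fun i j => a3 (H i j) (sH i j) (zH i j) (th0 i₀) hθ
  have rΛ0 := fun j => a3 (Λ j) (sΛ j) (zΛ j) 0 h00
  have rΛ1 := fun j => a3 (Λ j) (sΛ j) (zΛ j) (th0 i₀) hθ
  have rΛ₀0 := fun j => a3 (Λ₀ j) (sΛ₀ j) (zΛ₀ j) 0 h00
  have rΛ₀1 := fun j => a3 (Λ₀ j) (sΛ₀ j) (zΛ₀ j) (th0 i₀) hθ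
  have n0 : ∀ j, nm N (cf 0 (Λ₀ j)) ≤ C3 * b := fun j =>
    (h3 (Λ₀ j) (sΛ₀ j) (tsup (zΛ₀ j)) 0 h00).2.2 b (hb j)
  have n1 : ∀ j, nm N (cf (th0 i₀) (Λ₀ j)) ≤ C3 * b := fun j =>
    (h3 (Λ₀ j) (sΛ₀ j) (tsup (zΛ₀ j)) (th0 i₀) hθ).2.2 b (hb j)
  obtain ⟨y₀, ry₀, ey₀, ny₀⟩ := first hA2 hNEU S hzn (fun j => cf 0 (Λ₀ j))
    (fun j => cf (th0 i₀) (Λ₀ j)) (fun j => (rΛ₀0 j).1) (fun j => (rΛ₀1 j).1) N (C3 * b) n0 n1 ar1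
  have hy₀X : ∀ i, nm N (y₀ i) ≤ C * nr ξ * b := fun i => (ny₀ i).trans ar2
  have hy₀1 : ∀ i, nm 0 (y₀ i) ≤ nr ξ := by
    intro i
    refine (nm_le_nmm (ry₀ i) N).trans ((hy₀X i).trans ?_)
    nlinarith
  have sd : ∀ j, ContDiff ℝ ∞ fun x => Λ j x - Λ₀ j x := fun j => (sΛ j).sub (sΛ₀ j)
  have zd : ∀ j, ∀ x ∉ core n, Λ j x - Λ₀ j x = 0 := fun j x hx => by
    rw [zΛ j x hx, zΛ₀ j x hx, sub_zero]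
  have eνd : ∀ j, (fun k => cf 0 (Λ j) k - cf 0 (Λ₀ j) k) = cf 0 (fun x => Λ j x - Λ₀ j x) :=
    fun j => by
      funext k
      rw [cf_sub (sΛ j) (zΛ j) (sΛ₀ j) (zΛ₀ j)]
  have eμd : ∀ j, (fun k => cf (th0 i₀) (Λ j) k - cf (th0 i₀) (Λ₀ j) k) =
      cf (th0 i₀) (fun x => Λ j x - Λ₀ j x) := fun j => by
    funext k
    rw [cf_sub (sΛ j) (zΛ j) (sΛ₀ j) (zΛ₀ j)]
  have rνd : ∀ j, RD fun k => cf 0 (Λ j) k - cf 0 (Λ₀ j) k := fun j => by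
    rw [eνd j]
    exact (a3 _ (sd j) (zd j) 0 h00).1
  have rμd : ∀ j, RD fun k => cf (th0 i₀) (Λ j) k - cf (th0 i₀) (Λ₀ j) k := fun j => by
    rw [eμd j]
    exact (a3 _ (sd j) (zd j) (th0 i₀) hθ).1
  have nνd : ∀ j, nm 0 (fun k => cf 0 (Λ j) k - cf 0 (Λ₀ j) k) ≤ A := fun j => by
    rw [eνd j]
    exact hAΛ j
  have nμd : ∀ j, nm 0 (fun k => cf (th0 i₀) (Λ j) k - cf (th0 i₀) (Λ₀ j) k) ≤ C4 * A :=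
    fun j => by
      rw [eμd j]
      exact (h4 _ (sd j) (zd j) (th0 i₀) hθ).trans (mul_le_mul_of_nonneg_left (hAΛ j) hC4.le)
  have nH1 : ∀ i j, nm 0 (cf (th0 i₀) (H i j)) ≤ C4 * A := fun i j =>
    (h4 _ (sH i j) (zH i j) (th0 i₀) hθ).trans (mul_le_mul_of_nonneg_left (hAH i j) hC4.le)
  have nν : ∀ j, nm 0 (cf 0 (Λ j)) ≤ C3 * b + A := by
    intro j
    have h5 := nm_add_le (rΛ₀0 j).1 (rνd j)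
    have h6 : (fun k => cf 0 (Λ₀ j) k + (cf 0 (Λ j) k - cf 0 (Λ₀ j) k)) = cf 0 (Λ j) := by
      funext k
      ring
    rw [h6] at h5
    have h7 := nm_le_nmm (rΛ₀0 j).1 N
    have h8 := n0 j
    have h9 := nνd j
    linarith
  obtain ⟨r, rr, er, nr'⟩ := second hA2 hNEU S hzn (fun i j => cf 0 (H i j))
    (fun i j => cf (th0 i₀) (H i j)) (fun j => cf 0 (Λ j)) (fun j => cf (th0 i₀) (Λ j))
    (fun j => cf 0 (Λ₀ j)) (fun j => cf (th0 i₀) (Λ₀ j)) (fun i j => (rH0 i j).1)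
    (fun i j => (rH1 i j).1) (fun j => (rΛ0 j).1) (fun j => (rΛ₀0 j).1) rνd rμd y₀ ry₀ ey₀
    A (C3 * b + A) (C4 * A) hA0 hAH nν nH1 nνd nμd hy₀1 ar3
  exact ⟨y₀, r, rH0, rH1, rΛ0, rΛ1, rΛ₀0, rΛ₀1, n0, n1, rνd, rμd, hAH, nH1, nν, nνd, nμd, ry₀,
    ey₀, hy₀X, hy₀1, rr, er, fun i => (nr' i).trans ar4⟩

/-- bound of `c₀` -/
theorem fin_c0 (hA2 : RowA2) {N : ℕ} {i₀ : Fin n} {X C C3 C4 b A : ℝ} {z : Fin n → ℂ}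
    {H : Fin n → Fin n → V n → ℂ} {Λ₀ Λ : Fin n → V n → ℂ} {y₀ r : Fin n → Ix n → ℂ}
    (S : Sy X (lmz i₀ z) (fun k => ∑ j, lmz i₀ z k j ^ 2))
    (hpX : ∀ k, X ≤ ‖∑ j, lmz i₀ z k j ^ 2‖) (hzn : ∀ j, ‖z j‖ ≤ 2 * Real.pi * X)
    (hb : 0 ≤ C3 * b) (D : Dt N i₀ X C C3 C4 b A z H Λ₀ Λ y₀ r) :
    nm N (cc (lmz i₀ z) (fun k => ∑ j, lmz i₀ z k j ^ 2) z (fun _ _ _ => 0) (fun _ _ _ => 0)
      (fun j => cf 0 (Λ₀ j)) (fun j => cf (th0 i₀) (Λ₀ j)) y₀) ≤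
      2 * Real.pi * (n * (C3 * b)) + 1 / X * (n * ((C3 * b) * (C * X * b))) := by
  refine c0_bd S hpX hzn (fun j => cf (th0 i₀) (Λ₀ j)) (fun j => cv (cf 0 (Λ₀ j)) (y₀ j))
    (fun j => (D.rM1 j).1) (fun j => (hA2 0 0 _ _ (D.rM0 j).1 (D.ry₀ j)).1) N _ _ D.n1
    (fun j => ((hA2 0 0 _ _ (D.rM0 j).1 (D.ry₀ j)).2.2.2 N).trans
      (mul_le_mul (D.n0 j) (D.ny₀ j) (nmm_nonneg N _) hb)) (fun k => ?_)
  rw [cc]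
  unfold RH
  simp only [cv_zero_left, mul_zero, add_zero, Finset.sum_const_zero, zero_add]

/-- bound of `c - c₀` -/
theorem fin_cd (hA2 : RowA2) {N : ℕ} {i₀ : Fin n} {X C C3 C4 b A : ℝ} {z : Fin n → ℂ}
    {H : Fin n → Fin n → V n → ℂ} {Λ₀ Λ : Fin n → V n → ℂ} {y₀ r : Fin n → Ix n → ℂ}
    (S : Sy X (lmz i₀ z) (fun k => ∑ j, lmz i₀ z k j ^ 2))
    (hpX : ∀ k, X ≤ ‖∑ j, lmz i₀ z k j ^ 2‖) (hzn : ∀ j, ‖z j‖ ≤ 2 * Real.pi * X)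
    (hA : 0 ≤ A) (hb : 0 ≤ C3 * b) (hR : C * X ^ 2 * A ≤ X)
    (D : Dt N i₀ X C C3 C4 b A z H Λ₀ Λ y₀ r) :
    nm 0 (fun k => cc (lmz i₀ z) (fun k => ∑ j, lmz i₀ z k j ^ 2) z (fun i j => cf 0 (H i j))
      (fun i j => cf (th0 i₀) (H i j)) (fun j => cf 0 (Λ j)) (fun j => cf (th0 i₀) (Λ j))
      (fun i k => y₀ i k + r i k) k -
      cc (lmz i₀ z) (fun k => ∑ j, lmz i₀ z k j ^ 2) z (fun _ _ _ => 0) (fun _ _ _ => 0)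
      (fun j => cf 0 (Λ₀ j)) (fun j => cf (th0 i₀) (Λ₀ j)) y₀ k) ≤
      3 * (2 * Real.pi * X) * (n * n * (C4 * A)) + 3 * (n * n * (A * (2 * X))) +
      2 * Real.pi * (n * (C4 * A)) +
      1 / X * (n * ((C3 * b + A) * (C * X ^ 2 * A) + A * X)) := by
  have hX0 : 0 ≤ X := by linarith [S.hX]
  have hy : ∀ j, RD fun k => y₀ j k + r j k := fun j => rd_add (D.ry₀ j) (D.rr j)
  have rQ : ∀ j, RD fun k => cv (cf 0 (Λ j)) (r j) k +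
      cv (fun k => cf 0 (Λ j) k - cf 0 (Λ₀ j) k) (y₀ j) k := fun j =>
    rd_add (hA2 0 0 _ _ (D.rL0 j).1 (D.rr j)).1 (hA2 0 0 _ _ (D.rνd j) (D.ry₀ j)).1
  refine cd_bd S hpX hzn (fun m j => cf (th0 i₀) (H m j))
    (fun m j => cv (cf 0 (H m j)) (fun k => y₀ j k + r j k))
    (fun j k => cf (th0 i₀) (Λ j) k - cf (th0 i₀) (Λ₀ j) k)
    (fun j k => cv (cf 0 (Λ j)) (r j) k +
      cv (fun k => cf 0 (Λ j) k - cf 0 (Λ₀ j) k) (y₀ j) k)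
    (fun m j => (D.rH1 m j).1) (fun m j => (hA2 0 0 _ _ (D.rH0 m j).1 (hy j)).1) D.rμd rQ
    _ _ _ D.nH1 (fun m j => ?_) D.nμd (fun j => ?_) (fun k => ?_)
  · refine ((hA2 0 0 _ _ (D.rH0 m j).1 (hy j)).2.2.2 0).trans
      (mul_le_mul (D.nH m j) ?_ (nmm_nonneg 0 _) hA)
    have h1 := nm_add_le (D.ry₀ j) (D.rr j)
    have h2 := D.my₀ j
    have h3 := D.nr' j
    linarith
  · refine (nm_add_le (hA2 0 0 _ _ (D.rL0 j).1 (D.rr j)).1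
      (hA2 0 0 _ _ (D.rνd j) (D.ry₀ j)).1).trans (add_le_add ?_ ?_)
    · exact ((hA2 0 0 _ _ (D.rL0 j).1 (D.rr j)).2.2.2 0).trans
        (mul_le_mul (D.nν j) (D.nr' j) (nmm_nonneg 0 _) (by linarith))
    · exact ((hA2 0 0 _ _ (D.rνd j) (D.ry₀ j)).2.2.2 0).trans
        (mul_le_mul (D.nνd j) (D.my₀ j) (nmm_nonneg 0 _) hA)
  · have c2 : ∀ j, cv (cf 0 (Λ j)) (fun k => y₀ j k + r j k) k =
        cv (cf 0 (Λ j)) (y₀ j) k + cv (cf 0 (Λ j)) (r j) k := fun j =>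
      cv_add hA2 (D.rL0 j).1 (D.ry₀ j) (D.rr j) k
    have c3 : ∀ j, cv (fun k => cf 0 (Λ j) k - cf 0 (Λ₀ j) k) (y₀ j) k =
        cv (cf 0 (Λ j)) (y₀ j) k - cv (cf 0 (Λ₀ j)) (y₀ j) k :=
      fun j => cv_sub_left hA2 (D.rL0 j).1 (D.rM0 j).1 (D.ry₀ j) k
    rw [cc, cc]
    unfold RH
    simp only [cv_zero_left, mul_zero, add_zero, Finset.sum_const_zero, zero_add]
    rw [← sub_div]
    congr 1
    have d2 : ∑ j, (z j * cf (th0 i₀) (Λ j) k + cv (cf 0 (Λ j)) (fun k => y₀ j k + r j k) k) =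
        ∑ j, (z j * cf (th0 i₀) (Λ₀ j) k + cv (cf 0 (Λ₀ j)) (y₀ j) k) +
        ∑ j, (z j * (cf (th0 i₀) (Λ j) k - cf (th0 i₀) (Λ₀ j) k) + (cv (cf 0 (Λ j)) (r j) k +
          cv (fun k => cf 0 (Λ j) k - cf 0 (Λ₀ j) k) (y₀ j) k)) := by
      rw [← Finset.sum_add_distrib]
      exact Finset.sum_congr rfl fun j _ => by rw [c2 j, c3 j]; ring
    rw [d2]
    ring

/-- (J_CGO). -/
theorem cgj (hS : RowSYM) (hA1 : RowA1) (hA2 : RowA2) (hA3 : RowA3) (hA4 : RowA4)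
    (hNEU : RowNEU) : RowCGJ := by
  intro n N
  obtain ⟨C3, hC3, h3⟩ := hA3 n N
  obtain ⟨C4, hC4, h4⟩ := hA4 n
  have hpi := Real.pi_gt_three
  have hn0 : (0 : ℝ) ≤ n := Nat.cast_nonneg n
  set C : ℝ := 12 * ((n : ℝ) ^ 3 + n ^ 2) + 12 * Real.pi * n ^ 2 * C3 +
    6 * n * ((n : ℝ) ^ 2 + n) * (2 * Real.pi * C4 + 1) + 1 with hC
  have hC0 : 0 < C := by rw [hC]; positivity
  set C' : ℝ := C + (C3 + 1 + n * C3 * (2 * Real.pi + 1) + (6 * Real.pi * n ^ 2 * C4 +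
    6 * n ^ 2 + 2 * Real.pi * n * C4 + 2 * n * C + n)) with hC'
  have hCC : C ≤ C' := by
    have : 0 ≤ C3 + 1 + n * C3 * (2 * Real.pi + 1) + (6 * Real.pi * n ^ 2 * C4 +
      6 * n ^ 2 + 2 * Real.pi * n * C4 + 2 * n * C + n) := by positivity
    rw [hC']; linarith
  refine ⟨C', by linarith, ?_⟩
  intro i₀ e ξ he h0 hX H Λ₀ Λ sH sΛ₀ sΛ zH zΛ₀ zΛ b A hb hAH hAΛ hCb hCA
  obtain ⟨hz, hzn, hsy⟩ := hS i₀ e ξ he h0 hX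
  have S := sy_of hS he h0 hX
  have hpX : ∀ k, nr ξ ≤ ‖∑ j, lmz i₀ (zs e i₀ ξ) k j ^ 2‖ := fun k => (hsy k).1
  have hb0 : 0 ≤ b := (norm_nonneg _).trans (hb i₀ 0 (Nat.zero_le _) 0)
  have hA0 : 0 ≤ A := (nmm_nonneg 0 _).trans (hAH i₀ i₀)
  have hX0 : 0 ≤ nr ξ := by linarith
  obtain ⟨ar1, ar2, ar3, ar4⟩ := arith2 hn0 hC3.le hC4.le hpi.le hC0.le hb0 hA0 hX hCb hCA
  obtain ⟨y₀, r, D⟩ := coefs hS hA2 hNEU hC3 hC4 h3 h4 hC he h0 hX sH sΛ₀ sΛ zH zΛ₀ zΛ hb hAH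
    hAΛ ar1 ar2
  have hL' : ∀ k j, lmz i₀ (zs e i₀ ξ) k j =
      2 * Real.pi * Complex.I * ((fr (th0 i₀) k j : ℝ) : ℂ) + zs e i₀ ξ j := fun k j => rfl
  have s1 := sol_closeJ hA1 hA2 hz (th0 i₀) S hL' (fun _ _ _ => 0) Λ₀ (fun _ _ _ => 0)
    (fun _ _ _ => 0) (fun j => cf 0 (Λ₀ j)) (fun j => cf (th0 i₀) (Λ₀ j)) (fun _ _ => rd_zero)
    (fun _ _ => rd_zero) (fun j => (D.rM0 j).1) (fun j => (D.rM1 j).1)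
    (fun _ _ x _ => (Es_zero 0 x).symm) (fun _ _ x _ => (Es_zero (th0 i₀) x).symm)
    (fun j => (D.rM0 j).2) (fun j => (D.rM1 j).2) y₀ D.ry₀ (by
      intro i k
      rw [D.ey₀ i k]
      unfold RH
      simp only [cv_zero_left, mul_zero, add_zero, Finset.sum_const_zero, zero_add])
  have s2 := sol_closeJ hA1 hA2 hz (th0 i₀) S hL' H Λ (fun i j => cf 0 (H i j))
    (fun i j => cf (th0 i₀) (H i j)) (fun j => cf 0 (Λ j)) (fun j => cf (th0 i₀) (Λ j))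
    (fun i j => (D.rH0 i j).1) (fun i j => (D.rH1 i j).1) (fun j => (D.rL0 j).1)
    (fun j => (D.rL1 j).1) (fun i j => (D.rH0 i j).2) (fun i j => (D.rH1 i j).2)
    (fun j => (D.rL0 j).2) (fun j => (D.rL1 j).2) (fun i k => y₀ i k + r i k)
    (fun i => rd_add (D.ry₀ i) (D.rr i)) D.er
  have hR : C * nr ξ ^ 2 * A ≤ nr ξ := by
    have := mul_le_mul_of_nonneg_left ar2 hX0
    calc C * nr ξ ^ 2 * A = nr ξ * (C * nr ξ * A) := by ring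
      _ ≤ nr ξ * 1 := this
      _ = _ := mul_one _
  refine ⟨y₀, fun i k => y₀ i k + r i k, _, _, _, _, s1, s2, fun i => ?_, fun i => ?_, ?_, ?_⟩
  · refine (D.ny₀ i).trans ?_
    exact mul_le_mul_of_nonneg_right (mul_le_mul_of_nonneg_right hCC hX0) hb0
  · have : (fun k => y₀ i k + r i k - y₀ i k) = r i := by
      funext k
      ring
    rw [this]
    refine (D.nr' i).trans ?_
    exact mul_le_mul_of_nonneg_right (mul_le_mul_of_nonneg_right hCC (by positivity)) hA0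
  · exact (fin_c0 hA2 S hpX hzn (by positivity) D).trans ar3
  · exact (fin_cd hA2 S hpX hzn hA0 (by positivity) hR D).trans ar4

end Vale.Agent.P088.LR.CF.H393
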