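import Vale.Agent.P088.H393.CGMDefs
import Vale.Agent.P088.H393.CGJFin

/-!
# P088, stage J, row CGM (1): Neumann series with general index sets
-/

open MeasureTheory Set
open scoped ContDiff Matrix

noncomputable section

namespace Vale.Agent.P088.LR.CF.H393

open Vale.Agent.P088.LR Vale.Agent.P088.LR.CF
open Vale.Agent.P088.LR.H393

variable {n N : ℕ}

/-- Neumann series over any finite index type. -/
theorem neu_fin (hNEU : RowNEU) {ι : Type} [Fintype ι] (M : Ix n → Ix n → ι → ι → ℂ)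
    (γ : Ix n → ℝ) (b : Ix n → ι → ℂ) (hγ : ∀ m : ℕ, Summable fun k => wt k ^ m * γ k)
    (h0 : ∀ k, 0 ≤ γ k) (hM : ∀ k l i, ∑ j, ‖M k l j i‖ ≤ γ (k - l))
    (hb : ∀ i, RD fun k => b k i) (m₀ : ℕ) (hs : ∑' k, wt k ^ m₀ * γ k ≤ 1 / 2) :
    ∃ y : Ix n → ι → ℂ, (∀ i, RD fun k => y k i) ∧
      (∀ k i, y k i = b k i + ∑' l, ∑ j, M k l i j * y l j) ∧
      ∀ m ≤ m₀, (∑ i, nm m fun k => y k i) ≤ 2 * ∑ i, nm m fun k => b k i := by
  set e := Fintype.equivFin ι with he
  obtain ⟨y, hy1, hy2, hy3⟩ := hNEU (fun k l p q => M k l (e.symm p) (e.symm q)) γ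
    (fun k p => b k (e.symm p)) hγ h0 (fun k l p => by
      have := hM k l (e.symm p)
      rw [← e.symm.sum_comp] at this
      exact this) (fun p => hb (e.symm p)) m₀ hs
  refine ⟨fun k i => y k (e i), fun i => hy1 (e i), fun k i => ?_, fun m hm => ?_⟩
  · change y k (e i) = b k i + ∑' l, ∑ j, M k l i j * y l (e j)
    rw [hy2 k (e i)]
    simp only [e.symm_apply_apply]
    congr 1
    refine tsum_congr fun l => ?_
    rw [← e.symm.sum_comp]
    exact Finset.sum_congr rfl fun p _ => by rw [e.apply_symm_apply]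
  · have h1 := hy3 m hm
    rw [← e.symm.sum_comp (fun i => nm m fun k => y k (e i)),
      ← e.symm.sum_comp (fun i => nm m fun k => b k i)]
    simp only [e.apply_symm_apply]
    exact h1

/-- Solution of `r_q = s_q + ∑_t m_{q,t} (f_t * r_{π t})`. -/
theorem neu_gen (hA2 : RowA2) (hNEU : RowNEU) {ι τ : Type} [Fintype ι] [Fintype τ]
    [DecidableEq ι] (mm : ι → τ → Ix n → ℂ) (f : τ → Ix n → ℂ) (π : τ → ι) (B : τ → ℝ)
    (hm : ∀ q t k, ‖mm q t k‖ ≤ B t) (hB : ∀ t, 0 ≤ B t) (hf : ∀ t, RD (f t)) (m₀ : ℕ)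
    (hs : Fintype.card ι * ∑ t, B t * nm m₀ (f t) ≤ 1 / 2)
    (s : ι → Ix n → ℂ) (hsR : ∀ q, RD (s q)) :
    ∃ r : ι → Ix n → ℂ, (∀ q, RD (r q)) ∧
      (∀ q k, r q k = s q k + ∑ t, mm q t k * cv (f t) (r (π t)) k) ∧
      ∑ q, nm m₀ (r q) ≤ 2 * ∑ q, nm m₀ (s q) := by
  set M : Ix n → Ix n → ι → ι → ℂ := fun k l q q' =>
    ∑ t, if π t = q' then mm q t k * f t (k - l) else 0 with hM
  set γ : Ix n → ℝ := fun k => Fintype.card ι * ∑ t, B t * ‖f t k‖ with hγ
  have hwγ : ∀ (m : ℕ) (k : Ix n), wt k ^ m * γ k =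
      Fintype.card ι * ∑ t, B t * (wt k ^ m * ‖f t k‖) := by
    intro m k
    simp only [hγ, Finset.mul_sum]
    exact Finset.sum_congr rfl fun j _ => by ring
  have sf : ∀ m : ℕ, Summable fun k => ∑ t, B t * (wt k ^ m * ‖f t k‖) := fun m =>
    summable_sum fun t _ => (hf t m).mul_left _
  obtain ⟨Y, hYRD, hYeq, hYnm⟩ := neu_fin hNEU M γ (fun k q => s q k)
    (by
      intro m
      simp_rw [hwγ m]
      exact (sf m).mul_left _)
    (by
      intro k
      simp only [hγ]
      refine mul_nonneg (Nat.cast_nonneg _) (Finset.sum_nonneg fun t _ => ?_)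
      exact mul_nonneg (hB t) (norm_nonneg _))
    (by
      intro k l q'
      have h1 : ∀ q, ‖M k l q q'‖ ≤ ∑ t, B t * ‖f t (k - l)‖ := by
        intro q
        simp only [hM]
        refine (norm_sum_le _ _).trans (Finset.sum_le_sum fun t _ => ?_)
        split_ifs
        · rw [norm_mul]
          exact mul_le_mul_of_nonneg_right (hm q t k) (norm_nonneg _)
        · rw [norm_zero]
          exact mul_nonneg (hB t) (norm_nonneg _)
      refine (Finset.sum_le_sum fun q _ => h1 q).trans (le_of_eq ?_)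
      rw [Finset.sum_const, Finset.card_univ, nsmul_eq_mul])
    hsR m₀
    (by
      simp_rw [hwγ m₀]
      rw [tsum_mul_left, Summable.tsum_finsetSum (fun t _ => (hf t m₀).mul_left _)]
      simp_rw [tsum_mul_left]
      exact hs)
  refine ⟨fun q k => Y k q, hYRD, ?_, hYnm m₀ le_rfl⟩
  intro q k
  change Y k q = s q k + ∑ t, mm q t k * cv (f t) (fun k => Y k (π t)) k
  rw [hYeq k q]
  congr 1
  have sm : ∀ t, Summable fun l => f t (k - l) * Y l (π t) := fun t =>
    (hA2 0 0 (f t) (fun k => Y k (π t)) (hf t) (hYRD (π t))).2.1 k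
  have h2 : ∀ l, ∑ q', M k l q q' * Y l q' = ∑ t, mm q t k * (f t (k - l) * Y l (π t)) := by
    intro l
    simp only [hM, Finset.sum_mul]
    rw [Finset.sum_comm]
    refine Finset.sum_congr rfl fun t _ => ?_
    rw [Finset.sum_eq_single (π t)]
    · rw [if_pos rfl]
      ring
    · intro q' _ hq'
      rw [if_neg (Ne.symm hq'), zero_mul]
    · intro h
      exact absurd (Finset.mem_univ _) h
  simp_rw [h2]
  rw [Summable.tsum_finsetSum (fun t _ => (sm t).mul_left _)]
  refine Finset.sum_congr rfl fun t _ => ?_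
  rw [tsum_mul_left]
  rfl

/-- leading vector -/
def zt (z : Fin n → ℂ) (β : Fin N) (J : Fin n × Fin N) : ℂ := if J.2 = β then z J.1 else 0

theorem zt_le {z : Fin n → ℂ} {β : Fin N} {R : ℝ} (hR : 0 ≤ R) (hz : ∀ j, ‖z j‖ ≤ R)
    (J : Fin n × Fin N) : ‖zt z β J‖ ≤ R := by
  unfold zt
  split_ifs
  · exact hz _
  · rw [norm_zero]
    exact hR

/-- Right-hand side for one component: `G` and `M` are the coefficients with shift, `K` and `Q`
the convolutions. -/
def RG {κ : Type} [Fintype κ] (L : Ix n → Fin n → ℂ) (w : κ → ℂ) (G K : Fin n → κ → Ix n → ℂ)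
    (M Q : κ → Ix n → ℂ) (k : Ix n) : ℂ :=
  ∑ m, L k m * ∑ J, (w J * G m J k + K m J k) + ∑ J, (w J * M J k + Q J k)

theorem vec_neu (hA2 : RowA2) (hNEU : RowNEU) {X : ℝ} {L : Ix n → Fin n → ℂ} {p : Ix n → ℂ}
    (S : Sy X L p) (h : Fin n → Fin n → Fin N → Fin N → Ix n → ℂ)
    (ν : Fin n → Fin N → Fin N → Ix n → ℂ)
    (hh : ∀ i j a b, RD (h i j a b)) (hν : ∀ j a b, RD (ν j a b)) (m₀ : ℕ) (A B : ℝ)
    (nh : ∀ i j a b, nm m₀ (h i j a b) ≤ A) (nν : ∀ j a b, nm m₀ (ν j a b) ≤ B)
    (hs : (n * N : ℝ) * (3 * X * (n * n * N * N * A) + 3 * (n * N * N * B)) ≤ 1 / 2)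
    (s : Fin n → Fin N → Ix n → ℂ) (hsR : ∀ i a, RD (s i a)) :
    ∃ r : Fin n → Fin N → Ix n → ℂ, (∀ i a, RD (r i a)) ∧
      (∀ i a k, r i a k = s i a k - L k i / p k *
        (∑ m, L k m * ∑ J : Fin n × Fin N, cv (h m J.1 a J.2) (r J.1 J.2) k +
          ∑ J : Fin n × Fin N, cv (ν J.1 a J.2) (r J.1 J.2) k)) ∧
      ∀ C, (∀ i a, nm m₀ (s i a) ≤ C) → ∀ i a, nm m₀ (r i a) ≤ 2 * (n * N * C) := by
  have hX0 : 0 ≤ X := by linarith [S.hX]
  have c1 : ((Fintype.card (Fin n × Fin N) : ℕ) : ℝ) = n * N := by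
    rw [Fintype.card_prod, Fintype.card_fin, Fintype.card_fin]
    push_cast
    ring
  obtain ⟨r, r1, r2, r3⟩ := neu_gen hA2 hNEU (ι := Fin n × Fin N)
    (τ := (Fin n × Fin n × Fin N × Fin N) ⊕ (Fin n × Fin N × Fin N))
    (fun q t k => Sum.elim (fun u => if u.2.2.1 = q.2 then -(L k q.1 / p k * L k u.1) else 0)
      (fun u => if u.2.1 = q.2 then -(L k q.1 / p k) else 0) t)
    (Sum.elim (fun u => h u.1 u.2.1 u.2.2.1 u.2.2.2) fun u => ν u.1 u.2.1 u.2.2)
    (Sum.elim (fun u => (u.2.1, u.2.2.2)) fun u => (u.1, u.2.2))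
    (Sum.elim (fun _ => 3 * X) fun _ => 3)
    (by
      rintro q (u | u) k
      · simp only [Sum.elim_inl]
        split_ifs
        · rw [norm_neg]
          exact S.h3 k q.1 u.1
        · rw [norm_zero]
          positivity
      · simp only [Sum.elim_inr]
        split_ifs
        · rw [norm_neg]
          exact S.h2 k q.1
        · rw [norm_zero]
          norm_num)
    (by
      rintro (u | u)
      · simp only [Sum.elim_inl]
        positivity
      · simp only [Sum.elim_inr]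
        norm_num)
    (by
      rintro (u | u)
      · exact hh _ _ _ _
      · exact hν _ _ _)
    m₀
    (by
      rw [c1, Fintype.sum_sum_type]
      simp only [Sum.elim_inl, Sum.elim_inr]
      rw [← Finset.mul_sum, ← Finset.mul_sum]
      refine le_trans ?_ hs
      refine mul_le_mul_of_nonneg_left (add_le_add ?_ ?_) (by positivity)
      · refine mul_le_mul_of_nonneg_left ?_ (by positivity)
        have h5 := sum_le_const (ι := Fin n × Fin n × Fin N × Fin N)
          (fun u => nh u.1 u.2.1 u.2.2.1 u.2.2.2)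
        simp only [Fintype.card_prod, Fintype.card_fin] at h5
        push_cast at h5
        linarith
      · refine mul_le_mul_of_nonneg_left ?_ (by norm_num)
        have h5 := sum_le_const (ι := Fin n × Fin N × Fin N)
          (fun u => nν u.1 u.2.1 u.2.2)
        simp only [Fintype.card_prod, Fintype.card_fin] at h5
        push_cast at h5
        linarith)
    (fun q => s q.1 q.2) (fun q => hsR q.1 q.2)
  refine ⟨fun i a => r (i, a), fun i a => r1 (i, a), fun i a k => ?_, fun C hC i a => ?_⟩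
  · change r (i, a) k = _
    rw [r2 (i, a) k, Fintype.sum_sum_type, sub_eq_add_neg]
    congr 1
    simp only [Sum.elim_inl, Sum.elim_inr]
    have e1 : ∑ u : Fin n × Fin n × Fin N × Fin N,
        (if u.2.2.1 = a then -(L k i / p k * L k u.1) else 0) *
          cv (h u.1 u.2.1 u.2.2.1 u.2.2.2) (r (u.2.1, u.2.2.2)) k =
        -(L k i / p k * ∑ m, L k m * ∑ J : Fin n × Fin N,
          cv (h m J.1 a J.2) (r (J.1, J.2)) k) := by
      rw [Fintype.sum_prod_type, Finset.mul_sum, ← Finset.sum_neg_distrib]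
      refine Finset.sum_congr rfl fun m _ => ?_
      rw [Fintype.sum_prod_type, Fintype.sum_prod_type, Finset.mul_sum, Finset.mul_sum,
        ← Finset.sum_neg_distrib]
      refine Finset.sum_congr rfl fun j _ => ?_
      rw [Fintype.sum_prod_type, Finset.sum_eq_single a]
      · rw [Finset.mul_sum, Finset.mul_sum, ← Finset.sum_neg_distrib]
        refine Finset.sum_congr rfl fun b _ => ?_
        rw [if_pos rfl]
        ring
      · intro a' _ ha'
        refine Finset.sum_eq_zero fun b _ => ?_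
        rw [if_neg ha', zero_mul]
      · intro h
        exact absurd (Finset.mem_univ _) h
    have e2 : ∑ u : Fin n × Fin N × Fin N,
        (if u.2.1 = a then -(L k i / p k) else 0) * cv (ν u.1 u.2.1 u.2.2) (r (u.1, u.2.2)) k =
        -(L k i / p k * ∑ J : Fin n × Fin N, cv (ν J.1 a J.2) (r (J.1, J.2)) k) := by
      rw [Fintype.sum_prod_type, Fintype.sum_prod_type, Finset.mul_sum,
        ← Finset.sum_neg_distrib]
      refine Finset.sum_congr rfl fun j _ => ?_
      rw [Fintype.sum_prod_type, Finset.sum_eq_single a]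
      · rw [Finset.mul_sum, ← Finset.sum_neg_distrib]
        refine Finset.sum_congr rfl fun b _ => ?_
        rw [if_pos rfl]
        ring
      · intro a' _ ha'
        refine Finset.sum_eq_zero fun b _ => ?_
        rw [if_neg ha', zero_mul]
      · intro h
        exact absurd (Finset.mem_univ _) h
    rw [e1, e2]
    ring
  · have h5 : nm m₀ (r (i, a)) ≤ ∑ q, nm m₀ (r q) :=
      Finset.single_le_sum (f := fun q => nm m₀ (r q)) (fun q _ => nmm_nonneg m₀ _)
        (Finset.mem_univ (i, a))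
    have h6 := sum_le_const (ι := Fin n × Fin N) (fun q => hC q.1 q.2)
    rw [c1] at h6
    exact (h5.trans r3).trans (mul_le_mul_of_nonneg_left h6 (by norm_num))

end Vale.Agent.P088.LR.CF.H393
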