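import Vale.Agent.P088.H393.CGM1

/-!
# P088, stage J, row CGM (2): the two coefficient families
-/

open MeasureTheory Set
open scoped ContDiff Matrix

noncomputable section

namespace Vale.Agent.P088.LR.CF.H393

open Vale.Agent.P088.LR Vale.Agent.P088.LR.CF
open Vale.Agent.P088.LR.H393

variable {n N : ℕ}

theorem RG_norm {κ : Type} [Fintype κ] {X : ℝ} (hX0 : 0 ≤ X) (w : κ → ℂ)
    (hw : ∀ J, ‖w J‖ ≤ 2 * Real.pi * X) (M Q : κ → Ix n → ℂ) (k : Ix n) :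
    ‖∑ J, (w J * M J k + Q J k)‖ ≤ 2 * Real.pi * X * ∑ J, ‖M J k‖ + ∑ J, ‖Q J k‖ := by
  refine (norm_sum_le _ _).trans ?_
  rw [Finset.mul_sum, ← Finset.sum_add_distrib]
  refine Finset.sum_le_sum fun J _ => ?_
  refine (norm_add_le _ _).trans (add_le_add ?_ le_rfl)
  rw [norm_mul]
  exact mul_le_mul_of_nonneg_right (hw J) (norm_nonneg _)

/-- Bounds of a source, general index set. -/
theorem srcG {κ : Type} [Fintype κ] {X : ℝ} {L : Ix n → Fin n → ℂ}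
    {p : Ix n → ℂ} (S : Sy X L p) (w : κ → ℂ) (hw : ∀ J, ‖w J‖ ≤ 2 * Real.pi * X)
    (G K : Fin n → κ → Ix n → ℂ) (M Q : κ → Ix n → ℂ) (rG : ∀ m j, RD (G m j))
    (rK : ∀ m j, RD (K m j)) (rM : ∀ j, RD (M j)) (rQ : ∀ j, RD (Q j)) (a₁ a₂ : ℝ)
    (nG : ∀ m j, nm 0 (G m j) ≤ a₁) (nK : ∀ m j, nm 0 (K m j) ≤ a₂) (nM : ∀ j, nm 0 (M j) ≤ a₁)
    (nQ : ∀ j, nm 0 (Q j) ≤ a₂) (i : Fin n) :
    RD (fun k => -(L k i / p k * RG L w G K M Q k)) ∧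
    nm 0 (fun k => -(L k i / p k * RG L w G K M Q k)) ≤
        3 * X * (2 * Real.pi * X) * (n * Fintype.card κ * a₁) +
        3 * X * (n * Fintype.card κ * a₂) + 3 * (2 * Real.pi * X) * (Fintype.card κ * a₁) +
        3 * (Fintype.card κ * a₂) := by
  have hX0 : 0 ≤ X := by linarith [S.hX]
  have hpi0 := Real.pi_pos
  have hsle : ∀ k, ‖-(L k i / p k * RG L w G K M Q k)‖ ≤
      3 * X * (2 * Real.pi * X) * ∑ q : Fin n × κ, ‖G q.1 q.2 k‖ +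
      3 * X * ∑ q : Fin n × κ, ‖K q.1 q.2 k‖ +
      3 * (2 * Real.pi * X) * ∑ j, ‖M j k‖ + 3 * ∑ j, ‖Q j k‖ := by
    intro k
    rw [norm_neg, RG, mul_add]
    refine (norm_add_le _ _).trans ?_
    have t1 : ‖L k i / p k * ∑ m, L k m * ∑ j, (w j * G m j k + K m j k)‖ ≤
        3 * X * (2 * Real.pi * X) * ∑ q : Fin n × κ, ‖G q.1 q.2 k‖ +
        3 * X * ∑ q : Fin n × κ, ‖K q.1 q.2 k‖ := by
      rw [Finset.mul_sum]
      refine (norm_sum_le _ _).trans ?_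
      rw [Fintype.sum_prod_type, Fintype.sum_prod_type, Finset.mul_sum, Finset.mul_sum,
        ← Finset.sum_add_distrib]
      refine Finset.sum_le_sum fun m _ => ?_
      rw [← mul_assoc, norm_mul]
      calc ‖L k i / p k * L k m‖ * ‖∑ j, (w j * G m j k + K m j k)‖
          ≤ 3 * X * (2 * Real.pi * X * ∑ j, ‖G m j k‖ + ∑ j, ‖K m j k‖) := by
            refine mul_le_mul (S.h3 k i m) (RG_norm hX0 w hw (G m) (K m) k) (norm_nonneg _)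
              (by positivity)
        _ = _ := by ring
    have t2 : ‖L k i / p k * ∑ j, (w j * M j k + Q j k)‖ ≤
        3 * (2 * Real.pi * X) * ∑ j, ‖M j k‖ + 3 * ∑ j, ‖Q j k‖ := by
      rw [norm_mul]
      calc ‖L k i / p k‖ * ‖∑ j, (w j * M j k + Q j k)‖
          ≤ 3 * (2 * Real.pi * X * ∑ j, ‖M j k‖ + ∑ j, ‖Q j k‖) := by
            refine mul_le_mul (S.h2 k i) (RG_norm hX0 w hw M Q k) (norm_nonneg _) (by norm_num)
        _ = _ := by ring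
    linarith
  have hf4 := fun m => four (m := m) (fun q : Fin n × κ => rG q.1 q.2)
    (fun q : Fin n × κ => rK q.1 q.2) rM rQ _ _ _ _ hsle
  refine ⟨fun m => (hf4 m).1, (hf4 0).2.trans ?_⟩
  have q1 := sum_le_const (ι := Fin n × κ) (fun q => nG q.1 q.2)
  have q2 := sum_le_const (ι := Fin n × κ) (fun q => nK q.1 q.2)
  have q3 := sum_le_const nM
  have q4 := sum_le_const nQ
  rw [Fintype.card_prod, Fintype.card_fin] at q1 q2
  push_cast at q1 q2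
  have w1 : 3 * X * (2 * Real.pi * X) * ∑ q : Fin n × κ, nm 0 (G q.1 q.2) ≤
      3 * X * (2 * Real.pi * X) * (n * Fintype.card κ * a₁) :=
    mul_le_mul_of_nonneg_left q1 (by positivity)
  have w2 : 3 * X * ∑ q : Fin n × κ, nm 0 (K q.1 q.2) ≤
      3 * X * (n * Fintype.card κ * a₂) := mul_le_mul_of_nonneg_left q2 (by positivity)
  have w3 : 3 * (2 * Real.pi * X) * ∑ j, nm 0 (M j) ≤
      3 * (2 * Real.pi * X) * (Fintype.card κ * a₁) :=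
    mul_le_mul_of_nonneg_left q3 (by positivity)
  have w4 : 3 * ∑ j, nm 0 (Q j) ≤ 3 * (Fintype.card κ * a₂) :=
    mul_le_mul_of_nonneg_left q4 (by norm_num)
  linarith

/-- Bound of `c₀`, general index set. -/
theorem c0G {κ : Type} [Fintype κ] {X : ℝ} {L : Ix n → Fin n → ℂ}
    {p : Ix n → ℂ} (S : Sy X L p) (hpX : ∀ k, X ≤ ‖p k‖) (w : κ → ℂ)
    (hw : ∀ J, ‖w J‖ ≤ 2 * Real.pi * X)
    (M Q : κ → Ix n → ℂ) (rM : ∀ j, RD (M j)) (rQ : ∀ j, RD (Q j)) (m : ℕ) (a₁ a₂ : ℝ)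
    (nM : ∀ j, nm m (M j) ≤ a₁) (nQ : ∀ j, nm m (Q j) ≤ a₂) {s : Ix n → ℂ}
    (hs : ∀ k, s k = -(∑ j, (w j * M j k + Q j k)) / p k) :
    nm m s ≤ 2 * Real.pi * (Fintype.card κ * a₁) + 1 / X * (Fintype.card κ * a₂) := by
  have hX1 := S.hX
  have hX0 : 0 < X := by linarith
  have hpi0 := Real.pi_pos
  have hsle : ∀ k, ‖s k‖ ≤ 2 * Real.pi * ∑ j, ‖M j k‖ + 1 / X * ∑ j, ‖Q j k‖ +
      0 * ∑ j, ‖M j k‖ + 0 * ∑ j, ‖Q j k‖ := by
    intro k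
    have hp0 : 0 < ‖p k‖ := lt_of_lt_of_le hX0 (hpX k)
    rw [hs k, norm_div, norm_neg, zero_mul, zero_mul, add_zero, add_zero]
    have h1 := RG_norm hX0.le w hw M Q k
    have hT : 0 ≤ 2 * Real.pi * X * ∑ j, ‖M j k‖ + ∑ j, ‖Q j k‖ := (norm_nonneg _).trans h1
    calc ‖∑ j, (w j * M j k + Q j k)‖ / ‖p k‖
        ≤ (2 * Real.pi * X * ∑ j, ‖M j k‖ + ∑ j, ‖Q j k‖) / X :=
          div_le_div₀ hT h1 hX0 (hpX k)
      _ = 2 * Real.pi * ∑ j, ‖M j k‖ + 1 / X * ∑ j, ‖Q j k‖ := by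
          field_simp
  have hf4 := (four (m := m) rM rQ rM rQ _ _ _ _ hsle).2
  have q3 := sum_le_const nM
  have q4 := sum_le_const nQ
  have w3 : 2 * Real.pi * ∑ j, nm m (M j) ≤ 2 * Real.pi * (Fintype.card κ * a₁) :=
    mul_le_mul_of_nonneg_left q3 (by positivity)
  have w4 : 1 / X * ∑ j, nm m (Q j) ≤ 1 / X * (Fintype.card κ * a₂) :=
    mul_le_mul_of_nonneg_left q4 (by positivity)
  linarith

/-- Bound of `c - c₀`, general index set. -/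
theorem cdG {κ : Type} [Fintype κ] {X : ℝ} {L : Ix n → Fin n → ℂ}
    {p : Ix n → ℂ} (S : Sy X L p) (hpX : ∀ k, X ≤ ‖p k‖) (w : κ → ℂ)
    (hw : ∀ J, ‖w J‖ ≤ 2 * Real.pi * X)
    (G K : Fin n → κ → Ix n → ℂ) (M Q : κ → Ix n → ℂ) (rG : ∀ m j, RD (G m j))
    (rK : ∀ m j, RD (K m j)) (rM : ∀ j, RD (M j)) (rQ : ∀ j, RD (Q j)) (a₁ a₂ a₃ : ℝ)
    (nG : ∀ m j, nm 0 (G m j) ≤ a₁) (nK : ∀ m j, nm 0 (K m j) ≤ a₂) (nM : ∀ j, nm 0 (M j) ≤ a₁)
    (nQ : ∀ j, nm 0 (Q j) ≤ a₃) {s : Ix n → ℂ}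
    (hs : ∀ k, s k = -RG L w G K M Q k / p k) :
    nm 0 s ≤ 3 * (2 * Real.pi * X) * (n * Fintype.card κ * a₁) +
      3 * (n * Fintype.card κ * a₂) +
      2 * Real.pi * (Fintype.card κ * a₁) + 1 / X * (Fintype.card κ * a₃) := by
  have hX1 := S.hX
  have hX0 : 0 < X := by linarith
  have hpi0 := Real.pi_pos
  have hsle : ∀ k, ‖s k‖ ≤ 3 * (2 * Real.pi * X) * ∑ q : Fin n × κ, ‖G q.1 q.2 k‖ +
      3 * ∑ q : Fin n × κ, ‖K q.1 q.2 k‖ + 2 * Real.pi * ∑ j, ‖M j k‖ +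
      1 / X * ∑ j, ‖Q j k‖ := by
    intro k
    have hp0 : 0 < ‖p k‖ := lt_of_lt_of_le hX0 (hpX k)
    have e1 : s k = -(∑ m, (L k m / p k) * ∑ j, (w j * G m j k + K m j k)) +
        -(∑ j, (w j * M j k + Q j k)) / p k := by
      rw [hs k, RG, neg_add, add_div, neg_div, Finset.sum_div]
      congr 2
      exact Finset.sum_congr rfl fun m _ => by ring
    have t1 : ‖∑ m, (L k m / p k) * ∑ j, (w j * G m j k + K m j k)‖ ≤
        3 * (2 * Real.pi * X) * ∑ q : Fin n × κ, ‖G q.1 q.2 k‖ +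
        3 * ∑ q : Fin n × κ, ‖K q.1 q.2 k‖ := by
      refine (norm_sum_le _ _).trans ?_
      rw [Fintype.sum_prod_type, Fintype.sum_prod_type, Finset.mul_sum, Finset.mul_sum,
        ← Finset.sum_add_distrib]
      refine Finset.sum_le_sum fun m _ => ?_
      rw [norm_mul]
      calc ‖L k m / p k‖ * ‖∑ j, (w j * G m j k + K m j k)‖
          ≤ 3 * (2 * Real.pi * X * ∑ j, ‖G m j k‖ + ∑ j, ‖K m j k‖) := by
            refine mul_le_mul (S.h2 k m) (RG_norm hX0.le w hw (G m) (K m) k) (norm_nonneg _)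
              (by norm_num)
        _ = _ := by ring
    have t2 : ‖(∑ j, (w j * M j k + Q j k)) / p k‖ ≤
        2 * Real.pi * ∑ j, ‖M j k‖ + 1 / X * ∑ j, ‖Q j k‖ := by
      have h1 := RG_norm hX0.le w hw M Q k
      have hT : 0 ≤ 2 * Real.pi * X * ∑ j, ‖M j k‖ + ∑ j, ‖Q j k‖ := (norm_nonneg _).trans h1
      rw [norm_div]
      calc ‖∑ j, (w j * M j k + Q j k)‖ / ‖p k‖
          ≤ (2 * Real.pi * X * ∑ j, ‖M j k‖ + ∑ j, ‖Q j k‖) / X :=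
            div_le_div₀ hT h1 hX0 (hpX k)
        _ = 2 * Real.pi * ∑ j, ‖M j k‖ + 1 / X * ∑ j, ‖Q j k‖ := by
            field_simp
    rw [e1, neg_div]
    refine (norm_add_le _ _).trans ?_
    rw [norm_neg, norm_neg]
    linarith
  have hf4 := (four (m := 0) (fun q : Fin n × κ => rG q.1 q.2)
    (fun q : Fin n × κ => rK q.1 q.2) rM rQ _ _ _ _ hsle).2
  have q1 := sum_le_const (ι := Fin n × κ) (fun q => nG q.1 q.2)
  have q2 := sum_le_const (ι := Fin n × κ) (fun q => nK q.1 q.2)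
  have q3 := sum_le_const nM
  have q4 := sum_le_const nQ
  rw [Fintype.card_prod, Fintype.card_fin] at q1 q2
  push_cast at q1 q2
  have w1 : 3 * (2 * Real.pi * X) * ∑ q : Fin n × κ, nm 0 (G q.1 q.2) ≤
      3 * (2 * Real.pi * X) * (n * Fintype.card κ * a₁) :=
    mul_le_mul_of_nonneg_left q1 (by positivity)
  have w2 : 3 * ∑ q : Fin n × κ, nm 0 (K q.1 q.2) ≤
      3 * (n * Fintype.card κ * a₂) := mul_le_mul_of_nonneg_left q2 (by positivity)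
  have w3 : 2 * Real.pi * ∑ j, nm 0 (M j) ≤ 2 * Real.pi * (Fintype.card κ * a₁) :=
    mul_le_mul_of_nonneg_left q3 (by positivity)
  have w4 : 1 / X * ∑ j, nm 0 (Q j) ≤ 1 / X * (Fintype.card κ * a₃) :=
    mul_le_mul_of_nonneg_left q4 (by positivity)
  linarith

/-- Right-hand side of the coefficient equation. -/
def RV (L : Ix n → Fin n → ℂ) (z : Fin n → ℂ) (β : Fin N)
    (h g : Fin n → Fin n → Fin N → Fin N → Ix n → ℂ) (ν μ : Fin n → Fin N → Fin N → Ix n → ℂ)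
    (y : Fin n → Fin N → Ix n → ℂ) (a : Fin N) (k : Ix n) : ℂ :=
  RG L (zt z β) (fun m (J : Fin n × Fin N) => g m J.1 a J.2)
    (fun m J => cv (h m J.1 a J.2) (y J.1 J.2)) (fun J => μ J.1 a J.2)
    (fun J => cv (ν J.1 a J.2) (y J.1 J.2)) k

theorem card_J : ((Fintype.card (Fin n × Fin N) : ℕ) : ℝ) = n * N := by
  rw [Fintype.card_prod, Fintype.card_fin, Fintype.card_fin]
  push_cast
  ring

/-- The first family. -/
theorem firstM (hA2 : RowA2) (hNEU : RowNEU) {X : ℝ} {z : Fin n → ℂ} {L : Ix n → Fin n → ℂ}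
    {p : Ix n → ℂ} (S : Sy X L p) (hzn : ∀ j, ‖z j‖ ≤ 2 * Real.pi * X) (β : Fin N)
    (ν₀ μ₀ : Fin n → Fin N → Fin N → Ix n → ℂ) (rν : ∀ j a b, RD (ν₀ j a b))
    (rμ : ∀ j a b, RD (μ₀ j a b)) (m : ℕ) (B : ℝ)
    (n0 : ∀ j a b, nm m (ν₀ j a b) ≤ B) (n1 : ∀ j a b, nm m (μ₀ j a b) ≤ B)
    (hs : (n * N : ℝ) * (3 * (n * N * N * B)) ≤ 1 / 2) :
    ∃ y₀ : Fin n → Fin N → Ix n → ℂ, (∀ i a, RD (y₀ i a)) ∧
      (∀ i a k, y₀ i a k = -(L k i / p k * ∑ J : Fin n × Fin N, (zt z β J * μ₀ J.1 a J.2 k +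
        cv (ν₀ J.1 a J.2) (y₀ J.1 J.2) k))) ∧
      ∀ i a, nm m (y₀ i a) ≤ 2 * (n * N * (3 * (2 * Real.pi * X) * (n * N * B))) := by
  have hX0 : 0 ≤ X := by linarith [S.hX]
  have hpi0 := Real.pi_pos
  have hzt := fun J => zt_le (β := β) (z := z) (by positivity) hzn J
  set s₀ : Fin n → Fin N → Ix n → ℂ := fun i a k =>
    -(L k i / p k * ∑ J : Fin n × Fin N, zt z β J * μ₀ J.1 a J.2 k) with hs₀
  have hs₀le : ∀ i a k, ‖s₀ i a k‖ ≤ 3 * (2 * Real.pi * X) *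
      ∑ J : Fin n × Fin N, ‖μ₀ J.1 a J.2 k‖ := by
    intro i a k
    simp only [hs₀, norm_neg]
    rw [norm_mul, mul_assoc]
    refine mul_le_mul (S.h2 k i) ?_ (norm_nonneg _) (by norm_num)
    refine (norm_sum_le _ _).trans ?_
    rw [Finset.mul_sum]
    refine Finset.sum_le_sum fun j _ => ?_
    rw [norm_mul]
    exact mul_le_mul_of_nonneg_right (hzt j) (norm_nonneg _)
  have hs₀RD : ∀ i a, RD (s₀ i a) := fun i a =>
    rd_of_le (fun J : Fin n × Fin N => rμ J.1 a J.2) _ (hs₀le i a)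
  have hs₀nm : ∀ i a, nm m (s₀ i a) ≤ 3 * (2 * Real.pi * X) * (n * N * B) := fun i a => by
    refine (nmm_le_of (fun J : Fin n × Fin N => rμ J.1 a J.2) _ (hs₀le i a) m).trans ?_
    refine mul_le_mul_of_nonneg_left ?_ (by positivity)
    have := sum_le_const (fun J : Fin n × Fin N => n1 J.1 a J.2)
    rwa [card_J] at this
  obtain ⟨y₀, hy₀R, hy₀e, hy₀n⟩ := vec_neu hA2 hNEU S (fun _ _ _ _ _ => 0) ν₀
    (fun _ _ _ _ => rd_zero) rν m 0 B (fun _ _ _ _ => by rw [nmm_zero]) n0 (by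
      have : (n * N : ℝ) * (3 * X * (n * n * N * N * 0) + 3 * (n * N * N * B)) =
        (n * N : ℝ) * (3 * (n * N * N * B)) := by ring
      rw [this]
      exact hs) s₀ hs₀RD
  refine ⟨y₀, hy₀R, fun i a k => ?_, hy₀n _ hs₀nm⟩
  rw [hy₀e i a k]
  simp only [hs₀, cv_zero_left, mul_zero, Finset.sum_const_zero, zero_add]
  rw [Finset.sum_add_distrib]
  ring

/-- The difference. -/
theorem secondM (hA2 : RowA2) (hNEU : RowNEU) {X : ℝ} {z : Fin n → ℂ} {L : Ix n → Fin n → ℂ}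
    {p : Ix n → ℂ} (S : Sy X L p) (hzn : ∀ j, ‖z j‖ ≤ 2 * Real.pi * X) (β : Fin N)
    (h g : Fin n → Fin n → Fin N → Fin N → Ix n → ℂ) (ν μ ν₀ μ₀ : Fin n → Fin N → Fin N → Ix n → ℂ)
    (rh : ∀ i j a b, RD (h i j a b)) (rg : ∀ i j a b, RD (g i j a b))
    (rν : ∀ j a b, RD (ν j a b)) (rν₀ : ∀ j a b, RD (ν₀ j a b))
    (rνd : ∀ j a b, RD fun k => ν j a b k - ν₀ j a b k)
    (rμd : ∀ j a b, RD fun k => μ j a b k - μ₀ j a b k)
    (y₀ : Fin n → Fin N → Ix n → ℂ) (ry₀ : ∀ i a, RD (y₀ i a))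
    (ey₀ : ∀ i a k, y₀ i a k = -(L k i / p k * ∑ J : Fin n × Fin N, (zt z β J * μ₀ J.1 a J.2 k +
        cv (ν₀ J.1 a J.2) (y₀ J.1 J.2) k)))
    (A B a₁ : ℝ) (hA0 : 0 ≤ A) (nh : ∀ i j a b, nm 0 (h i j a b) ≤ A)
    (nν : ∀ j a b, nm 0 (ν j a b) ≤ B) (ng : ∀ i j a b, nm 0 (g i j a b) ≤ a₁)
    (nνd : ∀ j a b, nm 0 (fun k => ν j a b k - ν₀ j a b k) ≤ A)
    (nμd : ∀ j a b, nm 0 (fun k => μ j a b k - μ₀ j a b k) ≤ a₁)
    (ny₀ : ∀ i a, nm 0 (y₀ i a) ≤ X)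
    (hs : (n * N : ℝ) * (3 * X * (n * n * N * N * A) + 3 * (n * N * N * B)) ≤ 1 / 2) :
    ∃ r : Fin n → Fin N → Ix n → ℂ, (∀ i a, RD (r i a)) ∧
      (∀ i a k, y₀ i a k + r i a k =
        -(L k i / p k * RV L z β h g ν μ (fun i a k => y₀ i a k + r i a k) a k)) ∧
      ∀ i a, nm 0 (r i a) ≤ 2 * (n * N * (3 * X * (2 * Real.pi * X) * (n * (n * N) * a₁) +
        3 * X * (n * (n * N) * (A * X)) + 3 * (2 * Real.pi * X) * (n * N * a₁) +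
        3 * (n * N * (A * X)))) := by
  have hX0 : 0 ≤ X := by linarith [S.hX]
  have hpi0 := Real.pi_pos
  have hzt := fun J => zt_le (β := β) (z := z) (by positivity) hzn J
  have hsrc := fun (i : Fin n) (a : Fin N) => srcG S (zt z β) hzt
    (fun m (J : Fin n × Fin N) => g m J.1 a J.2)
    (fun m J => cv (h m J.1 a J.2) (y₀ J.1 J.2))
    (fun J k => μ J.1 a J.2 k - μ₀ J.1 a J.2 k)
    (fun J => cv (fun k => ν J.1 a J.2 k - ν₀ J.1 a J.2 k) (y₀ J.1 J.2))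
    (fun m J => rg m J.1 a J.2)
    (fun m J => (hA2 0 0 _ _ (rh m J.1 a J.2) (ry₀ J.1 J.2)).1) (fun J => rμd J.1 a J.2)
    (fun J => (hA2 0 0 _ _ (rνd J.1 a J.2) (ry₀ J.1 J.2)).1) a₁ (A * X)
    (fun m J => ng m J.1 a J.2)
    (fun m J => ((hA2 0 0 _ _ (rh m J.1 a J.2) (ry₀ J.1 J.2)).2.2.2 0).trans
      (mul_le_mul (nh m J.1 a J.2) (ny₀ J.1 J.2) (nmm_nonneg 0 _) hA0)) (fun J => nμd J.1 a J.2)
    (fun J => ((hA2 0 0 _ _ (rνd J.1 a J.2) (ry₀ J.1 J.2)).2.2.2 0).trans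
      (mul_le_mul (nνd J.1 a J.2) (ny₀ J.1 J.2) (nmm_nonneg 0 _) hA0)) i
  obtain ⟨r, hrR, hre, hrn⟩ := vec_neu hA2 hNEU S h ν rh rν 0 A B nh nν hs _
    (fun i a => (hsrc i a).1)
  refine ⟨r, hrR, fun i a k => ?_, ?_⟩
  · have c1 : ∀ m (J : Fin n × Fin N), cv (h m J.1 a J.2) (fun k => y₀ J.1 J.2 k + r J.1 J.2 k) k =
        cv (h m J.1 a J.2) (y₀ J.1 J.2) k + cv (h m J.1 a J.2) (r J.1 J.2) k := fun m J =>
      cv_add hA2 (rh m J.1 a J.2) (ry₀ J.1 J.2) (hrR J.1 J.2) k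
    have c2 : ∀ (J : Fin n × Fin N), cv (ν J.1 a J.2) (fun k => y₀ J.1 J.2 k + r J.1 J.2 k) k =
        cv (ν J.1 a J.2) (y₀ J.1 J.2) k + cv (ν J.1 a J.2) (r J.1 J.2) k := fun J =>
      cv_add hA2 (rν J.1 a J.2) (ry₀ J.1 J.2) (hrR J.1 J.2) k
    have c3 : ∀ (J : Fin n × Fin N), cv (fun k => ν J.1 a J.2 k - ν₀ J.1 a J.2 k) (y₀ J.1 J.2) k =
        cv (ν J.1 a J.2) (y₀ J.1 J.2) k - cv (ν₀ J.1 a J.2) (y₀ J.1 J.2) k :=
      fun J => cv_sub_left hA2 (rν J.1 a J.2) (rν₀ J.1 a J.2) (ry₀ J.1 J.2) k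
    rw [hre i a k, ey₀ i a k]
    unfold RV RG
    have d1 : ∑ m, L k m * ∑ J : Fin n × Fin N, (zt z β J * g m J.1 a J.2 k +
        cv (h m J.1 a J.2) (fun k => y₀ J.1 J.2 k + r J.1 J.2 k) k) =
        ∑ m, L k m * ∑ J : Fin n × Fin N, (zt z β J * g m J.1 a J.2 k +
          cv (h m J.1 a J.2) (y₀ J.1 J.2) k) +
        ∑ m, L k m * ∑ J : Fin n × Fin N, cv (h m J.1 a J.2) (r J.1 J.2) k := by
      rw [← Finset.sum_add_distrib]
      refine Finset.sum_congr rfl fun m _ => ?_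
      rw [← mul_add, ← Finset.sum_add_distrib]
      congr 1
      exact Finset.sum_congr rfl fun J _ => by rw [c1 m J]; ring
    have d2 : ∑ J : Fin n × Fin N, (zt z β J * μ J.1 a J.2 k +
        cv (ν J.1 a J.2) (fun k => y₀ J.1 J.2 k + r J.1 J.2 k) k) =
        ∑ J : Fin n × Fin N, (zt z β J * μ₀ J.1 a J.2 k + cv (ν₀ J.1 a J.2) (y₀ J.1 J.2) k) +
        ∑ J : Fin n × Fin N, (zt z β J * (μ J.1 a J.2 k - μ₀ J.1 a J.2 k) +
          cv (fun k => ν J.1 a J.2 k - ν₀ J.1 a J.2 k) (y₀ J.1 J.2) k) +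
        ∑ J : Fin n × Fin N, cv (ν J.1 a J.2) (r J.1 J.2) k := by
      rw [← Finset.sum_add_distrib, ← Finset.sum_add_distrib]
      exact Finset.sum_congr rfl fun J _ => by rw [c2 J, c3 J]; ring
    rw [d1, d2]
    ring
  · refine hrn _ (fun i a => ?_)
    have := (hsrc i a).2
    rw [card_J] at this
    exact this

end Vale.Agent.P088.LR.CF.H393
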