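import Vale.Agent.P088.H393.CGM2

/-!
# P088, stage J, row CGM (3): the coefficients give a solution
-/

open MeasureTheory Set
open scoped ContDiff Matrix

noncomputable section

namespace Vale.Agent.P088.LR.CF.H393

open Vale.Agent.P088.LR Vale.Agent.P088.LR.CF
open Vale.Agent.P088.LR.H393

variable {n N : ℕ}

/-- The flux of one component. -/
theorem flux (hA2 : RowA2) {κ : Type} [Fintype κ] (θ : V n) (w : κ → ℂ) (h g : κ → Ix n → ℂ)
    (y : κ → Ix n → ℂ) (H : κ → V n → ℂ) (hh : ∀ J, RD (h J)) (hg : ∀ J, RD (g J))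
    (hy : ∀ J, RD (y J)) {x : V n} (e0 : ∀ J, H J x = Es 0 (h J) x)
    (e1 : ∀ J, H J x = Es θ (g J) x) :
    RD (fun k => ∑ J, (w J * g J k + cv (h J) (y J) k)) ∧
    Es θ (fun k => ∑ J, (w J * g J k + cv (h J) (y J) k)) x =
      ∑ J, H J x * (w J + Es θ (y J) x) := by
  have hcv : ∀ J, RD (cv (h J) (y J)) := fun J => (hA2 0 0 _ _ (hh J) (hy J)).1
  have hr : ∀ J, RD fun k => w J * g J k + cv (h J) (y J) k := fun J =>
    rd_add (rd_const_mul (hg J) (w J)) (hcv J)
  refine ⟨rd_sum hr, ?_⟩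
  rw [Es_sum hr θ x]
  refine Finset.sum_congr rfl fun J _ => ?_
  rw [Es_add (rd_const_mul (hg J) (w J)) (hcv J), Es_const_mul, ← e1 J]
  have h3 := (hA2 0 θ _ _ (hh J) (hy J)).2.2.1 x
  rw [zero_add, ← e0 J] at h3
  rw [← h3]
  ring

/-- The candidate. -/
def WM (z : Fin n → ℂ) (θ : V n) (β : Fin N) (c : Fin N → Ix n → ℂ) (a : Fin N) (x : V n) : ℂ :=
  EE z x * ((if a = β then 1 else 0) + Es θ (c a) x)

theorem pd_WM (hA1 : RowA1) {z : Fin n → ℂ} {θ : V n} {L : Ix n → Fin n → ℂ}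
    (hL : ∀ k j, L k j = 2 * Real.pi * Complex.I * ((fr θ k j : ℝ) : ℂ) + z j) (β : Fin N)
    {y : Fin n → Fin N → Ix n → ℂ} {c : Fin N → Ix n → ℂ} (hc : ∀ a, RD (c a))
    (hyc : ∀ i a k, y i a k = L k i * c a k) (i : Fin n) (a : Fin N) (x : V n) :
    pd i (WM z θ β c a) x = EE z x * (zt z β (i, a) + Es θ (y i a) x) := by
  have h := pd_EE_mul hA1 z θ (if a = β then 1 else 0) (hc a) i x
  have h2 : (fun k => (2 * Real.pi * Complex.I * ((fr θ k i : ℝ) : ℂ) + z i) * c a k)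
      = y i a := by
    funext k
    rw [hyc, hL]
  have h3 : z i * (if a = β then 1 else 0) = zt z β (i, a) := by
    unfold zt
    simp only [mul_ite, mul_one, mul_zero]
  rw [h2, h3] at h
  exact h

theorem sol_ofM (hA1 : RowA1) (hA2 : RowA2) {z : Fin n → ℂ} (hz : ∑ j, z j ^ 2 = 0) (θ : V n)
    (L : Ix n → Fin n → ℂ)
    (hL : ∀ k j, L k j = 2 * Real.pi * Complex.I * ((fr θ k j : ℝ) : ℂ) + z j) (β : Fin N)
    (H : Fin n → Fin n → Fin N → Fin N → V n → ℂ) (Λ : Fin n → Fin N → Fin N → V n → ℂ)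
    (h g : Fin n → Fin n → Fin N → Fin N → Ix n → ℂ) (ν μ : Fin n → Fin N → Fin N → Ix n → ℂ)
    (hh : ∀ i j a b, RD (h i j a b)) (hg : ∀ i j a b, RD (g i j a b))
    (hν : ∀ j a b, RD (ν j a b)) (hμ : ∀ j a b, RD (μ j a b))
    (e0 : ∀ i j a b, ∀ x ∈ cube n, H i j a b x = Es 0 (h i j a b) x)
    (e1 : ∀ i j a b, ∀ x ∈ cube n, H i j a b x = Es θ (g i j a b) x)
    (f0 : ∀ j a b, ∀ x ∈ cube n, Λ j a b x = Es 0 (ν j a b) x)
    (f1 : ∀ j a b, ∀ x ∈ cube n, Λ j a b x = Es θ (μ j a b) x)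
    (y : Fin n → Fin N → Ix n → ℂ) {c : Fin N → Ix n → ℂ} (hy : ∀ i a, RD (y i a))
    (hc : ∀ a, RD (c a)) (hyc : ∀ i a k, y i a k = L k i * c a k)
    (heq : ∀ a k, (∑ j, L k j ^ 2) * c a k + RV L z β h g ν μ y a k = 0) :
    SolM z θ β H Λ y c (WM z θ β c) := by
  have hpd := fun i a x => pd_WM hA1 hL β (y := y) hc hyc i a x
  refine ⟨hy, hc, fun i a k => by rw [hyc, hL], fun a => ?_, fun a x => ?_, fun i a x => ?_, ?_⟩
  · exact (EE_contDiff _).mul (contDiff_const.add (hA1 θ (c a) (hc a)).1)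
  · unfold WM EE
    rw [LL_apply]
  · rw [hpd]
    unfold EE zt
    rw [LL_apply]
  · intro a x hx
    set F : Fin n → Ix n → ℂ := fun i k => ∑ J : Fin n × Fin N, (zt z β J * g i J.1 a J.2 k +
      cv (h i J.1 a J.2) (y J.1 J.2) k) with hF
    set G : Ix n → ℂ := fun k => ∑ J : Fin n × Fin N, (zt z β J * μ J.1 a J.2 k +
      cv (ν J.1 a J.2) (y J.1 J.2) k) with hG
    have fF := fun (i : Fin n) (w : V n) (hw : w ∈ cube n) => flux hA2 θ (zt z β)
      (fun J : Fin n × Fin N => h i J.1 a J.2) (fun J => g i J.1 a J.2) (fun J => y J.1 J.2)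
      (fun J => H i J.1 a J.2) (fun J => hh _ _ _ _) (fun J => hg _ _ _ _) (fun J => hy _ _)
      (x := w) (fun J => e0 _ _ _ _ w hw) (fun J => e1 _ _ _ _ w hw)
    have fG := fun (w : V n) (hw : w ∈ cube n) => flux hA2 θ (zt z β)
      (fun J : Fin n × Fin N => ν J.1 a J.2) (fun J => μ J.1 a J.2) (fun J => y J.1 J.2)
      (fun J => Λ J.1 a J.2) (fun J => hν _ _ _) (fun J => hμ _ _ _) (fun J => hy _ _)
      (x := w) (fun J => f0 _ _ _ w hw) (fun J => f1 _ _ _ w hw)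
    have hFRD : ∀ i, RD (F i) := fun i => (fF i x hx).1
    have hGRD : RD G := (fG x hx).1
    have hΦ : ∀ i, RD fun k => y i a k + F i k := fun i => rd_add (hy i a) (hFRD i)
    have h5 : ∀ i, pd i (fun y_1 => pd i (WM z θ β c a) y_1 +
        ∑ j, ∑ b, H i j a b y_1 * pd j (WM z θ β c b) y_1) x =
        EE z x * (z i * zt z β (i, a) + Es θ (fun k => L k i * (y i a k + F i k)) x) := by
      intro i
      have h6 : (fun y_1 => pd i (WM z θ β c a) y_1 +
          ∑ j, ∑ b, H i j a b y_1 * pd j (WM z θ β c b) y_1) =ᶠ[nhds x]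
          fun x => EE z x * (zt z β (i, a) + Es θ (fun k => y i a k + F i k) x) := by
        filter_upwards [isOpen_cube.mem_nhds hx] with w hw
        rw [Es_add (hy i a) (hFRD i), (fF i w hw).2, hpd, Fintype.sum_prod_type]
        have : ∀ j, ∑ b, H i j a b w * pd j (WM z θ β c b) w =
            EE z w * ∑ b, H i j a b w * (zt z β (j, b) + Es θ (y j b) w) := fun j => by
          rw [Finset.mul_sum]
          exact Finset.sum_congr rfl fun b _ => by rw [hpd]; ring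
        rw [Finset.sum_congr rfl fun j _ => this j, ← Finset.mul_sum]
        ring
      have h7 := pd_EE_mul hA1 z θ (zt z β (i, a)) (hΦ i) i x
      rw [pd_congr i h6, h7]
      have h8 : (fun k => (2 * Real.pi * Complex.I * ((fr θ k i : ℝ) : ℂ) + z i) *
          (y i a k + F i k)) = fun k => L k i * (y i a k + F i k) := by
        funext k
        rw [hL]
      rw [h8]
    have h10 : ∑ j, ∑ b, Λ j a b x * pd j (WM z θ β c b) x = EE z x * Es θ G x := by
      rw [(fG x hx).2, Fintype.sum_prod_type, Finset.mul_sum]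
      refine Finset.sum_congr rfl fun j _ => ?_
      rw [Finset.mul_sum]
      exact Finset.sum_congr rfl fun b _ => by rw [hpd]; ring
    have hz2 : ∑ i, z i * zt z β (i, a) = 0 := by
      unfold zt
      by_cases hab : a = β
      · simp only [hab, if_true]
        rw [← hz]
        exact Finset.sum_congr rfl fun j _ => by ring
      · simp only [hab, if_false, mul_zero, Finset.sum_const_zero]
    rw [Finset.sum_congr rfl fun i _ => h5 i, ← Finset.mul_sum, Finset.sum_add_distrib,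
      hz2, zero_add, h10, ← mul_add]
    have h8 : ∀ i, RD fun k => L k i * (y i a k + F i k) := by
      intro i
      have := rd_add (rd_fr (hΦ i) θ i) (rd_const_mul (hΦ i) (z i))
      refine (iff_of_eq (congrArg RD ?_)).mp this
      funext k
      rw [hL]
      ring
    rw [← Es_sum h8, ← Es_add (rd_sum h8) hGRD]
    have h9 : (fun k => ∑ i, L k i * (y i a k + F i k) + G k) = fun _ => 0 := by
      funext k
      have e3 : ∑ i, L k i * (y i a k + F i k) =
          (∑ j, L k j ^ 2) * c a k + ∑ m, L k m * F m k := by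
        rw [Finset.sum_mul, ← Finset.sum_add_distrib]
        refine Finset.sum_congr rfl fun i _ => ?_
        rw [hyc i a k]
        ring
      rw [e3, ← heq a k]
      unfold RV RG
      simp only [hF, hG]
      ring
    rw [h9, Es_zero, mul_zero]

/-- The coefficients of the solution. -/
def cM (L : Ix n → Fin n → ℂ) (p : Ix n → ℂ) (z : Fin n → ℂ) (β : Fin N)
    (h g : Fin n → Fin n → Fin N → Fin N → Ix n → ℂ) (ν μ : Fin n → Fin N → Fin N → Ix n → ℂ)
    (y : Fin n → Fin N → Ix n → ℂ) (a : Fin N) (k : Ix n) : ℂ :=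
  -RV L z β h g ν μ y a k / p k

theorem sol_closeM (hA1 : RowA1) (hA2 : RowA2) {X : ℝ} {z : Fin n → ℂ} (hz : ∑ j, z j ^ 2 = 0)
    (θ : V n) {L : Ix n → Fin n → ℂ} {p : Ix n → ℂ} (S : Sy X L p)
    (hL : ∀ k j, L k j = 2 * Real.pi * Complex.I * ((fr θ k j : ℝ) : ℂ) + z j) (β : Fin N)
    (H : Fin n → Fin n → Fin N → Fin N → V n → ℂ) (Λ : Fin n → Fin N → Fin N → V n → ℂ)
    (h g : Fin n → Fin n → Fin N → Fin N → Ix n → ℂ) (ν μ : Fin n → Fin N → Fin N → Ix n → ℂ)
    (hh : ∀ i j a b, RD (h i j a b)) (hg : ∀ i j a b, RD (g i j a b))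
    (hν : ∀ j a b, RD (ν j a b)) (hμ : ∀ j a b, RD (μ j a b))
    (e0 : ∀ i j a b, ∀ x ∈ cube n, H i j a b x = Es 0 (h i j a b) x)
    (e1 : ∀ i j a b, ∀ x ∈ cube n, H i j a b x = Es θ (g i j a b) x)
    (f0 : ∀ j a b, ∀ x ∈ cube n, Λ j a b x = Es 0 (ν j a b) x)
    (f1 : ∀ j a b, ∀ x ∈ cube n, Λ j a b x = Es θ (μ j a b) x)
    (y : Fin n → Fin N → Ix n → ℂ) (hy : ∀ i a, RD (y i a))
    (hfix : ∀ i a k, y i a k = -(L k i / p k * RV L z β h g ν μ y a k)) :
    SolM z θ β H Λ y (cM L p z β h g ν μ y) (WM z θ β (cM L p z β h g ν μ y)) := by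
  have hyc : ∀ i a k, y i a k = L k i * cM L p z β h g ν μ y a k := by
    intro i a k
    rw [hfix i a k, cM]
    ring
  have hrc : ∀ a, RD (cM L p z β h g ν μ y a) := by
    intro a
    refine rd_of_le (ι := Fin n) (d := fun i => y i a) (fun i => hy i a) 1 (fun k => ?_)
    obtain ⟨i, hi⟩ := S.h1 k
    have h1 : ‖cM L p z β h g ν μ y a k‖ ≤ ‖y i a k‖ := by
      rw [hyc i a k, norm_mul]
      nlinarith [norm_nonneg (cM L p z β h g ν μ y a k)]
    rw [one_mul]
    exact h1.trans (Finset.single_le_sum (f := fun i => ‖y i a k‖) (fun _ _ => norm_nonneg _)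
      (Finset.mem_univ i))
  refine sol_ofM hA1 hA2 hz θ L hL β H Λ h g ν μ hh hg hν hμ e0 e1 f0 f1 y hy hrc hyc ?_
  intro a k
  rw [← S.hp k, cM]
  have hp := S.h0 k
  field_simp
  ring

end Vale.Agent.P088.LR.CF.H393
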