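import Vale.Agent.P088.H393.CGM3

/-!
# P088, stage J, row CGM (4): constants, coefficient data
-/

open MeasureTheory Set
open scoped ContDiff Matrix

noncomputable section

namespace Vale.Agent.P088.LR.CF.H393

open Vale.Agent.P088.LR Vale.Agent.P088.LR.CF
open Vale.Agent.P088.LR.H393

variable {n N : ℕ}

/-- first constant -/
def K1 (u v P C3 C4 : ℝ) : ℝ :=
  12 * (u ^ 3 * v ^ 3 + u ^ 2 * v ^ 3) + 12 * u ^ 2 * v ^ 3 * C3 + 12 * P * u ^ 2 * v ^ 2 * C3 +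
    (12 * P * u ^ 3 * v ^ 2 * C4 + 6 * u ^ 3 * v ^ 2 + 12 * P * u ^ 2 * v ^ 2 * C4 +
      6 * u ^ 2 * v ^ 2) + 1

/-- second constant -/
def K2 (u v P C3 C4 C : ℝ) : ℝ :=
  C + (C3 + 1 + u * v * C3 * (2 * P + 1) + (6 * P * u ^ 2 * v * C4 + 6 * u ^ 2 * v +
      2 * P * u * v * C4 + 2 * u * v * C + u * v))

theorem arithM1 {u v C3 C4 P B X A : ℝ} (hu : 0 ≤ u) (hv : 0 ≤ v) (h3 : 0 ≤ C3) (h4 : 0 ≤ C4)
    (hP : 0 ≤ P) (hB : 0 ≤ B) (hA : 0 ≤ A) (hX : 1 ≤ X)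
    (h1 : K1 u v P C3 C4 * B ≤ 1) (h2 : K1 u v P C3 C4 * X * A ≤ 1) :
    u * v * (3 * (u * v * v * (C3 * B))) ≤ 1 / 2 ∧
    2 * (u * v * (3 * (2 * P * X) * (u * v * (C3 * B)))) ≤ K1 u v P C3 C4 * X * B ∧
    u * v * (3 * X * (u * u * v * v * A) + 3 * (u * v * v * (C3 * B + A))) ≤ 1 / 2 ∧
    2 * (u * v * (3 * X * (2 * P * X) * (u * (u * v) * (C4 * A)) +
      3 * X * (u * (u * v) * (A * X)) + 3 * (2 * P * X) * (u * v * (C4 * A)) +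
      3 * (u * v * (A * X)))) ≤ K1 u v P C3 C4 * X ^ 2 * A := by
  have hX0 : 0 ≤ X := by linarith
  have hXA : 0 ≤ X * A := by positivity
  have hXB : 0 ≤ X * B := by positivity
  have t1 : 0 ≤ 12 * (u ^ 3 * v ^ 3 + u ^ 2 * v ^ 3) := by positivity
  have t2 : 0 ≤ 12 * u ^ 2 * v ^ 3 * C3 := by positivity
  have t3 : 0 ≤ 12 * P * u ^ 2 * v ^ 2 * C3 := by positivity
  have t4 : 0 ≤ 12 * P * u ^ 3 * v ^ 2 * C4 + 6 * u ^ 3 * v ^ 2 + 12 * P * u ^ 2 * v ^ 2 * C4 +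
      6 * u ^ 2 * v ^ 2 := by positivity
  have u1 : 12 * (u ^ 3 * v ^ 3 + u ^ 2 * v ^ 3) ≤ K1 u v P C3 C4 := by unfold K1; linarith
  have u2 : 12 * u ^ 2 * v ^ 3 * C3 ≤ K1 u v P C3 C4 := by unfold K1; linarith
  have u3 : 12 * P * u ^ 2 * v ^ 2 * C3 ≤ K1 u v P C3 C4 := by unfold K1; linarith
  have u4 : 12 * P * u ^ 3 * v ^ 2 * C4 + 6 * u ^ 3 * v ^ 2 + 12 * P * u ^ 2 * v ^ 2 * C4 +
      6 * u ^ 2 * v ^ 2 ≤ K1 u v P C3 C4 := by unfold K1; linarith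
  set C : ℝ := K1 u v P C3 C4 with hC
  have v1 : 12 * u ^ 2 * v ^ 3 * C3 * B ≤ 1 := (mul_le_mul_of_nonneg_right u2 hB).trans h1
  have v2 : 12 * (u ^ 3 * v ^ 3 + u ^ 2 * v ^ 3) * (X * A) ≤ 1 := by
    calc 12 * (u ^ 3 * v ^ 3 + u ^ 2 * v ^ 3) * (X * A) ≤ C * (X * A) :=
          mul_le_mul_of_nonneg_right u1 hXA
      _ = C * X * A := by ring
      _ ≤ 1 := h2
  have v3 : A ≤ X * A := by nlinarith
  have v4 : X ≤ X ^ 2 := by nlinarith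
  refine ⟨?_, ?_, ?_, ?_⟩
  · calc u * v * (3 * (u * v * v * (C3 * B))) = 3 * u ^ 2 * v ^ 3 * C3 * B := by ring
      _ ≤ 1 / 2 := by linarith
  · calc 2 * (u * v * (3 * (2 * P * X) * (u * v * (C3 * B)))) =
        12 * P * u ^ 2 * v ^ 2 * C3 * (X * B) := by ring
      _ ≤ C * (X * B) := mul_le_mul_of_nonneg_right u3 hXB
      _ = _ := by ring
  · have w1 : 3 * u ^ 2 * v ^ 3 * A ≤ 3 * u ^ 2 * v ^ 3 * (X * A) :=
      mul_le_mul_of_nonneg_left v3 (by positivity)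
    calc u * v * (3 * X * (u * u * v * v * A) + 3 * (u * v * v * (C3 * B + A)))
        = 3 * u ^ 3 * v ^ 3 * (X * A) + 3 * u ^ 2 * v ^ 3 * C3 * B + 3 * u ^ 2 * v ^ 3 * A := by
          ring
      _ ≤ 3 * u ^ 3 * v ^ 3 * (X * A) + 3 * u ^ 2 * v ^ 3 * C3 * B +
          3 * u ^ 2 * v ^ 3 * (X * A) := by linarith
      _ ≤ 1 / 2 := by linarith
  · have w2 : 0 ≤ (12 * P * u ^ 2 * v ^ 2 * C4 + 6 * u ^ 2 * v ^ 2) * A := by positivity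
    have w3 := mul_le_mul_of_nonneg_left v4 w2
    calc 2 * (u * v * (3 * X * (2 * P * X) * (u * (u * v) * (C4 * A)) +
        3 * X * (u * (u * v) * (A * X)) + 3 * (2 * P * X) * (u * v * (C4 * A)) +
        3 * (u * v * (A * X))))
        = (12 * P * u ^ 3 * v ^ 2 * C4 + 6 * u ^ 3 * v ^ 2) * (X ^ 2 * A) +
          (12 * P * u ^ 2 * v ^ 2 * C4 + 6 * u ^ 2 * v ^ 2) * A * X := by ring
      _ ≤ (12 * P * u ^ 3 * v ^ 2 * C4 + 6 * u ^ 3 * v ^ 2) * (X ^ 2 * A) +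
          (12 * P * u ^ 2 * v ^ 2 * C4 + 6 * u ^ 2 * v ^ 2) * A * X ^ 2 := by linarith
      _ = (12 * P * u ^ 3 * v ^ 2 * C4 + 6 * u ^ 3 * v ^ 2 + 12 * P * u ^ 2 * v ^ 2 * C4 +
          6 * u ^ 2 * v ^ 2) * (X ^ 2 * A) := by ring
      _ ≤ C * (X ^ 2 * A) := mul_le_mul_of_nonneg_right u4 (by positivity)
      _ = _ := by ring

theorem arithM2 {u v C3 C4 P C B X A : ℝ} (hu : 0 ≤ u) (hv : 0 ≤ v) (h3 : 0 ≤ C3) (h4 : 0 ≤ C4)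
    (hP : 0 ≤ P) (hC : 0 ≤ C) (hB : 0 ≤ B) (hA : 0 ≤ A) (hX : 1 ≤ X)
    (h1 : K2 u v P C3 C4 C * B ≤ 1) (h2 : K2 u v P C3 C4 C * X * A ≤ 1) :
    C ≤ K2 u v P C3 C4 C ∧ C * B ≤ 1 ∧ C * X * A ≤ 1 ∧
    2 * P * (u * v * (C3 * B)) + 1 / X * (u * v * ((C3 * B) * (C * X * B))) ≤
      K2 u v P C3 C4 C * B ∧
    3 * (2 * P * X) * (u * (u * v) * (C4 * A)) + 3 * (u * (u * v) * (A * (2 * X))) +
      2 * P * (u * v * (C4 * A)) +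
      1 / X * (u * v * ((C3 * B + A) * (C * X ^ 2 * A) + A * X)) ≤
      K2 u v P C3 C4 C * X * A := by
  have hX0 : 0 < X := by linarith
  have hXA : 0 ≤ X * A := by positivity
  have t1 : 0 ≤ u * v * C3 * (2 * P + 1) := by positivity
  have t2 : 0 ≤ 6 * P * u ^ 2 * v * C4 + 6 * u ^ 2 * v + 2 * P * u * v * C4 + 2 * u * v * C +
      u * v := by positivity
  set D : ℝ := 6 * P * u ^ 2 * v * C4 + 6 * u ^ 2 * v + 2 * P * u * v * C4 + 2 * u * v * C +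
      u * v with hD
  have hC' : K2 u v P C3 C4 C = C + (C3 + 1 + u * v * C3 * (2 * P + 1) + D) := rfl
  set C' : ℝ := K2 u v P C3 C4 C with hC''
  have u1 : C ≤ C' := by rw [hC']; linarith
  have u2 : C3 ≤ C' := by rw [hC']; linarith
  have u3 : 1 ≤ C' := by rw [hC']; linarith
  have u4 : u * v * C3 * (2 * P + 1) ≤ C' := by rw [hC']; linarith
  have u5 : D ≤ C' := by rw [hC']; linarith
  have v1 : C * B ≤ 1 := (mul_le_mul_of_nonneg_right u1 hB).trans h1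
  have v2 : C3 * B ≤ 1 := (mul_le_mul_of_nonneg_right u2 hB).trans h1
  have v3 : C * X * A ≤ 1 := by
    have := mul_le_mul_of_nonneg_right u1 hXA
    calc C * X * A = C * (X * A) := by ring
      _ ≤ C' * (X * A) := this
      _ = C' * X * A := by ring
      _ ≤ 1 := h2
  have v4 : A ≤ 1 := by
    have h5 : 1 * (X * A) ≤ C' * (X * A) := mul_le_mul_of_nonneg_right u3 hXA
    have h6 : C' * (X * A) = C' * X * A := by ring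
    have h7 : A ≤ X * A := by nlinarith
    linarith
  refine ⟨u1, v1, v3, ?_, ?_⟩
  · have e1 : 2 * P * (u * v * (C3 * B)) + 1 / X * (u * v * ((C3 * B) * (C * X * B))) =
        u * v * C3 * (2 * P + C * B) * B := by
      field_simp
    rw [e1]
    refine (mul_le_mul_of_nonneg_right ?_ hB).trans (mul_le_mul_of_nonneg_right u4 hB)
    refine mul_le_mul_of_nonneg_left ?_ (by positivity)
    linarith
  · have e1 : 1 / X * (u * v * ((C3 * B + A) * (C * X ^ 2 * A) + A * X)) =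
        u * v * C * (C3 * B + A) * (X * A) + u * v * A := by
      field_simp
    have e2 : u * v * C * (C3 * B + A) * (X * A) ≤ u * v * C * 2 * (X * A) := by
      refine mul_le_mul_of_nonneg_right ?_ hXA
      refine mul_le_mul_of_nonneg_left ?_ (by positivity)
      linarith
    have e3 : A ≤ X * A := by nlinarith
    have e4 : u * v * A ≤ u * v * (X * A) := mul_le_mul_of_nonneg_left e3 (by positivity)
    have e5 : 2 * P * (u * v * (C4 * A)) ≤ 2 * P * u * v * C4 * (X * A) := by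
      have h8 : 0 ≤ 2 * P * u * v * C4 := by positivity
      have h9 := mul_le_mul_of_nonneg_left e3 h8
      linarith
    rw [e1]
    calc 3 * (2 * P * X) * (u * (u * v) * (C4 * A)) + 3 * (u * (u * v) * (A * (2 * X))) +
          2 * P * (u * v * (C4 * A)) + (u * v * C * (C3 * B + A) * (X * A) + u * v * A)
        ≤ 3 * (2 * P * X) * (u * (u * v) * (C4 * A)) + 3 * (u * (u * v) * (A * (2 * X))) +
          2 * P * u * v * C4 * (X * A) + (u * v * C * 2 * (X * A) + u * v * (X * A)) := by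
          linarith
      _ = D * (X * A) := by rw [hD]; ring
      _ ≤ C' * (X * A) := mul_le_mul_of_nonneg_right u5 hXA
      _ = C' * X * A := by ring

/-- The coefficient-level data. -/
structure DM (m : ℕ) (i₀ : Fin n) (β : Fin N) (X C C3 C4 B A : ℝ) (z : Fin n → ℂ)
    (H : Fin n → Fin n → Fin N → Fin N → V n → ℂ) (Λ₀ Λ : Fin n → Fin N → Fin N → V n → ℂ)
    (y₀ r : Fin n → Fin N → Ix n → ℂ) : Prop where
  rH0 : ∀ i j a b, RD (cf 0 (H i j a b)) ∧ ∀ x ∈ cube n, H i j a b x = Es 0 (cf 0 (H i j a b)) x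
  rH1 : ∀ i j a b, RD (cf (th0 i₀) (H i j a b)) ∧
    ∀ x ∈ cube n, H i j a b x = Es (th0 i₀) (cf (th0 i₀) (H i j a b)) x
  rL0 : ∀ j a b, RD (cf 0 (Λ j a b)) ∧ ∀ x ∈ cube n, Λ j a b x = Es 0 (cf 0 (Λ j a b)) x
  rL1 : ∀ j a b, RD (cf (th0 i₀) (Λ j a b)) ∧
    ∀ x ∈ cube n, Λ j a b x = Es (th0 i₀) (cf (th0 i₀) (Λ j a b)) x
  rM0 : ∀ j a b, RD (cf 0 (Λ₀ j a b)) ∧ ∀ x ∈ cube n, Λ₀ j a b x = Es 0 (cf 0 (Λ₀ j a b)) x
  rM1 : ∀ j a b, RD (cf (th0 i₀) (Λ₀ j a b)) ∧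
    ∀ x ∈ cube n, Λ₀ j a b x = Es (th0 i₀) (cf (th0 i₀) (Λ₀ j a b)) x
  n0 : ∀ j a b, nm m (cf 0 (Λ₀ j a b)) ≤ C3 * B
  n1 : ∀ j a b, nm m (cf (th0 i₀) (Λ₀ j a b)) ≤ C3 * B
  rνd : ∀ j a b, RD fun k => cf 0 (Λ j a b) k - cf 0 (Λ₀ j a b) k
  rμd : ∀ j a b, RD fun k => cf (th0 i₀) (Λ j a b) k - cf (th0 i₀) (Λ₀ j a b) k
  nH : ∀ i j a b, nm 0 (cf 0 (H i j a b)) ≤ A
  nH1 : ∀ i j a b, nm 0 (cf (th0 i₀) (H i j a b)) ≤ C4 * A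
  nν : ∀ j a b, nm 0 (cf 0 (Λ j a b)) ≤ C3 * B + A
  nνd : ∀ j a b, nm 0 (fun k => cf 0 (Λ j a b) k - cf 0 (Λ₀ j a b) k) ≤ A
  nμd : ∀ j a b, nm 0 (fun k => cf (th0 i₀) (Λ j a b) k - cf (th0 i₀) (Λ₀ j a b) k) ≤ C4 * A
  ry₀ : ∀ i a, RD (y₀ i a)
  ey₀ : ∀ i a k, y₀ i a k = -(lmz i₀ z k i / (∑ j, lmz i₀ z k j ^ 2) *
    ∑ J : Fin n × Fin N, (zt z β J * cf (th0 i₀) (Λ₀ J.1 a J.2) k +
      cv (cf 0 (Λ₀ J.1 a J.2)) (y₀ J.1 J.2) k))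
  ny₀ : ∀ i a, nm m (y₀ i a) ≤ C * X * B
  my₀ : ∀ i a, nm 0 (y₀ i a) ≤ X
  rr : ∀ i a, RD (r i a)
  er : ∀ i a k, y₀ i a k + r i a k = -(lmz i₀ z k i / (∑ j, lmz i₀ z k j ^ 2) *
    RV (lmz i₀ z) z β (fun i j a b => cf 0 (H i j a b)) (fun i j a b => cf (th0 i₀) (H i j a b))
      (fun j a b => cf 0 (Λ j a b)) (fun j a b => cf (th0 i₀) (Λ j a b))
      (fun i a k => y₀ i a k + r i a k) a k)
  nr' : ∀ i a, nm 0 (r i a) ≤ C * X ^ 2 * A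

theorem coefsM (hS : RowSYM) (hA2 : RowA2) (hNEU : RowNEU) {m : ℕ} {C3 C4 : ℝ}
    (hC3 : 0 < C3) (hC4 : 0 < C4)
    (h3 : ∀ (f : V n → ℂ), ContDiff ℝ ∞ f → tsupport f ⊆ cube n → ∀ θ : V n,
      (∀ j, |θ j| ≤ 1) → RD (cf θ f) ∧ (∀ x ∈ cube n, f x = Es θ (cf θ f) x) ∧
      ∀ B, Cl (m + n + 1) B f → nm m (cf θ f) ≤ C3 * B)
    (h4 : ∀ (f : V n → ℂ), ContDiff ℝ ∞ f → (∀ x ∉ core n, f x = 0) → ∀ θ : V n,
      (∀ j, |θ j| ≤ 1) → nm 0 (cf θ f) ≤ C4 * nm 0 (cf 0 f))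
    {i₀ : Fin n} (β : Fin N) {e : ℝ} {ξ : V n} (he : e = 1 ∨ e = -1) (h0 : ξ i₀ = 0)
    (hX : 1 ≤ nr ξ)
    {H : Fin n → Fin n → Fin N → Fin N → V n → ℂ} {Λ₀ Λ : Fin n → Fin N → Fin N → V n → ℂ}
    (sH : ∀ i j a b, ContDiff ℝ ∞ (H i j a b)) (sΛ₀ : ∀ j a b, ContDiff ℝ ∞ (Λ₀ j a b))
    (sΛ : ∀ j a b, ContDiff ℝ ∞ (Λ j a b)) (zH : ∀ i j a b, ∀ x ∉ core n, H i j a b x = 0)
    (zΛ₀ : ∀ j a b, ∀ x ∉ core n, Λ₀ j a b x = 0) (zΛ : ∀ j a b, ∀ x ∉ core n, Λ j a b x = 0)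
    {B A : ℝ} (hb : ∀ j a b, Cl (m + n + 1) B (Λ₀ j a b))
    (hAH : ∀ i j a b, nm 0 (cf 0 (H i j a b)) ≤ A)
    (hAΛ : ∀ j a b, nm 0 (cf 0 (fun x => Λ j a b x - Λ₀ j a b x)) ≤ A)
    (hCb : K1 n N Real.pi C3 C4 * B ≤ 1) (hCA : K1 n N Real.pi C3 C4 * nr ξ * A ≤ 1) :
    ∃ y₀ r, DM m i₀ β (nr ξ) (K1 n N Real.pi C3 C4) C3 C4 B A (zs e i₀ ξ) H Λ₀ Λ y₀ r := by
  have hpi := Real.pi_gt_three
  obtain ⟨hz, hzn, -⟩ := hS i₀ e ξ he h0 hX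
  have S := sy_of hS he h0 hX
  have hθ := th0_le i₀
  have h00 : ∀ j : Fin n, |(0 : V n) j| ≤ 1 := by simp
  have hb0 : 0 ≤ B := (norm_nonneg _).trans (hb i₀ β β 0 (Nat.zero_le _) 0)
  have hA0 : 0 ≤ A := (nmm_nonneg 0 _).trans (hAH i₀ i₀ β β)
  have hX0 : 0 ≤ nr ξ := by linarith
  obtain ⟨ar1, ar2, ar3, ar4⟩ := arithM1 (Nat.cast_nonneg n) (Nat.cast_nonneg N) hC3.le hC4.le
    (by linarith) hb0 hA0 hX hCb hCA
  have a3 : ∀ (f : V n → ℂ), ContDiff ℝ ∞ f → (∀ x ∉ core n, f x = 0) → ∀ t : V n,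
      (∀ j, |t j| ≤ 1) → RD (cf t f) ∧ ∀ x ∈ cube n, f x = Es t (cf t f) x := by
    intro f hf hf0 t ht
    have := h3 f hf (tsup hf0) t ht
    exact ⟨this.1, this.2.1⟩
  have rH0 := fun i j a b => a3 (H i j a b) (sH i j a b) (zH i j a b) 0 h00
  have rH1 := fun i j a b => a3 (H i j a b) (sH i j a b) (zH i j a b) (th0 i₀) hθ
  have rΛ0 := fun j a b => a3 (Λ j a b) (sΛ j a b) (zΛ j a b) 0 h00
  have rΛ1 := fun j a b => a3 (Λ j a b) (sΛ j a b) (zΛ j a b) (th0 i₀) hθ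
  have rΛ₀0 := fun j a b => a3 (Λ₀ j a b) (sΛ₀ j a b) (zΛ₀ j a b) 0 h00
  have rΛ₀1 := fun j a b => a3 (Λ₀ j a b) (sΛ₀ j a b) (zΛ₀ j a b) (th0 i₀) hθ
  have n0 : ∀ j a b, nm m (cf 0 (Λ₀ j a b)) ≤ C3 * B := fun j a b =>
    (h3 (Λ₀ j a b) (sΛ₀ j a b) (tsup (zΛ₀ j a b)) 0 h00).2.2 B (hb j a b)
  have n1 : ∀ j a b, nm m (cf (th0 i₀) (Λ₀ j a b)) ≤ C3 * B := fun j a b =>
    (h3 (Λ₀ j a b) (sΛ₀ j a b) (tsup (zΛ₀ j a b)) (th0 i₀) hθ).2.2 B (hb j a b)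
  obtain ⟨y₀, ry₀, ey₀, ny₀⟩ := firstM hA2 hNEU S hzn β (fun j a b => cf 0 (Λ₀ j a b))
    (fun j a b => cf (th0 i₀) (Λ₀ j a b)) (fun j a b => (rΛ₀0 j a b).1)
    (fun j a b => (rΛ₀1 j a b).1) m (C3 * B) n0 n1 ar1
  have hy₀X : ∀ i a, nm m (y₀ i a) ≤ K1 n N Real.pi C3 C4 * nr ξ * B :=
    fun i a => (ny₀ i a).trans ar2
  have hy₀1 : ∀ i a, nm 0 (y₀ i a) ≤ nr ξ := by
    intro i a
    refine (nm_le_nmm (ry₀ i a) m).trans ((hy₀X i a).trans ?_)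
    have := mul_le_mul_of_nonneg_left hCb hX0
    linarith
  have sd : ∀ j a b, ContDiff ℝ ∞ fun x => Λ j a b x - Λ₀ j a b x := fun j a b =>
    (sΛ j a b).sub (sΛ₀ j a b)
  have zd : ∀ j a b, ∀ x ∉ core n, Λ j a b x - Λ₀ j a b x = 0 := fun j a b x hx => by
    rw [zΛ j a b x hx, zΛ₀ j a b x hx, sub_zero]
  have eνd : ∀ j a b, (fun k => cf 0 (Λ j a b) k - cf 0 (Λ₀ j a b) k) =
      cf 0 (fun x => Λ j a b x - Λ₀ j a b x) :=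
    fun j a b => by
      funext k
      rw [cf_sub (sΛ j a b) (zΛ j a b) (sΛ₀ j a b) (zΛ₀ j a b)]
  have eμd : ∀ j a b, (fun k => cf (th0 i₀) (Λ j a b) k - cf (th0 i₀) (Λ₀ j a b) k) =
      cf (th0 i₀) (fun x => Λ j a b x - Λ₀ j a b x) := fun j a b => by
    funext k
    rw [cf_sub (sΛ j a b) (zΛ j a b) (sΛ₀ j a b) (zΛ₀ j a b)]
  have rνd : ∀ j a b, RD fun k => cf 0 (Λ j a b) k - cf 0 (Λ₀ j a b) k := fun j a b => by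
    rw [eνd j a b]
    exact (a3 _ (sd j a b) (zd j a b) 0 h00).1
  have rμd : ∀ j a b, RD fun k => cf (th0 i₀) (Λ j a b) k - cf (th0 i₀) (Λ₀ j a b) k :=
    fun j a b => by
      rw [eμd j a b]
      exact (a3 _ (sd j a b) (zd j a b) (th0 i₀) hθ).1
  have nνd : ∀ j a b, nm 0 (fun k => cf 0 (Λ j a b) k - cf 0 (Λ₀ j a b) k) ≤ A := fun j a b => by
    rw [eνd j a b]
    exact hAΛ j a b
  have nμd : ∀ j a b, nm 0 (fun k => cf (th0 i₀) (Λ j a b) k - cf (th0 i₀) (Λ₀ j a b) k) ≤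
      C4 * A := fun j a b => by
    rw [eμd j a b]
    exact (h4 _ (sd j a b) (zd j a b) (th0 i₀) hθ).trans
      (mul_le_mul_of_nonneg_left (hAΛ j a b) hC4.le)
  have nH1 : ∀ i j a b, nm 0 (cf (th0 i₀) (H i j a b)) ≤ C4 * A := fun i j a b =>
    (h4 _ (sH i j a b) (zH i j a b) (th0 i₀) hθ).trans
      (mul_le_mul_of_nonneg_left (hAH i j a b) hC4.le)
  have nν : ∀ j a b, nm 0 (cf 0 (Λ j a b)) ≤ C3 * B + A := by
    intro j a b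
    have h5 := nm_add_le (rΛ₀0 j a b).1 (rνd j a b)
    have h6 : (fun k => cf 0 (Λ₀ j a b) k + (cf 0 (Λ j a b) k - cf 0 (Λ₀ j a b) k)) =
        cf 0 (Λ j a b) := by
      funext k
      ring
    rw [h6] at h5
    have h7 := nm_le_nmm (rΛ₀0 j a b).1 m
    have h8 := n0 j a b
    have h9 := nνd j a b
    linarith
  obtain ⟨r, rr, er, nr'⟩ := secondM hA2 hNEU S hzn β (fun i j a b => cf 0 (H i j a b))
    (fun i j a b => cf (th0 i₀) (H i j a b)) (fun j a b => cf 0 (Λ j a b))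
    (fun j a b => cf (th0 i₀) (Λ j a b))
    (fun j a b => cf 0 (Λ₀ j a b)) (fun j a b => cf (th0 i₀) (Λ₀ j a b))
    (fun i j a b => (rH0 i j a b).1)
    (fun i j a b => (rH1 i j a b).1) (fun j a b => (rΛ0 j a b).1) (fun j a b => (rΛ₀0 j a b).1)
    rνd rμd y₀ ry₀ ey₀
    A (C3 * B + A) (C4 * A) hA0 hAH nν nH1 nνd nμd hy₀1 ar3
  exact ⟨y₀, r, rH0, rH1, rΛ0, rΛ1, rΛ₀0, rΛ₀1, n0, n1, rνd, rμd, hAH, nH1, nν, nνd, nμd, ry₀,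
    ey₀, hy₀X, hy₀1, rr, er, fun i a => (nr' i a).trans ar4⟩

end Vale.Agent.P088.LR.CF.H393
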