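import Vale.Agent.P088.H442.Defs3

/-!
# P088, stage J: vector valued solutions with values and gradients
-/

open MeasureTheory Set
open scoped ContDiff Matrix

noncomputable section

namespace Vale.Agent.P088.LR.CF

variable {n N : ℕ}

/-- `W = e^{z·x} (e_β + Es θ c)`, with `y_i = λ_i c`, a solution of
`∑_i ∂_i (∂_i W + ∑_j H_ij ∂_j W) + ∑_j Λ_j ∂_j W = 0` on the cube (matrix coefficients). -/
structure SolM (z : Fin n → ℂ) (θ : V n) (β : Fin N)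
    (H : Fin n → Fin n → Fin N → Fin N → V n → ℂ) (Λ : Fin n → Fin N → Fin N → V n → ℂ)
    (y : Fin n → Fin N → Ix n → ℂ) (c : Fin N → Ix n → ℂ) (W : Fin N → V n → ℂ) : Prop where
  ry : ∀ i a, RD (y i a)
  rc : ∀ a, RD (c a)
  yc : ∀ i a k, y i a k = (2 * Real.pi * Complex.I * ((fr θ k i : ℝ) : ℂ) + z i) * c a k
  sW : ∀ a, ContDiff ℝ ∞ (W a)
  val : ∀ a x, W a x = Complex.exp (∑ j, z j * x j) * ((if a = β then 1 else 0) + Es θ (c a) x)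
  gr : ∀ i a x, pd i (W a) x =
    Complex.exp (∑ j, z j * x j) * ((if a = β then z i else 0) + Es θ (y i a) x)
  eq : ∀ a, ∀ x ∈ cube n, (∑ i, pd i (fun y => pd i (W a) y +
      ∑ j, ∑ b, H i j a b y * pd j (W b) y) x) + ∑ j, ∑ b, Λ j a b x * pd j (W b) x = 0

/-- (J_CGO, vector valued) the solutions in the frame `e_{i₀}`. -/
def RowCGM : Prop := ∀ (n N m : ℕ), ∃ C : ℝ, 0 < C ∧ ∀ (i₀ : Fin n) (β : Fin N) (e : ℝ) (ξ : V n),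
  (e = 1 ∨ e = -1) → ξ i₀ = 0 → 1 ≤ nr ξ →
  ∀ (H : Fin n → Fin n → Fin N → Fin N → V n → ℂ) (Λ₀ Λ : Fin n → Fin N → Fin N → V n → ℂ),
  (∀ i j a b, ContDiff ℝ ∞ (H i j a b)) → (∀ j a b, ContDiff ℝ ∞ (Λ₀ j a b)) →
  (∀ j a b, ContDiff ℝ ∞ (Λ j a b)) →
  (∀ i j a b, ∀ x ∉ core n, H i j a b x = 0) → (∀ j a b, ∀ x ∉ core n, Λ₀ j a b x = 0) →
  (∀ j a b, ∀ x ∉ core n, Λ j a b x = 0) → ∀ B A : ℝ,
  (∀ j a b, Cl (m + n + 1) B (Λ₀ j a b)) →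
  (∀ i j a b, nm 0 (cf 0 (H i j a b)) ≤ A) →
  (∀ j a b, nm 0 (cf 0 (fun x => Λ j a b x - Λ₀ j a b x)) ≤ A) →
  C * B ≤ 1 → C * nr ξ * A ≤ 1 →
  ∃ (y₀ y : Fin n → Fin N → Ix n → ℂ) (c₀ c : Fin N → Ix n → ℂ) (W₀ W : Fin N → V n → ℂ),
    SolM (zs e i₀ ξ) (th0 i₀) β (fun _ _ _ _ _ => 0) Λ₀ y₀ c₀ W₀ ∧
    SolM (zs e i₀ ξ) (th0 i₀) β H Λ y c W ∧ (∀ i a, nm m (y₀ i a) ≤ C * nr ξ * B) ∧
    (∀ i a, nm 0 (fun k => y i a k - y₀ i a k) ≤ C * nr ξ ^ 2 * A) ∧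
    (∀ a, nm m (c₀ a) ≤ C * B) ∧ ∀ a, nm 0 (fun k => c a k - c₀ a k) ≤ C * nr ξ * A

end Vale.Agent.P088.LR.CF
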