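import Vale.Agent.P088.H198.Defs2
import Vale.Agent.P088.H393.Est3

/-!
# P088, row CGO
-/

open MeasureTheory Set
open scoped ContDiff Matrix

noncomputable section

namespace Vale.Agent.P088.LR.H393

open Vale.Agent.P088.LR

variable {n : ℕ}

theorem zp_eq_zz (ξ q : Ix n) (j : Fin n) :
    zp ξ q j = zz (Real.pi * nX ξ / nX q) ξ q j := by
  unfold zp zz et
  apply Complex.ext
  · simp
  · simp

theorem ent_smooth {s : MF n} (hs : SmM s) (i j : Fin n) : ContDiff ℝ ∞ (ent s i j) := by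
  unfold ent
  exact Complex.ofRealCLM.contDiff.comp ((hs i j).sub contDiff_const)

theorem core_closed : IsClosed (core n) := by
  have : core n = ⋂ j, {x : V n | 1 / 4 ≤ x j} ∩ {x : V n | x j ≤ 3 / 4} := by
    ext x
    simp [core]
  rw [this]
  exact isClosed_iInter fun j => (isClosed_le continuous_const (continuous_apply j)).inter
    (isClosed_le (continuous_apply j) continuous_const)

theorem ent_zero {s : MF n} {x : V n} (h : s x = 1) (i j : Fin n) : ent s i j x = 0 := by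
  unfold ent
  rw [h]
  simp

theorem ent_tsupport {s : MF n} {Ω : Set (V n)} (hcore : Ω ⊆ core n) (hoff : ∀ x ∉ Ω, s x = 1)
    (i j : Fin n) : tsupport (ent s i j) ⊆ cube n := by
  have h1 : tsupport (ent s i j) ⊆ core n := by
    refine closure_minimal ?_ core_closed
    intro x hx
    by_contra hc
    exact hx (ent_zero (hoff x fun h => hc (hcore h)) i j)
  refine h1.trans fun x hx j => ?_
  have := hx j
  constructor <;> linarith [this.1, this.2]

/-- (CGO). -/
theorem cgo (hA1 : RowA1) (hA2 : RowA2) (hA3 : RowA3) (hA4 : RowA4) (hNEU : RowNEU) : RowCGO := by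
  intro n
  obtain ⟨C3, hC3, h3⟩ := hA3 n 0
  obtain ⟨C4, hC4, h4⟩ := hA4 n
  have hpi := Real.pi_pos
  refine ⟨24 * n + 48 * Real.pi * n * C4 + 1, by positivity, ?_⟩
  intro Ω hΩ hcore s hs hsym hoff hdiv a ha ξ q hξ hq hqx hwq hsmall X Q t hX hQ ht
  have hX' : X = nX ξ := hX
  have hQ' : Q = nX q := hQ
  have r0 : ∀ i j, RD (cf 0 (ent s i j)) ∧ ∀ x ∈ cube n, ent s i j x =
      Es 0 (cf 0 (ent s i j)) x := fun i j => by
    have := h3 (ent s i j) (ent_smooth hs i j) (ent_tsupport hcore hoff i j) 0 (by simp)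
    exact ⟨this.1, this.2.1⟩
  have r1 : ∀ i j, RD (cf (th q) (ent s i j)) ∧ ∀ x ∈ cube n, ent s i j x =
      Es (th q) (cf (th q) (ent s i j)) x := fun i j => by
    have := h3 (ent s i j) (ent_smooth hs i j) (ent_tsupport hcore hoff i j) (th q) (th_le hq)
    exact ⟨this.1, this.2.1⟩
  have r4 : ∀ i j, nm 0 (cf (th q) (ent s i j)) ≤ C4 * nm 0 (cf 0 (ent s i j)) := fun i j =>
    h4 (ent s i j) (ent_smooth hs i j)
      (fun x hx => ent_zero (hoff x fun h => hx (hcore h)) i j) (th q) (th_le hq)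
  have ha0 : 0 ≤ a := by
    rw [ha]
    exact Finset.sum_nonneg fun i _ => Finset.sum_nonneg fun j _ => nm_nonneg _
  have hw := one_le_wt ξ
  have hXw := nX_le_wt ξ
  have hX0 := nX_nonneg ξ
  have hQw : nX q ≤ 4 * wt ξ ^ 2 := (nX_le_wt q).trans hwq
  have hQ0 := nX_nonneg q
  have hXQ : nX ξ * nX q ≤ 4 * wt ξ ^ 3 := by
    calc nX ξ * nX q ≤ wt ξ * (4 * wt ξ ^ 2) := mul_le_mul hXw hQw hQ0 (by linarith)
      _ = _ := by ring
  have hn0 : (0 : ℝ) ≤ n := Nat.cast_nonneg n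
  have hcs : (n : ℝ) * (3 * (nX ξ * nX q)) * ∑ i, ∑ j, nm 0 (cf 0 (ent s i j)) ≤ 1 / 2 := by
    rw [← ha]
    have h5 : wt ξ ^ 3 ≤ wt ξ ^ 8 := pow_le_pow_right₀ hw (by norm_num)
    have h6 : (n : ℝ) * (3 * (nX ξ * nX q)) * a ≤ n * (3 * (4 * wt ξ ^ 8)) * a := by
      refine mul_le_mul_of_nonneg_right ?_ ha0
      refine mul_le_mul_of_nonneg_left ?_ hn0
      linarith
    have h7 : 0 ≤ wt ξ ^ 8 * a := by positivity
    have h8 : 0 ≤ (48 * Real.pi * n * C4 + 1) * (wt ξ ^ 8 * a) := by positivity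
    nlinarith
  obtain ⟨y, c, hy, hc, hyc, heq, hyn⟩ := exists_y hA2 hNEU hξ hq hqx
    (fun i j => cf 0 (ent s i j)) (fun i j => cf (th q) (ent s i j))
    (fun i j => (r0 i j).1) (fun i j => (r1 i j).1) hcs
  have htt : t = Real.pi * nX ξ / nX q := by rw [ht, hX', hQ']
  refine ⟨th q, y, WW ξ q c, hy, WW_contDiff hA1 ξ q hc, ?_, ?_, ?_⟩
  · intro i x
    rw [pd_WW hA1 ξ q hc y hyc, htt, ← zp_eq_zz]
    congr 1
    unfold EE
    rw [LL_apply]
    congr 1
    exact Finset.sum_congr rfl fun j _ => by rw [zp_eq_zz]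
  · exact dv_WW hA1 hA2 hq hqx s _ _ (fun i j => (r0 i j).1) (fun i j => (r1 i j).1)
      (fun i j => (r0 i j).2) (fun i j => (r1 i j).2) y hy hc hyc heq
  · refine hyn.trans ?_
    have h9 : ∑ i, ∑ j, nm 0 (cf (th q) (ent s i j)) ≤ C4 * a := by
      rw [ha, Finset.mul_sum]
      refine Finset.sum_le_sum fun i _ => ?_
      rw [Finset.mul_sum]
      exact Finset.sum_le_sum fun j _ => r4 i j
    have h10 : 3 * (nX ξ * nX q) * (2 * Real.pi * nX ξ) ≤ 24 * Real.pi * wt ξ ^ 5 := by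
      calc 3 * (nX ξ * nX q) * (2 * Real.pi * nX ξ)
          ≤ 3 * (4 * wt ξ ^ 3) * (2 * Real.pi * wt ξ) := by
            refine mul_le_mul (by linarith) ?_ (by positivity) (by positivity)
            exact mul_le_mul_of_nonneg_left hXw (by positivity)
        _ = 24 * Real.pi * wt ξ ^ 4 := by ring
        _ ≤ 24 * Real.pi * wt ξ ^ 5 := by
            refine mul_le_mul_of_nonneg_left ?_ (by positivity)
            exact pow_le_pow_right₀ hw (by norm_num)
    have h11 : 3 * (nX ξ * nX q) * (2 * Real.pi * nX ξ) *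
        ∑ i, ∑ j, nm 0 (cf (th q) (ent s i j)) ≤ 24 * Real.pi * wt ξ ^ 5 * (C4 * a) := by
      refine mul_le_mul h10 h9 ?_ (by positivity)
      exact Finset.sum_nonneg fun i _ => Finset.sum_nonneg fun j _ => nm_nonneg _
    have h12 : 0 ≤ (24 * n + 1) * (wt ξ ^ 5 * a) := by positivity
    calc 2 * (n * (3 * (nX ξ * nX q) * (2 * Real.pi * nX ξ) *
        ∑ i, ∑ j, nm 0 (cf (th q) (ent s i j))))
        ≤ 2 * (n * (24 * Real.pi * wt ξ ^ 5 * (C4 * a))) :=
          mul_le_mul_of_nonneg_left (mul_le_mul_of_nonneg_left h11 hn0) (by norm_num)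
      _ ≤ _ := by nlinarith

end Vale.Agent.P088.LR.H393
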