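import Vale.Agent.P088.H393.Est1

/-!
# P088, row EST, part 2: the Neumann solution
-/

open MeasureTheory Set
open scoped ContDiff Matrix

noncomputable section

namespace Vale.Agent.P088.LR.H393

open Vale.Agent.P088.LR

variable {n : ℕ}

theorem sn {c : Ix n → ℂ} (h : RD c) : Summable fun k => ‖c k‖ := by
  have := h 0
  simpa using this

theorem nm_zero_eq (c : Ix n → ℂ) : nm 0 c = ∑' k, ‖c k‖ := by
  unfold nm
  simp

theorem nm_nonneg (c : Ix n → ℂ) : 0 ≤ nm 0 c := by
  rw [nm_zero_eq]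
  exact tsum_nonneg fun _ => norm_nonneg _

theorem rd_of_le {ι : Type*} [Fintype ι] {d : ι → Ix n → ℂ} (hd : ∀ i, RD (d i)) (C : ℝ)
    {c : Ix n → ℂ} (h : ∀ k, ‖c k‖ ≤ C * ∑ i, ‖d i k‖) : RD c := by
  intro m
  refine Summable.of_nonneg_of_le (fun k => ?_) (fun k => ?_)
    ((summable_sum (s := Finset.univ) fun i _ => hd i m).mul_left C)
  · have := one_le_wt k
    positivity
  · have h1 := one_le_wt k
    calc wt k ^ m * ‖c k‖ ≤ wt k ^ m * (C * ∑ i, ‖d i k‖) :=
          mul_le_mul_of_nonneg_left (h k) (by positivity)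
      _ = C * ∑ i, wt k ^ m * ‖d i k‖ := by
          simp only [Finset.mul_sum]
          exact Finset.sum_congr rfl fun i _ => by ring

theorem nm_le_of {ι : Type*} [Fintype ι] {d : ι → Ix n → ℂ} (hd : ∀ i, RD (d i)) (C : ℝ)
    {c : Ix n → ℂ} (h : ∀ k, ‖c k‖ ≤ C * ∑ i, ‖d i k‖) : nm 0 c ≤ C * ∑ i, nm 0 (d i) := by
  have hc := rd_of_le hd C h
  simp_rw [nm_zero_eq]
  calc ∑' k, ‖c k‖ ≤ ∑' k, C * ∑ i, ‖d i k‖ :=
        (sn hc).tsum_le_tsum h
          ((summable_sum (s := Finset.univ) fun i _ => sn (hd i)).mul_left C)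
    _ = C * ∑ i, ∑' k, ‖d i k‖ := by
        rw [tsum_mul_left, Summable.tsum_finsetSum (fun i _ => sn (hd i))]

theorem rd_add {c d : Ix n → ℂ} (hc : RD c) (hd : RD d) : RD fun k => c k + d k := by
  refine rd_of_le (ι := Bool) (d := fun b => if b then c else d) (fun b => ?_) 1 (fun k => ?_)
  · cases b
    · simpa using hd
    · simpa using hc
  · simp only [Fintype.sum_bool, if_true, one_mul]
    simpa using norm_add_le (c k) (d k)

theorem rd_const_mul {c : Ix n → ℂ} (hc : RD c) (a : ℂ) : RD fun k => a * c k := by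
  refine rd_of_le (ι := Unit) (d := fun _ => c) (fun _ => hc) ‖a‖ (fun k => ?_)
  simp

theorem rd_sum {ι : Type*} [Fintype ι] {d : ι → Ix n → ℂ} (hd : ∀ i, RD (d i)) :
    RD fun k => ∑ i, d i k :=
  rd_of_le hd 1 (fun k => by rw [one_mul]; exact norm_sum_le _ _)

/-- The solution of the equation in `ℓ¹`. -/
theorem exists_y (hA2 : RowA2) (hNEU : RowNEU) {ξ q : Ix n} (hξ : ξ ≠ 0) (hq : q ≠ 0)
    (hqx : ∑ j, q j * ξ j = 0) (h g : Fin n → Fin n → Ix n → ℂ) (hh : ∀ i j, RD (h i j))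
    (hg : ∀ i j, RD (g i j))
    (hs : n * (3 * (nX ξ * nX q)) * ∑ i, ∑ j, nm 0 (h i j) ≤ 1 / 2) :
    ∃ (y : Fin n → Ix n → ℂ) (c : Ix n → ℂ), (∀ i, RD (y i)) ∧ RD c ∧
      (∀ i k, y i k = lam ξ q k i * c k) ∧
      (∀ k, pp ξ q k * c k + ∑ r, lam ξ q k r *
        ∑ m, (zp ξ q m * g r m k + cv (h r m) (y m) k) = 0) ∧
      ∑ i, nm 0 (y i) ≤ 2 * (n * (3 * (nX ξ * nX q) * (2 * Real.pi * nX ξ) *
        ∑ i, ∑ j, nm 0 (g i j))) := by
  set N : ℝ := 3 * (nX ξ * nX q) with hN
  have hN0 : 0 ≤ N := by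
    have := nX_nonneg ξ
    have := nX_nonneg q
    positivity
  set Z : ℝ := 2 * Real.pi * nX ξ with hZ
  have hZ0 : 0 ≤ Z := by
    have := nX_nonneg ξ
    have := Real.pi_pos
    positivity
  set A : Ix n → Fin n → Fin n → ℂ := fun k i r => lam ξ q k i / pp ξ q k * lam ξ q k r with hA
  have hAle : ∀ k i r, ‖A k i r‖ ≤ N := fun k i r => lam_mul_le hξ hq hqx k i r
  set M : Ix n → Ix n → Fin n → Fin n → ℂ := fun k l i j => -∑ r, A k i r * h r j (k - l) with hM
  set b : Ix n → Fin n → ℂ := fun k i => -∑ r, ∑ m, A k i r * (zp ξ q m * g r m k) with hb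
  set γ : Ix n → ℝ := fun k => n * N * ∑ r, ∑ j, ‖h r j k‖ with hγ
  have hbI : ∀ i k, ‖b k i‖ ≤ N * Z * ∑ p : Fin n × Fin n, ‖g p.1 p.2 k‖ := by
    intro i k
    simp only [hb, norm_neg]
    refine (norm_sum_le _ _).trans ?_
    rw [Fintype.sum_prod_type, Finset.mul_sum]
    refine Finset.sum_le_sum fun r _ => ?_
    refine (norm_sum_le _ _).trans ?_
    rw [Finset.mul_sum]
    refine Finset.sum_le_sum fun m _ => ?_
    have h5 : ‖A k i r‖ * ‖zp ξ q m‖ ≤ N * Z :=
      mul_le_mul (hAle k i r) (norm_zp_le hq m) (norm_nonneg _) hN0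
    calc ‖A k i r * (zp ξ q m * g r m k)‖ = ‖A k i r‖ * ‖zp ξ q m‖ * ‖g r m k‖ := by
          rw [norm_mul (A k i r), norm_mul (zp ξ q m), mul_assoc]
      _ ≤ N * Z * ‖g r m k‖ := mul_le_mul_of_nonneg_right h5 (norm_nonneg _)
  have hbRD : ∀ i, RD fun k => b k i := fun i =>
    rd_of_le (ι := Fin n × Fin n) (d := fun p => g p.1 p.2) (fun p => hg p.1 p.2) (N * Z) (hbI i)
  have hbnm : ∀ i, (nm 0 fun k => b k i) ≤ N * Z * ∑ i, ∑ j, nm 0 (g i j) := fun i => by
    have := nm_le_of (ι := Fin n × Fin n) (d := fun p => g p.1 p.2) (fun p => hg p.1 p.2)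
      (N * Z) (hbI i)
    rwa [Fintype.sum_prod_type] at this
  obtain ⟨Y, hYRD, hYeq, hYnm⟩ := hNEU M γ b (by
      intro m
      have h1 : ∀ k, wt k ^ m * γ k = n * N * ∑ r, ∑ j, wt k ^ m * ‖h r j k‖ := by
        intro k
        simp only [hγ, Finset.mul_sum]
        refine Finset.sum_congr rfl fun r _ => Finset.sum_congr rfl fun j _ => by ring
      simp_rw [h1]
      exact (summable_sum fun r _ => summable_sum fun j _ => hh r j m).mul_left _)
    (by intro k; simp only [hγ]; positivity)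
    (by
      intro k l j
      simp only [hM, hγ, norm_neg]
      have h1 : ∀ i, ‖∑ r, A k i r * h r j (k - l)‖ ≤ N * ∑ r, ∑ j, ‖h r j (k - l)‖ := by
        intro i
        refine (norm_sum_le _ _).trans ?_
        rw [Finset.mul_sum]
        refine Finset.sum_le_sum fun r _ => ?_
        rw [norm_mul]
        refine mul_le_mul (hAle k i r) ?_ (norm_nonneg _) hN0
        exact Finset.single_le_sum (f := fun j => ‖h r j (k - l)‖) (fun _ _ => norm_nonneg _)
          (Finset.mem_univ j)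
      refine (Finset.sum_le_sum fun i _ => h1 i).trans (le_of_eq ?_)
      rw [Finset.sum_const, Finset.card_univ, Fintype.card_fin, nsmul_eq_mul]
      ring)
    hbRD 0
    (by
      have h1 : ∀ k, wt k ^ 0 * γ k = n * N * ∑ r, ∑ j, ‖h r j k‖ := by
        intro k
        simp only [hγ, pow_zero, one_mul]
      simp_rw [h1]
      rw [tsum_mul_left, Summable.tsum_finsetSum (fun r _ => summable_sum (fun j _ =>
        sn (hh r j)))]
      have h2 : ∀ r, ∑' k, ∑ j, ‖h r j k‖ = ∑ j, nm 0 (h r j) := by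
        intro r
        rw [Summable.tsum_finsetSum (fun j _ => sn (hh r j))]
        exact Finset.sum_congr rfl fun j _ => (nm_zero_eq _).symm
      simp_rw [h2]
      exact hs)
  set F : Ix n → ℂ := fun k => ∑ r, lam ξ q k r *
        ∑ m, (zp ξ q m * g r m k + cv (h r m) (fun k => Y k m) k) with hF
  have key : ∀ i k, Y k i = lam ξ q k i * (-F k / pp ξ q k) := by
    intro i k
    rw [hYeq k i]
    have h1 : ∑' l, ∑ j, M k l i j * Y l j =
        -∑ j, ∑ r, A k i r * cv (h r j) (fun k => Y k j) k := by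
      have h2 : ∀ l, ∑ j, M k l i j * Y l j = -∑ j, ∑ r, A k i r * (h r j (k - l) * Y l j) := by
        intro l
        rw [← Finset.sum_neg_distrib]
        refine Finset.sum_congr rfl fun j _ => ?_
        simp only [hM]
        rw [neg_mul, Finset.sum_mul]
        congr 1
        exact Finset.sum_congr rfl fun r _ => by ring
      simp_rw [h2]
      have h3 : ∀ r j, Summable fun l => A k i r * (h r j (k - l) * Y l j) := fun r j =>
        ((hA2 0 0 (h r j) (fun k => Y k j) (hh r j) (hYRD j)).2.1 k).mul_left _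
      rw [tsum_neg, Summable.tsum_finsetSum fun j _ => summable_sum fun r _ => h3 r j]
      congr 1
      refine Finset.sum_congr rfl fun j _ => ?_
      rw [Summable.tsum_finsetSum fun r _ => h3 r j]
      refine Finset.sum_congr rfl fun r _ => ?_
      rw [tsum_mul_left]
      rfl
    rw [h1, Finset.sum_comm]
    simp only [hb, hF, hA]
    rw [← neg_add, ← Finset.sum_add_distrib, neg_div, mul_neg]
    congr 1
    rw [Finset.sum_div, Finset.mul_sum]
    refine Finset.sum_congr rfl fun r _ => ?_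
    rw [← Finset.sum_add_distrib, Finset.mul_sum, Finset.sum_div, Finset.mul_sum]
    refine Finset.sum_congr rfl fun m _ => ?_
    ring
  refine ⟨fun i k => Y k i, fun k => -F k / pp ξ q k, hYRD, ?_, key, ?_, ?_⟩
  · refine rd_of_le (ι := Fin n) (d := fun i k => Y k i) hYRD 1 (fun k => ?_)
    rw [one_mul]
    refine (norm_le_of_lam hξ hq k _).trans (le_of_eq ?_)
    exact Finset.sum_congr rfl fun i _ => by rw [← key i k]
  · intro k
    have hp := pp_ne hξ hq hqx k
    have : pp ξ q k * (-F k / pp ξ q k) = -F k := by field_simp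
    rw [this]
    simp only [hF]
    ring
  · have h1 := hYnm 0 le_rfl
    refine h1.trans ?_
    refine mul_le_mul_of_nonneg_left ?_ (by norm_num)
    refine (Finset.sum_le_sum fun i _ => hbnm i).trans (le_of_eq ?_)
    rw [Finset.sum_const, Finset.card_univ, Fintype.card_fin, nsmul_eq_mul]

end Vale.Agent.P088.LR.H393
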