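import Vale.Agent.P088.H393.UEsfD
import Vale.Agent.P088.H650.CFc

/-!
# P088, stage J, row ESFU: weighted bounds of the error terms
-/

open MeasureTheory Set Filter Topology
open scoped ContDiff Matrix

noncomputable section

namespace Vale.Agent.P088.LR.U.H393

open CF H158

variable {n N : ℕ}

/-- weighted bound, any exponent -/
theorem es_bdp {g : V n → ℂ} {p : ℕ} {a : ℝ} (ha : ∀ ζ : V n, wr ζ ^ p * ‖ft g ζ‖ ≤ a)
    {c : Ix n → ℂ} (hc : RD c) {θ : V n} (hθ : ∑ j, |θ j| ≤ 1) (ξ : V n) :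
    wr ξ ^ p * ‖∑' m, c m * ft g (ξ - fr θ m)‖ ≤ 2 ^ p * (a * nm p c) := by
  have hw : 0 < wr ξ ^ p := pow_pos (by linarith [H650.wr_one ξ]) _
  have h2 : ∀ m, ‖((wr ξ ^ p : ℝ) : ℂ) * (c m * ft g (ξ - fr θ m))‖ ≤
      2 ^ p * a * (wt m ^ p * ‖c m‖) := fun m => by
    rw [norm_mul, Complex.norm_real, Real.norm_eq_abs, abs_of_pos hw, norm_mul]
    have h3 := H650.wr_pow_le hθ p ξ m
    have h4 := ha (ξ - fr θ m)
    have h5 := H776.wt_pos m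
    calc wr ξ ^ p * (‖c m‖ * ‖ft g (ξ - fr θ m)‖)
        ≤ wr (ξ - fr θ m) ^ p * (2 ^ p * wt m ^ p) *
          (‖c m‖ * ‖ft g (ξ - fr θ m)‖) := mul_le_mul_of_nonneg_right h3 (by positivity)
      _ = 2 ^ p * wt m ^ p * ‖c m‖ *
          (wr (ξ - fr θ m) ^ p * ‖ft g (ξ - fr θ m)‖) := by ring
      _ ≤ 2 ^ p * wt m ^ p * ‖c m‖ * a :=
          mul_le_mul_of_nonneg_left h4 (by positivity)
      _ = _ := by ring
  have h3 : Summable fun m => 2 ^ p * a * (wt m ^ p * ‖c m‖) := (hc p).mul_left _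
  have h4 : wr ξ ^ p * ‖∑' m, c m * ft g (ξ - fr θ m)‖ =
      ‖∑' m, ((wr ξ ^ p : ℝ) : ℂ) * (c m * ft g (ξ - fr θ m))‖ := by
    rw [tsum_mul_left, norm_mul, Complex.norm_real, Real.norm_eq_abs, abs_of_pos hw]
  rw [h4, nm, ← mul_assoc, ← tsum_mul_left]
  exact tsum_of_norm_bounded h3.hasSum h2

/-- unweighted bound, any exponent -/
theorem es_bdp0 {g : V n → ℂ} {p : ℕ} {a : ℝ} (ha : ∀ ζ : V n, wr ζ ^ p * ‖ft g ζ‖ ≤ a)
    {c : Ix n → ℂ} (hc : RD c) (θ ξ : V n) :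
    ‖∑' m, c m * ft g (ξ - fr θ m)‖ ≤ a * nm 0 c := by
  have hcn : Summable fun k => ‖c k‖ := H127.sum_of_rd hc
  have h1 : ∀ ζ : V n, ‖ft g ζ‖ ≤ a := fun ζ => by
    refine le_trans ?_ (ha ζ)
    have : 1 ≤ wr ζ ^ p := one_le_pow₀ (H650.wr_one ζ)
    nlinarith [norm_nonneg (ft g ζ)]
  have h2 : ∀ m, ‖c m * ft g (ξ - fr θ m)‖ ≤ a * ‖c m‖ := fun m => by
    rw [norm_mul, mul_comm]
    exact mul_le_mul_of_nonneg_right (h1 _) (norm_nonneg _)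
  have h3 : Summable fun m => a * ‖c m‖ := hcn.mul_left a
  rw [H650.nm_eq_zero, ← tsum_mul_left]
  exact tsum_of_norm_bounded h3.hasSum h2

/-- a function which may be inserted against any `g` with a weighted bound -/
def Gd (p : ℕ) (ξ : V n) (F : V n → ℂ) (P Q : ℝ) : Prop :=
  Continuous F ∧ ∀ g : V n → ℂ, Continuous g → HasCompactSupport g → ∀ a : ℝ,
    (∀ ζ : V n, wr ζ ^ p * ‖ft g ζ‖ ≤ a) →
    wr ξ ^ p * ‖H650.J g ξ F‖ ≤ a * (P + Q * wr ξ ^ p)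

theorem a_nonneg {g : V n → ℂ} {p : ℕ} {a : ℝ} (ha : ∀ ζ : V n, wr ζ ^ p * ‖ft g ζ‖ ≤ a) :
    0 ≤ a := by
  have h1 := H650.wr_one (0 : V n)
  exact le_trans (mul_nonneg (pow_nonneg (by linarith) p) (norm_nonneg _)) (ha 0)

theorem gd_zero (p : ℕ) (ξ : V n) : Gd p ξ (fun _ => 0) 0 0 := by
  refine ⟨continuous_const, fun g _ _ a _ => ?_⟩
  simp [H650.J]

theorem gd_add {p : ℕ} {ξ : V n} {F F' : V n → ℂ} {P P' Q Q' : ℝ} (h : Gd p ξ F P Q)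
    (h' : Gd p ξ F' P' Q') : Gd p ξ (fun x => F x + F' x) (P + P') (Q + Q') := by
  refine ⟨h.1.add h'.1, fun g hg hs a ha => ?_⟩
  have hw : 0 ≤ wr ξ ^ p := pow_nonneg (by linarith [H650.wr_one ξ]) _
  rw [H650.J_add hg hs ξ h.1 h'.1]
  calc wr ξ ^ p * ‖H650.J g ξ F + H650.J g ξ F'‖
      ≤ wr ξ ^ p * (‖H650.J g ξ F‖ + ‖H650.J g ξ F'‖) :=
        mul_le_mul_of_nonneg_left (norm_add_le _ _) hw
    _ = wr ξ ^ p * ‖H650.J g ξ F‖ + wr ξ ^ p * ‖H650.J g ξ F'‖ := by ring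
    _ ≤ a * (P + Q * wr ξ ^ p) + a * (P' + Q' * wr ξ ^ p) :=
        add_le_add (h.2 g hg hs a ha) (h'.2 g hg hs a ha)
    _ = _ := by ring

theorem gd_smul {p : ℕ} {ξ : V n} {F : V n → ℂ} {P Q : ℝ} (h : Gd p ξ F P Q) (z : ℂ) :
    Gd p ξ (fun x => z * F x) (‖z‖ * P) (‖z‖ * Q) := by
  refine ⟨continuous_const.mul h.1, fun g hg hs a ha => ?_⟩
  have e : H650.J g ξ (fun x => z * F x) = z * H650.J g ξ F := by
    rw [H650.J, H650.J, ← integral_const_mul]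
    exact integral_congr_ae (Eventually.of_forall fun x => by simp only; ring)
  rw [e, norm_mul]
  calc wr ξ ^ p * (‖z‖ * ‖H650.J g ξ F‖) = ‖z‖ * (wr ξ ^ p * ‖H650.J g ξ F‖) := by ring
    _ ≤ ‖z‖ * (a * (P + Q * wr ξ ^ p)) :=
        mul_le_mul_of_nonneg_left (h.2 g hg hs a ha) (norm_nonneg _)
    _ = _ := by ring

theorem gd_mono {p : ℕ} {ξ : V n} {F : V n → ℂ} {P Q P' Q' : ℝ} (h : Gd p ξ F P Q)
    (hP : P ≤ P') (hQ : Q ≤ Q') : Gd p ξ F P' Q' := by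
  refine ⟨h.1, fun g hg hs a ha => (h.2 g hg hs a ha).trans ?_⟩
  have hw : 0 ≤ wr ξ ^ p := pow_nonneg (by linarith [H650.wr_one ξ]) _
  exact mul_le_mul_of_nonneg_left (add_le_add hP (mul_le_mul_of_nonneg_right hQ hw))
    (a_nonneg ha)

theorem gd_congr {p : ℕ} {ξ : V n} {F F' : V n → ℂ} {P Q : ℝ} (h : Gd p ξ F P Q)
    (e : ∀ x, F' x = F x) : Gd p ξ F' P Q := by
  have : F' = F := funext e
  rw [this]
  exact h

/-- a Fourier series near another one -/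
theorem gd_es {p : ℕ} {θ : V n} (hθ : ∑ j, |θ j| ≤ 1) (ξ : V n) {c c₀ : Ix n → ℂ} (hc : RD c)
    (hc₀ : RD c₀) : Gd p ξ (Es θ c) (2 ^ p * nm p c₀) (nm 0 fun k => c k - c₀ k) := by
  refine ⟨H127.es_continuous hc θ, fun g hg hs a ha => ?_⟩
  have hr := H650.rd_sub hc hc₀
  have hw : 0 ≤ wr ξ ^ p := pow_nonneg (by linarith [H650.wr_one ξ]) _
  have e : H650.J g ξ (Es θ c) = H650.J g ξ (Es θ c₀) +
      H650.J g ξ (Es θ fun k => c k - c₀ k) := by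
    rw [← H650.J_add hg hs ξ (H127.es_continuous hc₀ θ) (H127.es_continuous hr θ)]
    exact congrArg (H650.J g ξ) (funext fun x => H650.es_split hc hc₀ θ x)
  rw [e]
  have b1 : wr ξ ^ p * ‖H650.J g ξ (Es θ c₀)‖ ≤ 2 ^ p * (a * nm p c₀) := by
    rw [H650.J, H650.ft_es hg hs hc₀]
    exact es_bdp ha hc₀ hθ ξ
  have b2 : ‖H650.J g ξ (Es θ fun k => c k - c₀ k)‖ ≤ a * nm 0 fun k => c k - c₀ k := by
    rw [H650.J, H650.ft_es hg hs hr]
    exact es_bdp0 ha hr θ ξ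
  calc wr ξ ^ p * ‖H650.J g ξ (Es θ c₀) + H650.J g ξ (Es θ fun k => c k - c₀ k)‖
      ≤ wr ξ ^ p * (‖H650.J g ξ (Es θ c₀)‖ + ‖H650.J g ξ (Es θ fun k => c k - c₀ k)‖) :=
        mul_le_mul_of_nonneg_left (norm_add_le _ _) hw
    _ = wr ξ ^ p * ‖H650.J g ξ (Es θ c₀)‖ +
        wr ξ ^ p * ‖H650.J g ξ (Es θ fun k => c k - c₀ k)‖ := by ring
    _ ≤ 2 ^ p * (a * nm p c₀) + wr ξ ^ p * (a * nm 0 fun k => c k - c₀ k) :=
        add_le_add b1 (mul_le_mul_of_nonneg_left b2 hw)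
    _ = _ := by ring

/-- a product of a Fourier series near another one with a Fourier series -/
theorem gd_es2 (hA2 : RowA2) {p : ℕ} {θ : V n} (hθ : ∑ j, |θ j| ≤ 1 / 2) (ξ : V n)
    {c c₀ d : Ix n → ℂ} (hc : RD c) (hc₀ : RD c₀) (hd : RD d) :
    Gd p ξ (fun x => Es θ c x * Es θ d x) (2 ^ p * (nm p c₀ * nm p d))
      ((nm 0 fun k => c k - c₀ k) * nm 0 d) := by
  have hr := H650.rd_sub hc hc₀
  have hθ2 : ∑ j, |(θ + θ) j| ≤ 1 := by
    have : ∑ j, |(θ + θ) j| = ∑ j, |θ j| + ∑ j, |θ j| := by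
      rw [← Finset.sum_add_distrib]
      refine Finset.sum_congr rfl fun j _ => ?_
      rw [Pi.add_apply, ← two_mul, abs_mul, abs_two, two_mul]
    rw [this]; linarith
  obtain ⟨p1, -, p3, p4⟩ := hA2 θ θ c d hc hd
  obtain ⟨q1, -, q3, q4⟩ := hA2 θ θ c₀ d hc₀ hd
  obtain ⟨r1, -, r3, r4⟩ := hA2 θ θ (fun k => c k - c₀ k) d hr hd
  refine ⟨(H127.es_continuous hc θ).mul (H127.es_continuous hd θ), fun g hg hs a ha => ?_⟩
  have ha0 := a_nonneg ha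
  have hw : 0 ≤ wr ξ ^ p := pow_nonneg (by linarith [H650.wr_one ξ]) _
  have e : H650.J g ξ (fun x => Es θ c x * Es θ d x) =
      H650.J g ξ (fun x => Es θ c₀ x * Es θ d x) +
      H650.J g ξ (fun x => Es θ (fun k => c k - c₀ k) x * Es θ d x) := by
    rw [← H650.J_add hg hs ξ (u := fun x => Es θ c₀ x * Es θ d x)
      (v := fun x => Es θ (fun k => c k - c₀ k) x * Es θ d x)
      ((H127.es_continuous hc₀ θ).mul (H127.es_continuous hd θ))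
      ((H127.es_continuous hr θ).mul (H127.es_continuous hd θ))]
    refine congrArg (H650.J g ξ) (funext fun x => ?_)
    rw [H650.es_split hc hc₀ θ x]
    ring
  have f : ∀ {c : Ix n → ℂ}, RD (cv c d) →
      (∀ x, Es θ c x * Es θ d x = Es (θ + θ) (cv c d) x) →
      H650.J g ξ (fun x => Es θ c x * Es θ d x) =
        ∑' m, cv c d m * ft g (ξ - fr (θ + θ) m) := by
    intro c h1 h2
    rw [← H650.ft_es hg hs h1 (θ + θ) ξ, H650.J]
    simp only [h2]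
  have b1 : wr ξ ^ p * ‖H650.J g ξ (fun x => Es θ c₀ x * Es θ d x)‖ ≤
      2 ^ p * (a * (nm p c₀ * nm p d)) := by
    rw [f q1 q3]
    refine (es_bdp ha q1 hθ2 ξ).trans ?_
    exact mul_le_mul_of_nonneg_left (mul_le_mul_of_nonneg_left (q4 p) ha0) (by positivity)
  have b2 : ‖H650.J g ξ (fun x => Es θ (fun k => c k - c₀ k) x * Es θ d x)‖ ≤
      a * ((nm 0 fun k => c k - c₀ k) * nm 0 d) := by
    rw [f r1 r3]
    exact (es_bdp0 ha r1 (θ + θ) ξ).trans (mul_le_mul_of_nonneg_left (r4 0) ha0)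
  rw [e]
  calc wr ξ ^ p * ‖H650.J g ξ (fun x => Es θ c₀ x * Es θ d x) +
        H650.J g ξ (fun x => Es θ (fun k => c k - c₀ k) x * Es θ d x)‖
      ≤ wr ξ ^ p * (‖H650.J g ξ (fun x => Es θ c₀ x * Es θ d x)‖ +
        ‖H650.J g ξ (fun x => Es θ (fun k => c k - c₀ k) x * Es θ d x)‖) :=
        mul_le_mul_of_nonneg_left (norm_add_le _ _) hw
    _ = wr ξ ^ p * ‖H650.J g ξ (fun x => Es θ c₀ x * Es θ d x)‖ +
        wr ξ ^ p * ‖H650.J g ξ (fun x => Es θ (fun k => c k - c₀ k) x * Es θ d x)‖ := by ring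
    _ ≤ 2 ^ p * (a * (nm p c₀ * nm p d)) +
        wr ξ ^ p * (a * ((nm 0 fun k => c k - c₀ k) * nm 0 d)) :=
        add_le_add b1 (mul_le_mul_of_nonneg_left b2 hw)
    _ = _ := by ring

theorem J_const_add {g : V n → ℂ} (hg : Continuous g) (hs : HasCompactSupport g) (ξ : V n) (k : ℂ)
    {F : V n → ℂ} (hF : Continuous F) :
    H650.J g ξ (fun x => k + F x) = k * ft g ξ + H650.J g ξ F := by
  have h := H650.J_add hg hs ξ (u := fun _ => k) continuous_const hF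
  rw [h]
  have e : H650.J g ξ (fun _ => k) = k * ft g ξ := by
    rw [H650.J, ft, ← integral_const_mul]
    exact integral_congr_ae (Eventually.of_forall fun x => by simp only; ring)
  rw [e]

end Vale.Agent.P088.LR.U.H393
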