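import Vale.Agent.P088.H393.UEsf3

/-!
# P088, stage J, row ESFU: the insertion identity
-/

open MeasureTheory Set Filter Topology
open scoped ContDiff Matrix

noncomputable section

namespace Vale.Agent.P088.LR.U.H393

open CF H158

variable {n N : ℕ}

theorem int_sum3 {f : Fin n → Fin N → Fin N → V n → ℂ} (hf : ∀ i a b, Integrable (f i a b)) :
    ∫ x, ∑ i, ∑ a, ∑ b, f i a b x = ∑ i, ∑ a, ∑ b, ∫ x, f i a b x := by
  rw [integral_finsetSum _ fun i _ => integrable_finsetSum _ fun a _ =>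
    integrable_finsetSum _ fun b _ => hf i a b]
  refine Finset.sum_congr rfl fun i _ => ?_
  rw [integral_finsetSum _ fun a _ => integrable_finsetSum _ fun b _ => hf i a b]
  refine Finset.sum_congr rfl fun a _ => ?_
  rw [integral_finsetSum _ fun b _ => hf i a b]

theorem int_sum4 {f : Fin n → Fin n → Fin N → Fin N → V n → ℂ}
    (hf : ∀ i j a b, Integrable (f i j a b)) :
    ∫ x, ∑ i, ∑ j, ∑ a, ∑ b, f i j a b x = ∑ i, ∑ j, ∑ a, ∑ b, ∫ x, f i j a b x := by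
  rw [integral_finsetSum _ fun i _ => integrable_finsetSum _ fun j _ =>
    integrable_finsetSum _ fun a _ => integrable_finsetSum _ fun b _ => hf i j a b]
  exact Finset.sum_congr rfl fun i _ => int_sum3 fun j a b => hf i j a b

theorem entry_supp {g : V n → ℂ} {Ω : Set (V n)} (hΩ : Ω ⊆ core n) (h : ∀ x ∉ Ω, g x = 0) :
    HasCompactSupport g := by
  refine H776.cube_compact ((closure_minimal (fun x hx => ?_)
    H127.isCompact_core.isClosed).trans H127.core_sub)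
  by_contra hn
  exact hx (h x fun h' => hn (hΩ h'))

/-- **insertion** -/
theorem insU {Ω : Set (V n)} {τ τi : MC n N} {κ : Fin n → MC n N}
    {h : Fin n → Fin n → MC n N} {q : Fin n → MC n N} (B : BkU Ω τ τi κ h q) (hΩ : Ω ⊆ core n)
    {ξ : V n} {z z' : Fin n → ℂ}
    (hzz : ∀ x : V n, Complex.exp (∑ j, z j * x j) * Complex.exp (∑ j, z' j * x j) = ex (-ξ) x)
    {U W : Fin N → V n → ℂ} {GU GW : Fin n → Fin N → V n → ℂ} {VW : Fin N → V n → ℂ}
    (sU : ∀ a, ContDiff ℝ ∞ (U a)) (sW : ∀ a, ContDiff ℝ ∞ (W a))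
    (cU : ∀ i a, Continuous (GU i a)) (cW : ∀ i a, Continuous (GW i a))
    (cV : ∀ a, Continuous (VW a))
    (gU : ∀ i a x, pd i (U a) x = Complex.exp (∑ j, z j * x j) * GU i a x)
    (gW : ∀ i a x, pd i (W a) x = Complex.exp (∑ j, z' j * x j) * GW i a x)
    (vW : ∀ a x, W a x = Complex.exp (∑ j, z' j * x j) * VW a x)
    (eU : ∀ x ∈ Ω, Mo (dg τ) κ (fun y a => U a y) x = 0)
    (eW : ∀ x ∈ Ω, Mt (fun i j x => dg τ i j x + h i j x) (fun i x => κ i x + q i x)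
      (fun y a => W a y) x = 0) :
    (∑ i, ∑ j, ∑ a, ∑ b, H650.J (fun x => h j i x a b) ξ fun x => GW j a x * GU i b x) -
      ∑ i, ∑ a, ∑ b, H650.J (fun x => q i x a b) ξ (fun x => VW a x * GU i b x) = 0 := by
  have hu : ContDiff ℝ ∞ (fun (y : V n) (a : Fin N) => U a y) := contDiff_pi.2 sU
  have hw : ContDiff ℝ ∞ (fun (y : V n) (a : Fin N) => W a y) := contDiff_pi.2 sW
  have h2 := B.st _ _ hu hw eU eW
  have ch : ∀ i j a b, Continuous fun x => h i j x a b := fun i j a b => (B.sh i j a b).continuous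
  have cq : ∀ i a b, Continuous fun x => q i x a b := fun i a b => (B.sq i a b).continuous
  have kh : ∀ i j a b, HasCompactSupport fun x => h i j x a b := fun i j a b =>
    entry_supp hΩ fun x hx => by rw [B.h0 i j x hx]; rfl
  have kq : ∀ i a b, HasCompactSupport fun x => q i x a b := fun i a b =>
    entry_supp hΩ fun x hx => by rw [B.q0 i x hx]; rfl
  have i1 : ∀ i j a b, Integrable fun x => h j i x a b * (GW j a x * GU i b x * ex (-ξ) x) :=
    fun i j a b => H650.J_integrable (ch j i a b) (kh j i a b) ξ ((cW j a).mul (cU i b))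
  have i2 : ∀ i a b, Integrable fun x => q i x a b * (VW a x * GU i b x * ex (-ξ) x) :=
    fun i a b => H650.J_integrable (cq i a b) (kq i a b) ξ ((cV a).mul (cU i b))
  have i3 : Integrable fun x => ∑ i, ∑ j, ∑ a, ∑ b,
      h j i x a b * (GW j a x * GU i b x * ex (-ξ) x) :=
    integrable_finsetSum _ fun i _ => integrable_finsetSum _ fun j _ =>
      integrable_finsetSum _ fun a _ => integrable_finsetSum _ fun b _ => i1 i j a b
  have i4 : Integrable fun x => ∑ i, ∑ a, ∑ b,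
      q i x a b * (VW a x * GU i b x * ex (-ξ) x) :=
    integrable_finsetSum _ fun i _ => integrable_finsetSum _ fun a _ =>
      integrable_finsetSum _ fun b _ => i2 i a b
  have pU : ∀ i x b, pd i (fun (y : V n) (a : Fin N) => U a y) x b =
      Complex.exp (∑ j, z j * x j) * GU i b x := fun i x b => by
    rw [pd_pi (dfa hu x)]
    exact gU i b x
  have pW : ∀ i x b, pd i (fun (y : V n) (a : Fin N) => W a y) x b =
      Complex.exp (∑ j, z' j * x j) * GW i b x := fun i x b => by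
    rw [pd_pi (dfa hw x)]
    exact gW i b x
  have e1 : ∀ x, ((∑ i, ∑ j, pd j (fun (y : V n) (a : Fin N) => W a y) x ⬝ᵥ
      ((dg τ j i x + h j i x - dg τ j i x) *ᵥ pd i (fun (y : V n) (a : Fin N) => U a y) x)) -
      ∑ i, (fun a => W a x) ⬝ᵥ ((κ i x + q i x - κ i x) *ᵥ
        pd i (fun (y : V n) (a : Fin N) => U a y) x)) =
      (∑ i, ∑ j, ∑ a, ∑ b, h j i x a b * (GW j a x * GU i b x * ex (-ξ) x)) -
        ∑ i, ∑ a, ∑ b, q i x a b * (VW a x * GU i b x * ex (-ξ) x) := by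
    intro x
    refine congrArg₂ (· - ·) ?_ ?_
    · refine Finset.sum_congr rfl fun i _ => Finset.sum_congr rfl fun j _ => ?_
      rw [add_sub_cancel_left, dotProduct]
      refine Finset.sum_congr rfl fun a _ => ?_
      rw [Matrix.mulVec, dotProduct, Finset.mul_sum]
      refine Finset.sum_congr rfl fun b _ => ?_
      rw [pU, pW, ← hzz x]
      ring
    · refine Finset.sum_congr rfl fun i _ => ?_
      rw [add_sub_cancel_left, dotProduct]
      refine Finset.sum_congr rfl fun a _ => ?_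
      rw [Matrix.mulVec, dotProduct, Finset.mul_sum]
      refine Finset.sum_congr rfl fun b _ => ?_
      rw [pU, vW, ← hzz x]
      ring
  have e2 : ∫ x in Ω, ((∑ i, ∑ j, ∑ a, ∑ b, h j i x a b * (GW j a x * GU i b x * ex (-ξ) x)) -
        ∑ i, ∑ a, ∑ b, q i x a b * (VW a x * GU i b x * ex (-ξ) x)) = 0 := by
    rw [← h2]
    exact integral_congr_ae (Eventually.of_forall fun x => (e1 x).symm)
  have e3 : ∫ x in Ω, ((∑ i, ∑ j, ∑ a, ∑ b, h j i x a b * (GW j a x * GU i b x * ex (-ξ) x)) -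
        ∑ i, ∑ a, ∑ b, q i x a b * (VW a x * GU i b x * ex (-ξ) x)) =
      ∫ x, ((∑ i, ∑ j, ∑ a, ∑ b, h j i x a b * (GW j a x * GU i b x * ex (-ξ) x)) -
        ∑ i, ∑ a, ∑ b, q i x a b * (VW a x * GU i b x * ex (-ξ) x)) := by
    refine setIntegral_eq_integral_of_forall_compl_eq_zero fun x hx => ?_
    have z1 : ∀ i j, h i j x = 0 := fun i j => B.h0 i j x hx
    have z2 : ∀ i, q i x = 0 := fun i => B.q0 i x hx
    simp only [z1, z2, Matrix.zero_apply, zero_mul, Finset.sum_const_zero, sub_zero]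
  rw [e3, integral_sub i3 i4, int_sum4 i1, int_sum3 i2] at e2
  exact e2

/-- `ξ·q̂ = 0` from `div q = 0` -/
theorem div_ft {q : Fin n → V n → ℂ} (hq : ∀ i, ContDiff ℝ ∞ (q i))
    (hs : ∀ i, ∀ x ∉ core n, q i x = 0) (hd : ∀ x, ∑ i, pd i (q i) x = 0) (ξ : V n) :
    ∑ i, (ξ i : ℂ) * ft (q i) ξ = 0 := by
  have hsc : ∀ i, tsupport (q i) ⊆ cube n := fun i => H650.supp_of (hs i)
  have h1 : ∀ i, ft (pd i (q i)) ξ = 2 * Real.pi * Complex.I * ((ξ i : ℝ) : ℂ) * ft (q i) ξ :=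
    fun i => H776.ft_pd (hq i) (hsc i) ξ i
  have hI : ∀ i, Integrable fun x => pd i (q i) x * ex (-ξ) x := fun i =>
    ((H776.pd_contDiff (hq i) i).continuous.mul
      (H776.ex_contDiff _).continuous).integrable_of_hasCompactSupport
      (H776.cube_compact ((H776.tsupport_pd (q i) i).trans (hsc i))).mul_right
  have h2 : ∑ i, ft (pd i (q i)) ξ = 0 := by
    simp only [ft]
    rw [← integral_finsetSum _ fun i _ => hI i]
    refine (integral_congr_ae (Eventually.of_forall fun x => ?_)).trans (integral_zero _ _)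
    show ∑ i, pd i (q i) x * ex (-ξ) x = 0
    rw [← Finset.sum_mul, hd x, zero_mul]
  have h3 : 2 * Real.pi * Complex.I * ∑ i, (ξ i : ℂ) * ft (q i) ξ = 0 := by
    rw [← h2, Finset.mul_sum]
    refine Finset.sum_congr rfl fun i _ => ?_
    rw [h1 i]
    ring
  have h4 : (2 * Real.pi * Complex.I : ℂ) ≠ 0 := by
    simp [Real.pi_ne_zero]
  exact (mul_eq_zero.1 h3).resolve_left h4

/-! ## The error terms -/

theorem nm_mono2 {c : Ix n → ℂ} (hc : RD c) {p r : ℕ} (h : p ≤ r) : nm p c ≤ nm r c := by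
  unfold nm
  refine (hc p).tsum_le_tsum (fun k => ?_) (hc r)
  exact mul_le_mul_of_nonneg_right (pow_le_pow_right₀ (H776.wt_one k) h) (norm_nonneg _)

theorem gd_self {p : ℕ} {θ : V n} (hθ : ∑ j, |θ j| ≤ 1) (ξ : V n) {c : Ix n → ℂ} (hc : RD c) :
    Gd p ξ (Es θ c) (2 ^ p * nm p c) 0 := by
  refine gd_mono (gd_es hθ ξ hc hc) le_rfl ?_
  simp [nm]

theorem err4 (hA2 : RowA2) {p : ℕ} {θ : V n} (hθ : ∑ j, |θ j| ≤ 1 / 2) (ξ : V n)
    {y w w₀ : Ix n → ℂ} (hy : RD y) (hw : RD w) (hw₀ : RD w₀) {k k' : ℂ} {X D b A : ℝ}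
    (hX : 1 ≤ X) (hD : 0 ≤ D) (hb : 0 ≤ b) (hA : 0 ≤ A) (hk : ‖k‖ ≤ 2 * Real.pi * X)
    (hk' : ‖k'‖ ≤ 2 * Real.pi * X) (n1 : nm p y ≤ D * X * b) (n2 : nm p w₀ ≤ D * X * b)
    (n3 : (nm 0 fun k => w k - w₀ k) ≤ D * X ^ 2 * A) (hDb : D * b ≤ 1) :
    Gd p ξ (fun x => k' * Es θ y x + k * Es θ w x + Es θ w x * Es θ y x)
      ((4 * Real.pi + 1) * 2 ^ p * D * (X ^ 2 * b)) ((2 * Real.pi + 1) * D * (X ^ 3 * A)) := by
  have hpi := Real.pi_pos
  have hX0 : 0 ≤ X := by linarith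
  have g1 := gd_smul (gd_self (p := p) (by linarith : ∑ j, |θ j| ≤ 1) ξ hy) k'
  have g2 := gd_smul (gd_es (p := p) (by linarith : ∑ j, |θ j| ≤ 1) ξ hw hw₀) k
  have g3 := gd_es2 (p := p) hA2 hθ ξ hw hw₀ hy
  have m0 : nm 0 y ≤ D * X * b := (nm_mono2 hy (Nat.zero_le p)).trans n1
  have z1 := H650.nm_nonneg p y
  have z2 := H650.nm_nonneg p w₀
  have z3 := H650.nm_nonneg 0 y
  have z4 := H650.nm_nonneg 0 (fun k => w k - w₀ k)
  have hP : (0 : ℝ) < 2 ^ p := by positivity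
  refine gd_mono (gd_add (gd_add g1 g2) g3) ?_ ?_
  · have t1 : ‖k'‖ * (2 ^ p * nm p y) ≤ (2 * Real.pi * X) * (2 ^ p * (D * X * b)) :=
      mul_le_mul hk' (mul_le_mul_of_nonneg_left n1 hP.le) (by positivity) (by positivity)
    have t2 : ‖k‖ * (2 ^ p * nm p w₀) ≤ (2 * Real.pi * X) * (2 ^ p * (D * X * b)) :=
      mul_le_mul hk (mul_le_mul_of_nonneg_left n2 hP.le) (by positivity) (by positivity)
    have t3 : nm p w₀ * nm p y ≤ (D * X * b) * (D * X * b) :=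
      mul_le_mul n2 n1 z1 (z2.trans n2)
    have t4 : (D * X * b) * (D * X * b) = (D * b) * (D * (X ^ 2 * b)) := by ring
    have t5 : (D * b) * (D * (X ^ 2 * b)) ≤ 1 * (D * (X ^ 2 * b)) :=
      mul_le_mul_of_nonneg_right hDb (by positivity)
    have t6 : 2 ^ p * (nm p w₀ * nm p y) ≤ 2 ^ p * (1 * (D * (X ^ 2 * b))) :=
      mul_le_mul_of_nonneg_left (by linarith) hP.le
    calc ‖k'‖ * (2 ^ p * nm p y) + ‖k‖ * (2 ^ p * nm p w₀) + 2 ^ p * (nm p w₀ * nm p y)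
        ≤ (2 * Real.pi * X) * (2 ^ p * (D * X * b)) + (2 * Real.pi * X) * (2 ^ p * (D * X * b)) +
          2 ^ p * (1 * (D * (X ^ 2 * b))) := add_le_add (add_le_add t1 t2) t6
      _ = _ := by ring
  · have t2 : ‖k‖ * (nm 0 fun k => w k - w₀ k) ≤ (2 * Real.pi * X) * (D * X ^ 2 * A) :=
      mul_le_mul hk n3 z4 (by positivity)
    have t3 : (nm 0 fun k => w k - w₀ k) * nm 0 y ≤ (D * X ^ 2 * A) * (D * X * b) :=
      mul_le_mul n3 m0 z3 (z4.trans n3)
    have t4 : (D * X ^ 2 * A) * (D * X * b) = (D * b) * (D * (X ^ 3 * A)) := by ring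
    have t5 : (D * b) * (D * (X ^ 3 * A)) ≤ 1 * (D * (X ^ 3 * A)) :=
      mul_le_mul_of_nonneg_right hDb (by positivity)
    calc ‖k'‖ * 0 + ‖k‖ * (nm 0 fun k => w k - w₀ k) + (nm 0 fun k => w k - w₀ k) * nm 0 y
        ≤ 0 + (2 * Real.pi * X) * (D * X ^ 2 * A) + 1 * (D * (X ^ 3 * A)) := by
          rw [mul_zero]
          linarith
      _ = _ := by ring

theorem err3 (hA2 : RowA2) {p : ℕ} {θ : V n} (hθ : ∑ j, |θ j| ≤ 1 / 2) (ξ : V n)
    {y w w₀ : Ix n → ℂ} (hy : RD y) (hw : RD w) (hw₀ : RD w₀) {k k' : ℂ} {X D b A : ℝ}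
    (hX : 1 ≤ X) (hD : 0 ≤ D) (hb : 0 ≤ b) (hA : 0 ≤ A) (hk : ‖k‖ ≤ 2 * Real.pi * X)
    (hk' : ‖k'‖ ≤ 1) (n1 : nm p y ≤ D * X * b) (n2 : nm p w₀ ≤ D * b)
    (n3 : (nm 0 fun k => w k - w₀ k) ≤ D * X * A) (hDb : D * b ≤ 1) :
    Gd p ξ (fun x => k' * Es θ y x + k * Es θ w x + Es θ w x * Es θ y x)
      ((2 * Real.pi + 2) * 2 ^ p * D * (X * b)) ((2 * Real.pi + 1) * D * (X ^ 2 * A)) := by
  have hpi := Real.pi_pos
  have hX0 : 0 ≤ X := by linarith
  have g1 := gd_smul (gd_self (p := p) (by linarith : ∑ j, |θ j| ≤ 1) ξ hy) k'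
  have g2 := gd_smul (gd_es (p := p) (by linarith : ∑ j, |θ j| ≤ 1) ξ hw hw₀) k
  have g3 := gd_es2 (p := p) hA2 hθ ξ hw hw₀ hy
  have m0 : nm 0 y ≤ D * X * b := (nm_mono2 hy (Nat.zero_le p)).trans n1
  have z1 := H650.nm_nonneg p y
  have z2 := H650.nm_nonneg p w₀
  have z3 := H650.nm_nonneg 0 y
  have z4 := H650.nm_nonneg 0 (fun k => w k - w₀ k)
  have hP : (0 : ℝ) < 2 ^ p := by positivity
  refine gd_mono (gd_add (gd_add g1 g2) g3) ?_ ?_
  · have t1 : ‖k'‖ * (2 ^ p * nm p y) ≤ 1 * (2 ^ p * (D * X * b)) :=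
      mul_le_mul hk' (mul_le_mul_of_nonneg_left n1 hP.le) (by positivity) (by positivity)
    have t2 : ‖k‖ * (2 ^ p * nm p w₀) ≤ (2 * Real.pi * X) * (2 ^ p * (D * b)) :=
      mul_le_mul hk (mul_le_mul_of_nonneg_left n2 hP.le) (by positivity) (by positivity)
    have t3 : nm p w₀ * nm p y ≤ (D * b) * (D * X * b) :=
      mul_le_mul n2 n1 z1 (z2.trans n2)
    have t5 : (D * b) * (D * X * b) ≤ 1 * (D * X * b) :=
      mul_le_mul_of_nonneg_right hDb (by positivity)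
    have t6 : 2 ^ p * (nm p w₀ * nm p y) ≤ 2 ^ p * (1 * (D * X * b)) :=
      mul_le_mul_of_nonneg_left (by linarith) hP.le
    calc ‖k'‖ * (2 ^ p * nm p y) + ‖k‖ * (2 ^ p * nm p w₀) + 2 ^ p * (nm p w₀ * nm p y)
        ≤ 1 * (2 ^ p * (D * X * b)) + (2 * Real.pi * X) * (2 ^ p * (D * b)) +
          2 ^ p * (1 * (D * X * b)) := add_le_add (add_le_add t1 t2) t6
      _ = _ := by ring
  · have t2 : ‖k‖ * (nm 0 fun k => w k - w₀ k) ≤ (2 * Real.pi * X) * (D * X * A) :=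
      mul_le_mul hk n3 z4 (by positivity)
    have t3 : (nm 0 fun k => w k - w₀ k) * nm 0 y ≤ (D * X * A) * (D * X * b) :=
      mul_le_mul n3 m0 z3 (z4.trans n3)
    have t4 : (D * X * A) * (D * X * b) = (D * b) * (D * (X ^ 2 * A)) := by ring
    have t5 : (D * b) * (D * (X ^ 2 * A)) ≤ 1 * (D * (X ^ 2 * A)) :=
      mul_le_mul_of_nonneg_right hDb (by positivity)
    calc ‖k'‖ * 0 + ‖k‖ * (nm 0 fun k => w k - w₀ k) + (nm 0 fun k => w k - w₀ k) * nm 0 y
        ≤ 0 + (2 * Real.pi * X) * (D * X * A) + 1 * (D * (X ^ 2 * A)) := by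
          rw [mul_zero]
          linarith
      _ = _ := by ring

/-! ## Frequencies -/

theorem zs_exp' {e : ℝ} (i₀ : Fin n) (ξ x : V n) :
    Complex.exp (∑ j, zs e i₀ ξ j * x j) * Complex.exp (∑ j, zs (-e) i₀ ξ j * x j) =
      ex (-ξ) x := by
  rw [ex, ← Complex.exp_add]
  congr 1
  rw [← Finset.sum_add_distrib]
  push_cast
  rw [Finset.mul_sum]
  refine Finset.sum_congr rfl fun j _ => ?_
  rw [H650.zs_eq, H650.zs_eq, Pi.neg_apply]
  push_cast
  ring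

theorem main_h {e : ℝ} (he : e = 1 ∨ e = -1) (i₀ : Fin n) (ξ : V n) {H : Fin n → Fin n → ℂ}
    (hH : ∀ i j, H i j = H j i) :
    ∑ i, ∑ j, zs (-e) i₀ ξ j * zs e i₀ ξ i * H j i =
      -((Real.pi : ℂ) ^ 2) *
        (((nr ξ : ℝ) : ℂ) ^ 2 * H i₀ i₀ + ∑ i, ∑ j, (ξ i : ℂ) * ξ j * H i j) := by
  rw [← H650.main_term i₀ ξ hH]
  rcases he with rfl | rfl
  · refine Finset.sum_congr rfl fun i _ => Finset.sum_congr rfl fun j _ => ?_
    rw [hH j i]
    ring
  · rw [neg_neg, Finset.sum_comm]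

theorem main_q (e : ℝ) (i₀ : Fin n) (ξ : V n) {K : Fin n → ℂ} (hK : ∑ i, (ξ i : ℂ) * K i = 0) :
    ∑ i, zs e i₀ ξ i * K i = (e : ℂ) * (Real.pi * nr ξ : ℝ) * K i₀ := by
  have h1 : ∑ i, zs e i₀ ξ i * K i = (e : ℂ) * (Real.pi * nr ξ : ℝ) * (∑ i, H650.dl i₀ i * K i) -
      (Real.pi : ℂ) * Complex.I * ∑ i, (ξ i : ℂ) * K i := by
    rw [Finset.mul_sum, Finset.mul_sum, ← Finset.sum_sub_distrib]
    refine Finset.sum_congr rfl fun i _ => ?_
    rw [H650.zs_eq]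
    push_cast
    ring
  have h2 : ∑ i, H650.dl i₀ i * K i = K i₀ := by
    rw [Finset.sum_eq_single i₀]
    · simp [H650.dl]
    · intro i _ hi
      simp [H650.dl, hi]
    · intro h
      exact absurd (Finset.mem_univ i₀) h
  rw [h1, h2, hK, mul_zero, sub_zero]

theorem wr_le_nr (ξ : V n) (h : 1 ≤ nr ξ) : wr ξ ≤ (n + 1) * nr ξ := by
  unfold wr
  have h1 : ∑ j, |ξ j| ≤ ∑ _j : Fin n, nr ξ := Finset.sum_le_sum fun j _ => H650.abs_le_nr ξ j
  simp only [Finset.sum_const, Finset.card_univ, Fintype.card_fin, nsmul_eq_mul] at h1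
  linarith

theorem th0_sum (i₀ : Fin n) : ∑ j, |th0 i₀ j| ≤ 1 / 2 := by
  rw [Finset.sum_eq_single i₀]
  · rw [th0, Pi.single_eq_same, abs_of_pos (by norm_num)]
  · intro j _ hj
    rw [th0, Pi.single_eq_of_ne hj, abs_zero]
  · intro h
    exact absurd (Finset.mem_univ i₀) h

theorem dd_sum {k l : ℂ} (α β : Fin N) (H : Fin N → Fin N → ℂ) :
    ∑ a, ∑ b, (if a = α then k else 0) * (if b = β then l else 0) * H a b = k * l * H α β := by
  rw [Finset.sum_eq_single α]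
  · rw [Finset.sum_eq_single β]
    · simp
    · intro b _ hb
      simp [hb]
    · intro h
      exact absurd (Finset.mem_univ β) h
  · intro a _ ha
    refine Finset.sum_eq_zero fun b _ => ?_
    simp [ha]
  · intro h
    exact absurd (Finset.mem_univ α) h

end Vale.Agent.P088.LR.U.H393
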