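import Vale.Agent.P088.H393.UEsf4

/-!
# P088, stage J, row ESFU: one solution pair
-/

open MeasureTheory Set Filter Topology
open scoped ContDiff Matrix

noncomputable section

namespace Vale.Agent.P088.LR.U.H393

open CF H158

variable {n N : ℕ}

theorem sum_bd {m : ℕ} {w K : ℝ} (hw : 0 ≤ w) {f : Fin m → ℂ} (h : ∀ i, w * ‖f i‖ ≤ K) :
    w * ‖∑ i, f i‖ ≤ m * K := by
  calc w * ‖∑ i, f i‖ ≤ w * ∑ i, ‖f i‖ :=
        mul_le_mul_of_nonneg_left (norm_sum_le _ _) hw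
    _ = ∑ i, w * ‖f i‖ := Finset.mul_sum _ _ _
    _ ≤ ∑ _i : Fin m, K := Finset.sum_le_sum fun i _ => h i
    _ = m * K := by simp

/-- the errors of the second order part -/
def E4 (α β : Fin N) (z z' : Fin n → ℂ) (Y Y' : Fin n → Fin N → V n → ℂ) (i j : Fin n)
    (a b : Fin N) (x : V n) : ℂ :=
  (if a = α then z' j else 0) * Y i b x + (if b = β then z i else 0) * Y' j a x +
    Y' j a x * Y i b x

/-- the errors of the first order part -/
def E3 (α β : Fin N) (z : Fin n → ℂ) (Y : Fin n → Fin N → V n → ℂ) (V' : Fin N → V n → ℂ)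
    (i : Fin n) (a b : Fin N) (x : V n) : ℂ :=
  (if a = α then 1 else 0) * Y i b x + (if b = β then z i else 0) * V' a x + V' a x * Y i b x

theorem split_main {Ω : Set (V n)} {τ τi : MC n N} {κ : Fin n → MC n N}
    {h : Fin n → Fin n → MC n N} {q : Fin n → MC n N} (B : BkU Ω τ τi κ h q) (hΩ : Ω ⊆ core n)
    (ξ : V n) {α β : Fin N} {z z' : Fin n → ℂ} {Y Y' : Fin n → Fin N → V n → ℂ}
    {V' : Fin N → V n → ℂ} (cY : ∀ i a, Continuous (Y i a)) (cY' : ∀ i a, Continuous (Y' i a))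
    (cV : ∀ a, Continuous (V' a))
    (hins : (∑ i, ∑ j, ∑ a, ∑ b, H650.J (fun x => h j i x a b) ξ fun x =>
        ((if a = α then z' j else 0) + Y' j a x) * ((if b = β then z i else 0) + Y i b x)) -
      ∑ i, ∑ a, ∑ b, H650.J (fun x => q i x a b) ξ (fun x =>
        ((if a = α then 1 else 0) + V' a x) * ((if b = β then z i else 0) + Y i b x)) = 0) :
    (∑ i, ∑ j, z' j * z i * ft (fun x => h j i x α β) ξ) -
        (∑ i, z i * ft (fun x => q i x α β) ξ) +
      ((∑ i, ∑ j, ∑ a, ∑ b, H650.J (fun x => h j i x a b) ξ (E4 α β z z' Y Y' i j a b)) -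
        ∑ i, ∑ a, ∑ b, H650.J (fun x => q i x a b) ξ (E3 α β z Y V' i a b)) = 0 := by
  have ch : ∀ i j a b, Continuous fun x => h i j x a b := fun i j a b => (B.sh i j a b).continuous
  have cq : ∀ i a b, Continuous fun x => q i x a b := fun i a b => (B.sq i a b).continuous
  have kh : ∀ i j a b, HasCompactSupport fun x => h i j x a b := fun i j a b =>
    entry_supp hΩ fun x hx => by rw [B.h0 i j x hx]; rfl
  have kq : ∀ i a b, HasCompactSupport fun x => q i x a b := fun i a b =>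
    entry_supp hΩ fun x hx => by rw [B.q0 i x hx]; rfl
  have c4 : ∀ i j a b, Continuous (E4 α β z z' Y Y' i j a b) := fun i j a b =>
    ((continuous_const.mul (cY i b)).add (continuous_const.mul (cY' j a))).add
      ((cY' j a).mul (cY i b))
  have c3 : ∀ i a b, Continuous (E3 α β z Y V' i a b) := fun i a b =>
    ((continuous_const.mul (cY i b)).add (continuous_const.mul (cV a))).add
      ((cV a).mul (cY i b))
  have e4 : ∀ i j a b, (H650.J (fun x => h j i x a b) ξ fun x =>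
      ((if a = α then z' j else 0) + Y' j a x) * ((if b = β then z i else 0) + Y i b x)) =
      (if a = α then z' j else 0) * (if b = β then z i else 0) * ft (fun x => h j i x a b) ξ +
        H650.J (fun x => h j i x a b) ξ (E4 α β z z' Y Y' i j a b) := by
    intro i j a b
    rw [← J_const_add (ch j i a b) (kh j i a b) ξ _ (c4 i j a b)]
    refine congrArg (H650.J _ ξ) (funext fun x => ?_)
    simp only [E4]
    ring
  have e3 : ∀ i a b, (H650.J (fun x => q i x a b) ξ fun x =>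
      ((if a = α then 1 else 0) + V' a x) * ((if b = β then z i else 0) + Y i b x)) =
      (if a = α then 1 else 0) * (if b = β then z i else 0) * ft (fun x => q i x a b) ξ +
        H650.J (fun x => q i x a b) ξ (E3 α β z Y V' i a b) := by
    intro i a b
    rw [← J_const_add (cq i a b) (kq i a b) ξ _ (c3 i a b)]
    refine congrArg (H650.J _ ξ) (funext fun x => ?_)
    simp only [E3]
    ring
  simp only [e4, e3, Finset.sum_add_distrib] at hins
  have d4 : ∀ i j, ∑ a, ∑ b, (if a = α then z' j else 0) * (if b = β then z i else 0) *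
      ft (fun x => h j i x a b) ξ = z' j * z i * ft (fun x => h j i x α β) ξ := fun i j =>
    dd_sum α β fun a b => ft (fun x => h j i x a b) ξ
  have d3 : ∀ i, ∑ a, ∑ b, (if a = α then (1 : ℂ) else 0) * (if b = β then z i else 0) *
      ft (fun x => q i x a b) ξ = z i * ft (fun x => q i x α β) ξ := fun i => by
    rw [dd_sum α β fun a b => ft (fun x => q i x a b) ξ, one_mul]
  simp only [d4, d3] at hins
  rw [← hins]
  ring

/-- the constant -/
def KK (n N : ℕ) (D : ℝ) : ℝ :=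
  n * (n * (N * (N * ((4 * Real.pi + 1) * 2 ^ (n + 2) * D)))) +
    n * (N * (N * ((2 * Real.pi + 2) * 2 ^ (n + 1) * D * (n + 1))))

theorem KK_nonneg {D : ℝ} (hD : 0 ≤ D) : 0 ≤ KK n N D := by
  have := Real.pi_pos
  unfold KK
  positivity

theorem bound_E {p X b a D w M4 M3 : ℝ} (hpi : 0 < p) (hX : 1 ≤ X) (hb : 0 ≤ b) (ha : 0 ≤ a)
    (hD : 0 ≤ D) (hw1 : 1 ≤ w) (hw : w ≤ (n + 1) * X)
    (h4 : w ^ (n + 2) * M4 ≤ n * (n * (N * (N * (a * ((4 * p + 1) * 2 ^ (n + 2) * D *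
      (X ^ 2 * b) + (2 * p + 1) * D * (X ^ 3 * a) * w ^ (n + 2)))))))
    (h3 : w ^ (n + 1) * M3 ≤ n * (N * (N * (a * ((2 * p + 2) * 2 ^ (n + 1) * D *
      (X * b) + (2 * p + 1) * D * (X ^ 2 * a) * w ^ (n + 1)))))) :
    w ^ (n + 2) * (M4 + M3) ≤
      (n * (n * (N * (N * ((4 * p + 1) * 2 ^ (n + 2) * D)))) +
        n * (N * (N * ((2 * p + 2) * 2 ^ (n + 1) * D * (n + 1))))) *
      (X ^ 2 * (b * a) + X ^ 3 * a ^ 2 * w ^ (n + 2)) := by
  have hX0 : 0 ≤ X := by linarith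
  have hw0 : 0 ≤ w := by linarith
  have hn0 : (0 : ℝ) ≤ n := Nat.cast_nonneg n
  have hN0 : (0 : ℝ) ≤ N := Nat.cast_nonneg N
  have hwp : 0 ≤ w ^ (n + 2) := by positivity
  have f1 : (1 : ℝ) ≤ 2 ^ (n + 2) := one_le_pow₀ (by norm_num)
  have f2 : (1 : ℝ) ≤ 2 ^ (n + 1) := one_le_pow₀ (by norm_num)
  -- second order part
  have g1 : (2 * p + 1) * D * (X ^ 3 * a) * w ^ (n + 2) ≤
      (4 * p + 1) * 2 ^ (n + 2) * D * (X ^ 3 * a * w ^ (n + 2)) := by
    have : (2 * p + 1) ≤ (4 * p + 1) * 2 ^ (n + 2) := by nlinarith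
    calc (2 * p + 1) * D * (X ^ 3 * a) * w ^ (n + 2) =
          (2 * p + 1) * (D * (X ^ 3 * a * w ^ (n + 2))) := by ring
      _ ≤ (4 * p + 1) * 2 ^ (n + 2) * (D * (X ^ 3 * a * w ^ (n + 2))) :=
          mul_le_mul_of_nonneg_right this (by positivity)
      _ = _ := by ring
  have k4 : w ^ (n + 2) * M4 ≤ n * (n * (N * (N * ((4 * p + 1) * 2 ^ (n + 2) * D)))) *
      (X ^ 2 * (b * a) + X ^ 3 * a ^ 2 * w ^ (n + 2)) := by
    refine h4.trans ?_
    calc n * (n * (N * (N * (a * ((4 * p + 1) * 2 ^ (n + 2) * D *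
          (X ^ 2 * b) + (2 * p + 1) * D * (X ^ 3 * a) * w ^ (n + 2))))))
        ≤ n * (n * (N * (N * (a * ((4 * p + 1) * 2 ^ (n + 2) * D *
          (X ^ 2 * b) + (4 * p + 1) * 2 ^ (n + 2) * D * (X ^ 3 * a * w ^ (n + 2))))))) := by
          gcongr
      _ = _ := by ring
  -- first order part
  have k3 : w ^ (n + 2) * M3 ≤ n * (N * (N * ((2 * p + 2) * 2 ^ (n + 1) * D * (n + 1)))) *
      (X ^ 2 * (b * a) + X ^ 3 * a ^ 2 * w ^ (n + 2)) := by
    have e0 : w ^ (n + 2) * M3 = w * (w ^ (n + 1) * M3) := by ring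
    have e1 := mul_le_mul_of_nonneg_left h3 hw0
    rw [e0]
    refine e1.trans ?_
    have e2 : w * (n * (N * (N * (a * ((2 * p + 2) * 2 ^ (n + 1) * D *
      (X * b) + (2 * p + 1) * D * (X ^ 2 * a) * w ^ (n + 1)))))) =
      n * (N * (N * (a * ((2 * p + 2) * 2 ^ (n + 1) * D * (X * b) * w +
        (2 * p + 1) * D * (X ^ 2 * a) * w ^ (n + 2))))) := by ring
    rw [e2]
    have g2 : (2 * p + 2) * 2 ^ (n + 1) * D * (X * b) * w ≤
        (2 * p + 2) * 2 ^ (n + 1) * D * (X * b) * ((n + 1) * X) :=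
      mul_le_mul_of_nonneg_left hw (by positivity)
    have g3 : (2 * p + 1) * D * (X ^ 2 * a) * w ^ (n + 2) ≤
        (2 * p + 2) * 2 ^ (n + 1) * D * (n + 1) * (X ^ 3 * a * w ^ (n + 2)) := by
      have h5 : (2 * p + 1) ≤ (2 * p + 2) * 2 ^ (n + 1) * (n + 1) := by
        have : (2 * p + 2) * 1 * 1 ≤ (2 * p + 2) * 2 ^ (n + 1) * (n + 1) := by
          gcongr
          linarith
        linarith
      have h6 : X ^ 2 * a ≤ X ^ 3 * a := by
        have : X ^ 2 ≤ X ^ 3 := pow_le_pow_right₀ hX (by norm_num)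
        exact mul_le_mul_of_nonneg_right this ha
      calc (2 * p + 1) * D * (X ^ 2 * a) * w ^ (n + 2)
          ≤ (2 * p + 2) * 2 ^ (n + 1) * (n + 1) * D * (X ^ 3 * a) * w ^ (n + 2) := by
            gcongr
        _ = _ := by ring
    calc n * (N * (N * (a * ((2 * p + 2) * 2 ^ (n + 1) * D * (X * b) * w +
          (2 * p + 1) * D * (X ^ 2 * a) * w ^ (n + 2)))))
        ≤ n * (N * (N * (a * ((2 * p + 2) * 2 ^ (n + 1) * D * (X * b) * ((n + 1) * X) +
          (2 * p + 2) * 2 ^ (n + 1) * D * (n + 1) * (X ^ 3 * a * w ^ (n + 2)))))) := by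
          gcongr
      _ = _ := by ring
  rw [mul_add, add_mul]
  exact add_le_add k4 k3

/-- **one pair of solutions** -/
theorem one (hA2 : RowA2) (hbu : RowBrU) (hbw : RowBrW) {Ω : Set (V n)} {τ τi : MC n N}
    {κ : Fin n → MC n N} {h : Fin n → Fin n → MC n N} {q : Fin n → MC n N}
    (B : BkU Ω τ τi κ h q) (hΩ : Ω ⊆ core n) {χ : V n → ℝ} (hχ : ∀ x ∈ Ω, χ x = 1) {ξ : V n}
    (hX : 1 ≤ nr ξ) {i₀ : Fin n} {e : ℝ} (he : e = 1 ∨ e = -1) {α β : Fin N} {a b D : ℝ}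
    (hD : 0 ≤ D) (hb : 0 ≤ b) (ha : 0 ≤ a) (hDb : D * b ≤ 1)
    (hh : ∀ i j α β, ∀ ζ : V n, wr ζ ^ (n + 2) * ‖ft (fun x => h i j x α β) ζ‖ ≤ a)
    (hq : ∀ i α β, ∀ ζ : V n, wr ζ ^ (n + 1) * ‖ft (fun x => q i x α β) ζ‖ ≤ a)
    {y : Fin n → Fin N → Ix n → ℂ} {c : Fin N → Ix n → ℂ} {U : Fin N → V n → ℂ}
    (S1 : SolM (zs e i₀ ξ) (th0 i₀) β (fun _ _ _ _ _ => 0) (LU χ τ τi κ) y c U)
    {v₀ v : Fin n → Fin N → Ix n → ℂ} {d₀ d : Fin N → Ix n → ℂ} {W₀ W : Fin N → V n → ℂ}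
    (S3 : SolM (zs (-e) i₀ ξ) (th0 i₀) α (fun _ _ _ _ _ => 0) (LW0 χ τ τi κ) v₀ d₀ W₀)
    (S4 : SolM (zs (-e) i₀ ξ) (th0 i₀) α (HW τi h) (LW χ τ τi κ h q) v d W)
    (n1 : ∀ i a, nm (n + 2) (y i a) ≤ D * nr ξ * b)
    (n2 : ∀ i a, nm (n + 2) (v₀ i a) ≤ D * nr ξ * b)
    (n3 : ∀ i c, (nm 0 fun k => v i c k - v₀ i c k) ≤ D * nr ξ ^ 2 * a)
    (n4 : ∀ a, nm (n + 2) (d₀ a) ≤ D * b)
    (n5 : ∀ c, (nm 0 fun k => d c k - d₀ c k) ≤ D * nr ξ * a) :
    ∃ E : ℂ, -((Real.pi : ℂ) ^ 2) * (((nr ξ : ℝ) : ℂ) ^ 2 * ft (fun x => h i₀ i₀ x α β) ξ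
        + ∑ i, ∑ j, (ξ i : ℂ) * ξ j * ft (fun x => h i j x α β) ξ)
        - (e : ℂ) * (Real.pi * nr ξ : ℝ) * ft (fun x => q i₀ x α β) ξ + E = 0 ∧
      wr ξ ^ (n + 2) * ‖E‖ ≤
        KK n N D * (nr ξ ^ 2 * (b * a) + nr ξ ^ 3 * a ^ 2 * wr ξ ^ (n + 2)) := by
  have hcube : Ω ⊆ cube n := hΩ.trans H127.core_sub
  have he' : -e = 1 ∨ -e = -1 := by
    rcases he with rfl | rfl
    · exact Or.inr rfl
    · exact Or.inl (neg_neg _)
  have eU := hbu B hχ hcube S1
  have eW := hbw B hχ hcube S4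
  have cy : ∀ i a, Continuous (Es (th0 i₀) (y i a)) := fun i a => H127.es_continuous (S1.ry i a) _
  have cv : ∀ i a, Continuous (Es (th0 i₀) (v i a)) := fun i a => H127.es_continuous (S4.ry i a) _
  have cd : ∀ a, Continuous (Es (th0 i₀) (d a)) := fun a => H127.es_continuous (S4.rc a) _
  have id1 := insU B hΩ (ξ := ξ) (z := zs e i₀ ξ) (z' := zs (-e) i₀ ξ) (fun x => zs_exp' i₀ ξ x)
    (GU := fun i b x => (if b = β then zs e i₀ ξ i else 0) + Es (th0 i₀) (y i b) x)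
    (GW := fun j a x => (if a = α then zs (-e) i₀ ξ j else 0) + Es (th0 i₀) (v j a) x)
    (VW := fun a x => (if a = α then 1 else 0) + Es (th0 i₀) (d a) x) S1.sW S4.sW
    (fun i a => continuous_const.add (cy i a)) (fun i a => continuous_const.add (cv i a))
    (fun a => continuous_const.add (cd a)) (fun i a x => S1.gr i a x) (fun i a x => S4.gr i a x)
    (fun a x => S4.val a x) eU eW
  have id2 := split_main B hΩ ξ (Y := fun i b => Es (th0 i₀) (y i b))
    (Y' := fun j a => Es (th0 i₀) (v j a)) (V' := fun a => Es (th0 i₀) (d a)) cy cv cd id1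
  have hdq : ∑ i, (ξ i : ℂ) * ft (fun x => q i x α β) ξ = 0 := by
    refine div_ft (fun i => B.sq i α β) (fun i x hx => ?_) (fun x => ?_) ξ
    · rw [B.q0 i x fun h' => hx (hΩ h')]
      rfl
    · have h1 := congrFun (congrFun (B.dq x) α) β
      rw [Matrix.sum_apply] at h1
      exact h1
  rw [main_h he i₀ ξ (H := fun i j => ft (fun x => h i j x α β) ξ) (fun i j => by
    simp only [B.sym i j]), main_q e i₀ ξ hdq] at id2
  refine ⟨_, id2, ?_⟩
  have hw1 := H650.wr_one ξ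
  have hw0 : 0 ≤ wr ξ := by linarith
  have ch : ∀ i j a b, Continuous fun x => h i j x a b := fun i j a b => (B.sh i j a b).continuous
  have cq : ∀ i a b, Continuous fun x => q i x a b := fun i a b => (B.sq i a b).continuous
  have kh : ∀ i j a b, HasCompactSupport fun x => h i j x a b := fun i j a b =>
    entry_supp hΩ fun x hx => by rw [B.h0 i j x hx]; rfl
  have kq : ∀ i a b, HasCompactSupport fun x => q i x a b := fun i a b =>
    entry_supp hΩ fun x hx => by rw [B.q0 i x hx]; rfl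
  have hzn : ∀ (b : Fin N) i, ‖(if b = β then zs e i₀ ξ i else 0)‖ ≤ 2 * Real.pi * nr ξ := by
    intro b i
    split_ifs
    · exact H650.zs_norm he i₀ ξ i
    · rw [norm_zero]
      have := Real.pi_pos
      positivity
  have hzn' : ∀ (b : Fin N) i, ‖(if b = α then zs (-e) i₀ ξ i else 0)‖ ≤ 2 * Real.pi * nr ξ := by
    intro b i
    split_ifs
    · exact H650.zs_norm he' i₀ ξ i
    · rw [norm_zero]
      have := Real.pi_pos
      positivity
  have h1n : ∀ b : Fin N, ‖(if b = α then (1 : ℂ) else 0)‖ ≤ 1 := by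
    intro b
    split_ifs
    · rw [norm_one]
    · rw [norm_zero]
      exact zero_le_one
  have hth := th0_sum (n := n) i₀
  refine le_trans (mul_le_mul_of_nonneg_left (norm_sub_le _ _) (by positivity)) ?_
  refine bound_E Real.pi_pos hX hb ha hD hw1 (wr_le_nr ξ hX) ?_ ?_
  · refine sum_bd (by positivity) fun i => sum_bd (by positivity) fun j =>
      sum_bd (by positivity) fun a' => sum_bd (by positivity) fun b' => ?_
    exact (err4 hA2 hth ξ (S1.ry i b') (S4.ry j a') (S3.ry j a') hX hD hb ha (hzn b' i)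
      (hzn' a' j) (n1 i b') (n2 j a') (n3 j a') hDb).2 _ (ch j i a' b') (kh j i a' b') a
      (hh j i a' b')
  · refine sum_bd (by positivity) fun i => sum_bd (by positivity) fun a' =>
      sum_bd (by positivity) fun b' => ?_
    exact (err3 hA2 hth ξ (S1.ry i b') (S4.rc a') (S3.rc a') hX hD hb ha (hzn b' i)
      (h1n a') ((nm_mono2 (S1.ry i b') (by omega)).trans (n1 i b'))
      ((nm_mono2 (S3.rc a') (by omega)).trans (n4 a')) (n5 a') hDb).2 _ (cq i a' b')
      (kq i a' b') a (hq i a' b')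

end Vale.Agent.P088.LR.U.H393
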