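import Vale.Agent.P088.H393.UEsf5

/-!
# P088, stage J, row ESFU: assembly
-/

open MeasureTheory Set Filter Topology
open scoped ContDiff Matrix

noncomputable section

namespace Vale.Agent.P088.LR.U.H393

open CF H158

variable {n N : ℕ}

theorem bls_sub : bls n ⊆ core n := by
  intro x hx
  refine H650.bal_sub ?_
  have h1 : ∑ j, (x j - 1 / 2) ^ 2 ≤ 1 / 64 := hx
  show ∑ j, (x j - 1 / 2) ^ 2 ≤ 1 / 16
  linarith

theorem nm_cf_zero : nm 0 (cf 0 (fun _ : V n => (0 : ℂ))) ≤ 0 := by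
  have h1 : cf 0 (fun _ : V n => (0 : ℂ)) = fun _ => 0 := by
    funext k
    simp [cf, ft]
  rw [h1]
  simp [nm]

/-- both signs give the two estimates -/
theorem two {p X K : ℝ} (hp : 3 ≤ p) (hX : 0 ≤ X) {w : ℝ} (hw : 0 ≤ w) {Q q E₁ E₂ : ℂ}
    (h1 : -((p : ℂ) ^ 2) * Q - ((1 : ℝ) : ℂ) * (p * X : ℝ) * q + E₁ = 0)
    (h2 : -((p : ℂ) ^ 2) * Q - ((-1 : ℝ) : ℂ) * (p * X : ℝ) * q + E₂ = 0)
    (b1 : w * ‖E₁‖ ≤ K) (b2 : w * ‖E₂‖ ≤ K) : w * ‖Q‖ ≤ K ∧ w * (X * ‖q‖) ≤ K := by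
  have hp0 : 0 < p := by linarith
  have hE : w * (‖E₁‖ + ‖E₂‖) ≤ 2 * K := by linarith
  constructor
  · have e : (((2 * p ^ 2 : ℝ)) : ℂ) * Q = E₁ + E₂ := by
      push_cast at h1 h2 ⊢
      linear_combination -h1 - h2
    have h3 : 2 * p ^ 2 * ‖Q‖ ≤ ‖E₁‖ + ‖E₂‖ := by
      have h4 : ‖(((2 * p ^ 2 : ℝ)) : ℂ) * Q‖ ≤ ‖E₁‖ + ‖E₂‖ := by
        rw [e]
        exact norm_add_le _ _
      rwa [norm_mul, Complex.norm_real, Real.norm_eq_abs, abs_of_pos (by positivity)] at h4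
    have h5 : 2 * ‖Q‖ ≤ 2 * p ^ 2 * ‖Q‖ := by
      have : (1 : ℝ) ≤ p ^ 2 := one_le_pow₀ (by linarith)
      nlinarith [norm_nonneg Q]
    have h6 : w * (2 * ‖Q‖) ≤ w * (‖E₁‖ + ‖E₂‖) := mul_le_mul_of_nonneg_left (h5.trans h3) hw
    linarith
  · have e : (((2 * p * X : ℝ)) : ℂ) * q = E₁ - E₂ := by
      push_cast at h1 h2 ⊢
      linear_combination -h1 + h2
    have h3 : 2 * p * (X * ‖q‖) ≤ ‖E₁‖ + ‖E₂‖ := by
      have h4 : ‖(((2 * p * X : ℝ)) : ℂ) * q‖ ≤ ‖E₁‖ + ‖E₂‖ := by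
        rw [e]
        exact norm_sub_le _ _
      rw [norm_mul, Complex.norm_real, Real.norm_eq_abs, abs_of_nonneg (by positivity)] at h4
      linarith
    have h5 : 2 * (X * ‖q‖) ≤ 2 * p * (X * ‖q‖) := by
      have h7 : 0 ≤ X * ‖q‖ := mul_nonneg hX (norm_nonneg _)
      nlinarith
    have h6 : w * (2 * (X * ‖q‖)) ≤ w * (‖E₁‖ + ‖E₂‖) :=
      mul_le_mul_of_nonneg_left (h5.trans h3) hw
    linarith

/-- **row ESFU** -/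
theorem esf_of (hbu : RowBrU) (hbw : RowBrW) (hcb : RowCbd) (hss : RowSsm) (hC : RowCGM)
    (hA2 : RowA2) : RowESFU := by
  intro n N
  obtain ⟨χ, C₂, cχ, χ1, χ0, hC₂, hcbd⟩ := hcb n N
  obtain ⟨C₁, hC₁, hcgm⟩ := hC n N (n + 2)
  set D : ℝ := C₁ * C₂ with hDd
  have hD : 0 < D := mul_pos hC₁ hC₂
  have hK := KK_nonneg (n := n) (N := N) hD.le
  set C : ℝ := KK n N D + D + 1 with hCd
  refine ⟨n + 2 + n + 1 + 1, C, by positivity, ?_⟩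
  intro i₀ Ω τ τi κ h q B a b hτ hτi hκ hCb hh hq ξ hξ hX hXa α β
  have hΩ : Ω ⊆ core n := B.sub.trans bls_sub
  have hX0 : 0 ≤ nr ξ := by linarith
  have ha : 0 ≤ a := a_nonneg (hh i₀ i₀ α β)
  have hb : 0 ≤ b := (norm_nonneg _).trans (hτ α β 0 (Nat.zero_le _) ξ)
  have hb1 : b ≤ 1 := by
    have h1 : 1 * b ≤ C * b := mul_le_mul_of_nonneg_right (by rw [hCd]; linarith) hb
    linarith
  have hDb : D * b ≤ 1 :=
    (mul_le_mul_of_nonneg_right (by rw [hCd]; linarith) hb).trans hCb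
  have hDb' : C₁ * (C₂ * b) ≤ 1 := by
    rw [← mul_assoc]
    exact hDb
  have hDa : C₁ * nr ξ * (C₂ * a) ≤ 1 := by
    have h1 : C₁ * nr ξ * (C₂ * a) = D * (nr ξ * a) := by rw [hDd]; ring
    rw [h1]
    have h2 : D * (nr ξ * a) ≤ C * (nr ξ * a) :=
      mul_le_mul_of_nonneg_right (by rw [hCd]; linarith) (mul_nonneg hX0 ha)
    have h3 : C * (nr ξ * a) = C * nr ξ * a := by ring
    linarith
  obtain ⟨k1, k2, k3, k4⟩ := hcbd Ω τ τi κ h q B a b hb hb1 hτ hτi hκ hh hq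
  obtain ⟨s1, s2, s3, s4, z1, z2, z3, z4⟩ := hss B cχ χ0 hΩ
  have hχ : ∀ x ∈ Ω, χ x = 1 := fun x hx => χ1 x (B.sub hx)
  have key : ∀ e : ℝ, e = 1 ∨ e = -1 → ∃ E : ℂ, -((Real.pi : ℂ) ^ 2) *
        (((nr ξ : ℝ) : ℂ) ^ 2 * ft (fun x => h i₀ i₀ x α β) ξ
        + ∑ i, ∑ j, (ξ i : ℂ) * ξ j * ft (fun x => h i j x α β) ξ)
        - (e : ℂ) * (Real.pi * nr ξ : ℝ) * ft (fun x => q i₀ x α β) ξ + E = 0 ∧
      wr ξ ^ (n + 2) * ‖E‖ ≤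
        KK n N D * (nr ξ ^ 2 * (b * a) + nr ξ ^ 3 * a ^ 2 * wr ξ ^ (n + 2)) := by
    intro e he
    have he' : -e = 1 ∨ -e = -1 := by
      rcases he with rfl | rfl
      · exact Or.inr rfl
      · exact Or.inl (neg_neg _)
    obtain ⟨y, -, c, -, U, -, S1, -, n1, -, -, -⟩ := hcgm i₀ β e ξ he hξ hX
      (fun _ _ _ _ _ => 0) (LU χ τ τi κ) (LU χ τ τi κ) (fun _ _ _ _ => contDiff_const) s1 s1
      (fun _ _ _ _ _ _ => rfl) z1 z1 (C₂ * b) 0 k1 (fun _ _ _ _ => nm_cf_zero)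
      (fun j a' b' => by simpa only [sub_self] using nm_cf_zero) hDb' (by simp)
    obtain ⟨v₀, v, d₀, d, W₀, W, S3, S4, n2, n3, n4, n5⟩ := hcgm i₀ α (-e) ξ he' hξ hX
      (HW τi h) (LW0 χ τ τi κ) (LW χ τ τi κ h q) s3 s2 s4 z3 z2 z4 (C₂ * b) (C₂ * a) k2 k3 k4
      hDb' hDa
    refine one hA2 hbu hbw B hΩ hχ hX he hD.le hb ha hDb hh hq S1 S3 S4 (fun i a' => ?_)
      (fun i a' => ?_) (fun i a' => ?_) (fun a' => ?_) fun a' => ?_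
    · refine (n1 i a').trans (le_of_eq ?_)
      rw [hDd]; ring
    · refine (n2 i a').trans (le_of_eq ?_)
      rw [hDd]; ring
    · refine (n3 i a').trans (le_of_eq ?_)
      rw [hDd]; ring
    · refine (n4 a').trans (le_of_eq ?_)
      rw [hDd]; ring
    · refine (n5 a').trans (le_of_eq ?_)
      rw [hDd]; ring
  obtain ⟨E₁, g1, b1⟩ := key 1 (Or.inl rfl)
  obtain ⟨E₂, g2, b2⟩ := key (-1) (Or.inr rfl)
  have hw : 0 ≤ wr ξ ^ (n + 2) := pow_nonneg (by linarith [H650.wr_one ξ]) _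
  have r := two (w := wr ξ ^ (n + 2)) (by linarith [Real.pi_gt_three]) hX0 hw g1 g2 b1 b2
  have hS : 0 ≤ nr ξ ^ 2 * (b * a) + nr ξ ^ 3 * a ^ 2 * wr ξ ^ (n + 2) := by positivity
  have hfin : KK n N D * (nr ξ ^ 2 * (b * a) + nr ξ ^ 3 * a ^ 2 * wr ξ ^ (n + 2)) ≤
      C * nr ξ ^ 2 * (b * a) + C * nr ξ ^ 3 * a ^ 2 * wr ξ ^ (n + 2) := by
    calc KK n N D * (nr ξ ^ 2 * (b * a) + nr ξ ^ 3 * a ^ 2 * wr ξ ^ (n + 2))
        ≤ C * (nr ξ ^ 2 * (b * a) + nr ξ ^ 3 * a ^ 2 * wr ξ ^ (n + 2)) :=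
          mul_le_mul_of_nonneg_right (by rw [hCd]; linarith) hS
      _ = _ := by ring
  exact ⟨r.1.trans hfin, r.2.trans hfin⟩

end Vale.Agent.P088.LR.U.H393
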