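import Vale.Agent.P088.H599.J.Defs
import Vale.Agent.P088.H393.CGMDefs

/-!
# P088, stage J, row ESFU: the coefficients of the two equations
-/

open MeasureTheory Set
open scoped ContDiff Matrix

noncomputable section

namespace Vale.Agent.P088.LR.U.H393

open CF H158

variable {n N : ℕ}

/-- The entries of `χ P`. -/
def ce (χ : V n → ℝ) (P : MC n N) (a b : Fin N) (x : V n) : ℂ := (χ x : ℂ) * P x a b

/-- `τi (∂_j τ + κ_j)`. -/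
def PU (τ τi : MC n N) (κ : Fin n → MC n N) (j : Fin n) : MC n N :=
  fun x => τi x * (pdm j τ x + κ j x)

/-- `(∂_j τ - κ_j) τi`. -/
def PW (τ τi : MC n N) (κ : Fin n → MC n N) (j : Fin n) : MC n N :=
  fun x => (pdm j τ x - κ j x) * τi x

/-- First order coefficient, `u` side. -/
def LU (χ : V n → ℝ) (τ τi : MC n N) (κ : Fin n → MC n N) (j : Fin n) (a b : Fin N)
    (x : V n) : ℂ := ce χ (PU τ τi κ j) a b x

/-- First order coefficient of the background, `w` side (transposed). -/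
def LW0 (χ : V n → ℝ) (τ τi : MC n N) (κ : Fin n → MC n N) (j : Fin n) (a b : Fin N)
    (x : V n) : ℂ := ce χ (PW τ τi κ j) b a x

/-- Second order coefficient, `w` side (transposed). -/
def HW (τi : MC n N) (h : Fin n → Fin n → MC n N) (i j : Fin n) (a b : Fin N) (x : V n) : ℂ :=
  (h j i x * τi x) b a

/-- First order coefficient, `w` side (transposed). -/
def LW (χ : V n → ℝ) (τ τi : MC n N) (κ : Fin n → MC n N) (h : Fin n → Fin n → MC n N)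
    (q : Fin n → MC n N) (j : Fin n) (a b : Fin N) (x : V n) : ℂ :=
  LW0 χ τ τi κ j a b x + (((∑ i, h j i x * τi x * pdm i τ x) - q j x) * τi x) b a

/-- (1) the `u` side. -/
def RowBrU : Prop := ∀ {n N : ℕ} {Ω : Set (V n)} {τ τi : MC n N} {κ : Fin n → MC n N}
  {h : Fin n → Fin n → MC n N} {q : Fin n → MC n N}, BkU Ω τ τi κ h q → ∀ {χ : V n → ℝ},
  (∀ x ∈ Ω, χ x = 1) → Ω ⊆ cube n → ∀ {z : Fin n → ℂ} {θ : V n} {β : Fin N}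
  {y : Fin n → Fin N → Ix n → ℂ} {c : Fin N → Ix n → ℂ} {W : Fin N → V n → ℂ},
  SolM z θ β (fun _ _ _ _ _ => 0) (LU χ τ τi κ) y c W →
  ∀ x ∈ Ω, Mo (dg τ) κ (fun y a => W a y) x = 0

/-- (2) the `w` side. -/
def RowBrW : Prop := ∀ {n N : ℕ} {Ω : Set (V n)} {τ τi : MC n N} {κ : Fin n → MC n N}
  {h : Fin n → Fin n → MC n N} {q : Fin n → MC n N}, BkU Ω τ τi κ h q → ∀ {χ : V n → ℝ},
  (∀ x ∈ Ω, χ x = 1) → Ω ⊆ cube n → ∀ {z : Fin n → ℂ} {θ : V n} {β : Fin N}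
  {y : Fin n → Fin N → Ix n → ℂ} {c : Fin N → Ix n → ℂ} {W : Fin N → V n → ℂ},
  SolM z θ β (HW τi h) (LW χ τ τi κ h q) y c W →
  ∀ x ∈ Ω, Mt (fun i j x => dg τ i j x + h i j x) (fun i x => κ i x + q i x)
    (fun y a => W a y) x = 0

/-- (3) the bounds of the coefficients, `m = n + 2`. -/
def RowCbd : Prop := ∀ n N : ℕ, ∃ (χ : V n → ℝ) (C : ℝ), ContDiff ℝ ∞ χ ∧
  (∀ x ∈ bls n, χ x = 1) ∧ (∀ x ∉ core n, χ x = 0) ∧ 0 < C ∧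
  ∀ (Ω : Set (V n)) (τ τi : MC n N) (κ : Fin n → MC n N) (h : Fin n → Fin n → MC n N)
  (q : Fin n → MC n N), BkU Ω τ τi κ h q → ∀ a b : ℝ, 0 ≤ b → b ≤ 1 →
  ClC (n + 2 + n + 1 + 1) b (fun x => τ x - 1) → ClC (n + 2 + n + 1 + 1) b (fun x => τi x - 1) →
  (∀ i, ClC (n + 2 + n + 1 + 1) b (κ i)) →
  (∀ i j α β, ∀ ζ : V n, wr ζ ^ (n + 2) * ‖ft (fun x => h i j x α β) ζ‖ ≤ a) →
  (∀ i α β, ∀ ζ : V n, wr ζ ^ (n + 1) * ‖ft (fun x => q i x α β) ζ‖ ≤ a) →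
  (∀ j α β, Cl (n + 2 + n + 1) (C * b) (LU χ τ τi κ j α β)) ∧
  (∀ j α β, Cl (n + 2 + n + 1) (C * b) (LW0 χ τ τi κ j α β)) ∧
  (∀ i j α β, nm 0 (cf 0 (HW τi h i j α β)) ≤ C * a) ∧
  ∀ j α β, nm 0 (cf 0 (fun x => LW χ τ τi κ h q j α β x - LW0 χ τ τi κ j α β x)) ≤ C * a

/-- (4) smoothness and supports. -/
def RowSsm : Prop := ∀ {n N : ℕ} {Ω : Set (V n)} {τ τi : MC n N} {κ : Fin n → MC n N}
  {h : Fin n → Fin n → MC n N} {q : Fin n → MC n N}, BkU Ω τ τi κ h q → ∀ {χ : V n → ℝ},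
  ContDiff ℝ ∞ χ → (∀ x ∉ core n, χ x = 0) → Ω ⊆ core n →
  (∀ j a b, ContDiff ℝ ∞ (LU χ τ τi κ j a b)) ∧ (∀ j a b, ContDiff ℝ ∞ (LW0 χ τ τi κ j a b)) ∧
  (∀ i j a b, ContDiff ℝ ∞ (HW τi h i j a b)) ∧
  (∀ j a b, ContDiff ℝ ∞ (LW χ τ τi κ h q j a b)) ∧
  (∀ j a b, ∀ x ∉ core n, LU χ τ τi κ j a b x = 0) ∧
  (∀ j a b, ∀ x ∉ core n, LW0 χ τ τi κ j a b x = 0) ∧
  (∀ i j a b, ∀ x ∉ core n, HW τi h i j a b x = 0) ∧
  ∀ j a b, ∀ x ∉ core n, LW χ τ τi κ h q j a b x = 0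

end Vale.Agent.P088.LR.U.H393
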